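import Crest.Agent.R180.Td

/-! # Row 180: the generic twisted algebra is a domain -/

set_option autoImplicit false

namespace Crest.Agent.R180

open Finset MvPolynomial

namespace Base

variable {m : ℕ} {V : Type}

/-- the degree of `u ψ` (in half units) -/
noncomputable def HH (s : Sg m → V) (ψ : Hh m) : V →₀ ℕ := ∑ i, Finsupp.single (s i) (ψ i).val

/-- the degree of a structure constant -/
noncomputable def GG (s : Sg m → V) (ψ φ : Hh m) : V →₀ ℕ :=
  ∑ i, Finsupp.single (s i) (if ψ i = 1 ∧ φ i = 1 then 1 else 0)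

lemma GG_HH (s : Sg m → V) (ψ φ : Hh m) :
    GG s ψ φ + GG s ψ φ + HH s (ψ + φ) = HH s ψ + HH s φ := by
  simp only [GG, HH, ← Finset.sum_add_distrib, ← Finsupp.single_add]
  refine Finset.sum_congr rfl fun i _ => congrArg _ ?_
  rw [Pi.add_apply]
  generalize ψ i = a
  generalize φ i = b
  revert a b
  decide

lemma HH_apply {s : Sg m → V} (hs : Function.Injective s) (ψ : Hh m) (i : Sg m) :
    HH s ψ (s i) = (ψ i).val := by
  rw [HH, Finsupp.finsetSum_apply, Finset.sum_eq_single i]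
  · simp
  · intro j _ hj
    exact Finsupp.single_eq_of_ne (fun h => hj (hs h).symm)
  · simp

lemma parity {s : Sg m → V} (hs : Function.Injective s) {ψ φ : Hh m} {d e : V →₀ ℕ}
    (h : d + d + HH s ψ = e + e + HH s φ) : ψ = φ := by
  funext i
  have h1 := DFunLike.congr_fun h (s i)
  simp only [Finsupp.add_apply, HH_apply hs] at h1
  have h2 := ZMod.val_lt (ψ i)
  have h3 := ZMod.val_lt (φ i)
  exact ZMod.val_injective 2 (by omega)

lemma coc_eq (s : Sg m → V) (ψ φ : Hh m) :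
    coc (fun i => (X (s i) : PP V)) ψ φ = monomial (GG s ψ φ) (sgn ℚ (beta ψ φ)) := by
  rw [coc, GG, ← map_sgn (C : ℚ →+* PP V), monomial_sum_index]
  congr 1
  refine Finset.prod_congr rfl fun i _ => ?_
  split_ifs
  · rfl
  · simp

lemma sgn_ne_zero (a : ZMod 2) : sgn ℚ a ≠ 0 := by
  unfold sgn; split_ifs <;> norm_num

lemma noZeroDivisors_poly [Fintype V] (s : Sg m → V) (hs : Function.Injective s) :
    NoZeroDivisors (Tw fun i => (X (s i) : PP V)) := by
  classical
  let : LinearOrder V := LinearOrder.lift' (Fintype.equivFin V) (Fintype.equivFin V).injective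
  let o : MonomialOrder V := MonomialOrder.lex
  refine ⟨fun {a b} hab => ?_⟩
  by_contra hne
  rw [not_or] at hne
  let D : Tw (fun i => (X (s i) : PP V)) → Hh m → o.syn := fun c ψ =>
    o.toSyn (o.degree (c ψ) + o.degree (c ψ) + HH s ψ)
  have hmax : ∀ c : Tw (fun i => (X (s i) : PP V)), c ≠ 0 →
      ∃ ψ₀, c ψ₀ ≠ 0 ∧ ∀ ψ, c ψ ≠ 0 → D c ψ ≤ D c ψ₀ := by
    intro c hc
    have : (Finset.univ.filter fun ψ => c ψ ≠ 0).Nonempty := by
      by_contra h
      rw [Finset.not_nonempty_iff_eq_empty, Finset.filter_eq_empty_iff] at h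
      exact hc (Tw.ext fun ψ => not_not.1 (h (Finset.mem_univ ψ)))
    obtain ⟨ψ₀, h1, h2⟩ := Finset.exists_max_image _ (D c) this
    exact ⟨ψ₀, (Finset.mem_filter.1 h1).2, fun ψ hψ => h2 ψ (by simpa using hψ)⟩
  obtain ⟨ψ₀, ha0, ha⟩ := hmax a hne.1
  obtain ⟨φ₀, hb0, hb⟩ := hmax b hne.2
  let t : Hh m → Hh m → PP V := fun ψ φ => coc (fun i => (X (s i) : PP V)) ψ φ * (a ψ * b φ)
  have hc0 : ∀ ψ φ : Hh m, coc (fun i => (X (s i) : PP V)) ψ φ ≠ 0 := fun ψ φ => by
    rw [coc_eq]; exact fun h => sgn_ne_zero _ (monomial_eq_zero.1 h)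
  have hdeg : ∀ ψ φ, a ψ ≠ 0 → b φ ≠ 0 →
      o.toSyn (o.degree (t ψ φ)) + o.toSyn (o.degree (t ψ φ)) + o.toSyn (HH s (ψ + φ)) =
        D a ψ + D b φ := by
    intro ψ φ h1 h2
    simp only [t, D, ← map_add]
    rw [o.degree_mul (hc0 ψ φ) (mul_ne_zero h1 h2), o.degree_mul h1 h2, coc_eq, o.degree_monomial,
      if_neg (sgn_ne_zero _)]
    congr 1
    have := GG_HH s ψ φ
    calc _ = o.degree (a ψ) + o.degree (a ψ) + o.degree (b φ) + o.degree (b φ) +
          (GG s ψ φ + GG s ψ φ + HH s (ψ + φ)) := by abel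
      _ = _ := by rw [this]; abel
  have h0 : (a * b) (ψ₀ + φ₀) = 0 := by rw [hab]; rfl
  rw [Tw.mul_apply] at h0
  have h1 := congrArg (coeff (o.degree (t ψ₀ φ₀))) h0
  rw [coeff_sum, coeff_zero, Finset.sum_eq_single ψ₀] at h1
  · rw [Hh.add_add_cancel] at h1
    exact o.coeff_degree_ne_zero_iff.2 (mul_ne_zero (hc0 _ _) (mul_ne_zero ha0 hb0)) h1
  · intro ψ _ hψ
    by_cases h2 : a ψ = 0
    · simp [h2]
    by_cases h3 : b (ψ + (ψ₀ + φ₀)) = 0
    · simp [h3]
    refine o.coeff_eq_zero_of_lt (f := t ψ (ψ + (ψ₀ + φ₀))) ?_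
    have h4 := hdeg ψ _ h2 h3
    have h5 := hdeg ψ₀ φ₀ ha0 hb0
    rw [Hh.add_add_cancel] at h4
    have h6 : D a ψ < D a ψ₀ :=
      lt_of_le_of_ne (ha ψ h2) fun h => hψ (parity hs (o.toSyn.injective h))
    have h7 := add_lt_add_of_lt_of_le h6 (hb _ h3)
    rw [← h4, ← h5] at h7
    by_contra h8
    have h9 := not_lt.1 h8
    exact absurd (lt_of_add_lt_add_right h7) (not_lt.2 (add_le_add h9 h9))
  · simp

end Base

/-- Let `e : P → ℚ[Sg m ⊕ V]` send `X v ↦ 0` for `v ∈ S`, `X (s i) ↦ X (inl i)²`, other `X v ↦ X (inr v)`; its kernel is `vI S`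
(distinct monomials in the variables outside `S` go to distinct monomials), all monomials of `e r` have even exponents at
`inl i`.  For `a : Tw` put `θ a ψ = ē (a ψ) * U^ψ`, `U^ψ = ∏_{ψ i = 1} X (inl i)`; then
`θ (a * b) χ = ∑_ψ ± θ a ψ * θ b (ψ + χ)`.  For a monomial order the degrees of the nonzero `θ a ψ` are distinct for distinct `ψ` (parity);
take the maximal `ψ₀` for `a` and `φ₀` for `b`; in the component `χ = ψ₀ + φ₀` the term `ψ = ψ₀` has strictly the largest degree
(`MonomialOrder.degree_mul`), so the sum is not zero. -/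
theorem noZeroDivisors_base {m : ℕ} {V : Type} [Fintype V] [DecidableEq V] (s : Sg m → V)
    (hs : Function.Injective s) (S : Set V) (hS : ∀ i, s i ∉ S) :
    NoZeroDivisors (Tw fun i => Ideal.Quotient.mk (vI S) (X (s i) : PP V)) := by
  classical
  let k : PP V →ₐ[ℚ] PP V := aeval fun v => if v ∈ S then 0 else X v
  have hk : ∀ r ∈ vI S, k.toRingHom r = 0 := by
    intro r hr
    have : vI S ≤ RingHom.ker k.toRingHom := by
      rw [vI, Ideal.span_le]
      rintro _ ⟨v, hv, rfl⟩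
      simp [k, hv]
    exact this hr
  have hk2 : (Ideal.Quotient.mkₐ ℚ (vI S)).comp k = Ideal.Quotient.mkₐ ℚ (vI S) := by
    refine MvPolynomial.algHom_ext fun v => ?_
    simp only [k, AlgHom.comp_apply, aeval_X]
    split_ifs with hv
    · rw [map_zero]
      exact (Ideal.Quotient.eq_zero_iff_mem.2 (Ideal.subset_span (Set.mem_image_of_mem _ hv))).symm
    · rfl
  let kb : PP V ⧸ vI S →+* PP V := Ideal.Quotient.lift (vI S) k.toRingHom hk
  have hinj : Function.Injective kb := by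
    rw [injective_iff_map_eq_zero]
    intro x hx
    obtain ⟨r, rfl⟩ := Ideal.Quotient.mk_surjective x
    have h1 : k r = 0 := hx
    have h2 := DFunLike.congr_fun hk2 r
    rw [AlgHom.comp_apply, h1, map_zero] at h2
    exact h2.symm
  have hs' : ∀ i, kb (Ideal.Quotient.mk (vI S) (X (s i) : PP V)) = X (s i) := fun i => by
    change k (X (s i)) = _
    simp [k, hS i]
  have := Base.noZeroDivisors_poly s hs
  refine Function.Injective.noZeroDivisors (Tw.map kb hs') (fun a b h => Tw.ext fun ψ => hinj ?_)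
    (map_zero _) (map_mul _)
  exact congrArg (fun c : Tw fun i => (X (s i) : PP V) => c ψ) h

end Crest.Agent.R180
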