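import Crest.Agent.R180.Master

/-! # Row 180: cutting a good prime by a homogeneous element -/

set_option autoImplicit false

namespace Crest.Agent.R180

open Finset MvPolynomial

namespace Cut

/-- Additivity of length for `0 → S/(A : f) → S/A → S/(A + f) → 0`. -/
theorem length_colon {S : Type} [CommRing S] (A : Ideal S) (f : S) :
    Module.length S (S ⧸ A) =
      Module.length S (S ⧸ A.colon {f}) + Module.length S (S ⧸ (A ⊔ Ideal.span {f})) := by
  let g₁ : (S ⧸ A.colon {f}) →ₗ[S] (S ⧸ A) :=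
    Submodule.mapQ (A.colon {f}) A (LinearMap.toSpanSingleton S S f) (by
      intro x hx
      simpa [Submodule.mem_colon_singleton] using hx)
  let g₂ : (S ⧸ A) →ₗ[S] (S ⧸ (A ⊔ Ideal.span {f})) :=
    Submodule.mapQ A (A ⊔ Ideal.span {f}) LinearMap.id (by
      intro x hx
      exact Ideal.mem_sup_left hx)
  refine Module.length_eq_add_of_exact g₁ g₂ ?_ ?_ ?_
  · rw [injective_iff_map_eq_zero]
    intro x hx
    obtain ⟨x, rfl⟩ := Submodule.Quotient.mk_surjective _ x
    rw [Submodule.mapQ_apply, Submodule.Quotient.mk_eq_zero] at hx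
    rw [Submodule.Quotient.mk_eq_zero, Submodule.mem_colon_singleton]
    simpa using hx
  · intro y
    obtain ⟨y, rfl⟩ := Submodule.Quotient.mk_surjective _ y
    exact ⟨Submodule.Quotient.mk y, rfl⟩
  · intro y
    obtain ⟨y, rfl⟩ := Submodule.Quotient.mk_surjective _ y
    rw [Submodule.mapQ_apply, Submodule.Quotient.mk_eq_zero]
    constructor
    · intro hy
      obtain ⟨a, ha, b, hb, hab⟩ := Submodule.mem_sup.mp hy
      obtain ⟨c, rfl⟩ := Ideal.mem_span_singleton'.mp hb
      refine ⟨Submodule.Quotient.mk c, ?_⟩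
      rw [Submodule.mapQ_apply, Submodule.Quotient.eq]
      have : (LinearMap.toSpanSingleton S S f) c - y = -a := by
        simp only [LinearMap.id_apply] at hab
        simp [← hab]
      rw [this]
      exact A.neg_mem ha
    · rintro ⟨c, hc⟩
      obtain ⟨c, rfl⟩ := Submodule.Quotient.mk_surjective _ c
      rw [Submodule.mapQ_apply, Submodule.Quotient.eq] at hc
      have h1 : y = -((LinearMap.toSpanSingleton S S f) c - y) + c * f := by simp
      rw [LinearMap.id_apply, h1]
      exact Ideal.add_mem _ (Ideal.mem_sup_left (A.neg_mem hc))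
        (Ideal.mem_sup_right (Ideal.mem_span_singleton'.mpr ⟨c, rfl⟩))

/-- Localisation commutes with the colon by one element. -/
theorem map_colon {R S : Type} [CommRing R] [CommRing S] [Algebra R S] (M : Submonoid R)
    [IsLocalization M S] (J : Ideal R) (φ : R) :
    (J.colon {φ}).map (algebraMap R S) = (J.map (algebraMap R S)).colon {algebraMap R S φ} := by
  apply le_antisymm
  · rw [Ideal.map_le_iff_le_comap]
    intro x hx
    rw [Ideal.mem_comap, Submodule.mem_colon_singleton, smul_eq_mul, ← map_mul]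
    exact Ideal.mem_map_of_mem _ (by simpa [Submodule.mem_colon_singleton] using hx)
  · intro z hz
    rw [Submodule.mem_colon_singleton, smul_eq_mul] at hz
    obtain ⟨⟨a, s⟩, hs⟩ := IsLocalization.surj M z
    obtain ⟨⟨b, t⟩, ht⟩ := (IsLocalization.mem_map_algebraMap_iff M S).mp hz
    simp only at hs ht
    have h1 : algebraMap R S (a * φ * t) = algebraMap R S (b * s) := by
      rw [map_mul, map_mul, map_mul, ← hs, ← ht]; ring
    obtain ⟨u, hu⟩ := (IsLocalization.eq_iff_exists M S).mp h1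
    have h2 : (u : R) * t * a ∈ J.colon {φ} := by
      rw [Submodule.mem_colon_singleton, smul_eq_mul]
      have : (u : R) * t * a * φ = u * s * b := by linear_combination hu
      rw [this]
      exact J.mul_mem_left _ b.2
    refine (IsLocalization.mem_map_algebraMap_iff M S).mpr ⟨⟨⟨_, h2⟩, u * t * s⟩, ?_⟩
    simp only [Submonoid.coe_mul, map_mul, ← hs]
    ring

theorem coeff_mul_of_dvd {R : Type} [CommRing R] {a b : ℕ} {f g : Polynomial R}
    (hf : Polynomial.X ^ a ∣ f) (hg : Polynomial.X ^ b ∣ g) :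
    (f * g).coeff (a + b) = f.coeff a * g.coeff b := by
  obtain ⟨f', rfl⟩ := hf
  obtain ⟨g', rfl⟩ := hg
  have h : Polynomial.X ^ a * f' * (Polynomial.X ^ b * g') = Polynomial.X ^ (a + b) * (f' * g') := by
    ring
  rw [h]
  simp [Polynomial.coeff_X_pow_mul']

end Cut

variable {V σ : Type} [Fintype V] [DecidableEq V] [Fintype σ] [DecidableEq σ] {w : V → σ →₀ ℕ}

omit [Fintype V] [DecidableEq V] in
/-- In `S = P_q`: `0 → S/(JS : φ) → S/JS → S/(JS + φ) → 0` (`Module.length_eq_add_of_exact`) and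
`(J : φ) S = (J S : φ)` elementwise (`IsLocalization.mem_map_algebraMap_iff`). -/
theorem lam_colon (q : PrimeSpectrum (PP V)) (J : Ideal (PP V)) (φ : PP V) :
    lam q J = lam q (J.colon {φ}) + lam q (J ⊔ Ideal.span {φ}) := by
  unfold lam
  rw [Cut.map_colon q.asIdeal.primeCompl, Ideal.map_sup, Ideal.map_span, Set.image_singleton]
  exact Cut.length_colon _ _

omit [Fintype V] [DecidableEq V] in
theorem lam_self (q : PrimeSpectrum (PP V)) : lam q q.asIdeal = 1 := by
  unfold lam
  rw [Localization.AtPrime.map_eq_maximalIdeal, Module.length_eq_one_iff,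
    isSimpleModule_iff_isCoatom]
  exact (IsLocalRing.maximalIdeal.isMaximal _).out

omit [Fintype V] [DecidableEq V] in
theorem lam_of_not_le (q : PrimeSpectrum (PP V)) {J : Ideal (PP V)} (h : ¬ J ≤ q.asIdeal) :
    lam q J = 0 := by
  unfold lam
  obtain ⟨x, hxJ, hxq⟩ := Set.not_subset.mp h
  have : J.map (algebraMap (PP V) (Localization.AtPrime q.asIdeal)) = ⊤ :=
    Ideal.eq_top_of_isUnit_mem _ (Ideal.mem_map_of_mem _ hxJ)
      (IsLocalization.map_units (Localization.AtPrime q.asIdeal)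
        (⟨x, hxq⟩ : q.asIdeal.primeCompl))
  rw [this, Module.length_eq_zero_iff]
  exact Ideal.Quotient.subsingleton_iff.mpr rfl

namespace Cut

open Classical in
/-- The coefficient of `ε ^ n` in `EI I K_J`. -/
noncomputable def co (w : V → σ →₀ ℕ) (I : Finset σ) (n : ℕ) (J : Ideal (PP V)) :
    MvPolynomial σ (ZMod 2) :=
  if h : ∃ K, IsK w univ J K then (EI I h.choose).coeff n else 0

theorem co_eq (I : Finset σ) (n : ℕ) {J : Ideal (PP V)} {K : MvPolynomial σ ℤ}
    (h : IsK w univ J K) : co w I n J = (EI I K).coeff n := by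
  have h' : ∃ K, IsK w univ J K := ⟨K, h⟩
  unfold co
  rw [dif_pos h', h'.choose_spec.unique h]

theorem exists_K' (hw : ∀ v, w v ≠ 0) (I : Finset σ) {J : Ideal (PP V)} (hJ : IsHomI w J) :
    ∃ K, IsK w univ J K ∧ ∀ c : ℕ,
      (∀ q : Ideal (PP V), q.IsPrime → IsHomI w q → J ≤ q → c + td q ≤ Fintype.card V) →
      Polynomial.X ^ c ∣ EI I K := by
  obtain ⟨K, hK, h⟩ := exists_K hw univ J hJ (fun v hv => absurd (mem_univ v) hv)
  exact ⟨K, hK, fun c hc => h _ (EI I) Polynomial.X (fun v _ => X_dvd_one_sub_EI I (w v)) c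
    (by simpa using hc)⟩

theorem td_le_of_le {p q : Ideal (PP V)} (hp : p.IsPrime) (hq : q.IsPrime) (h : p ≤ q) :
    td q ≤ td p := by
  rcases h.eq_or_lt with rfl | h
  · exact le_rfl
  · exact (td_lt hp hq h).le

open Classical in
theorem cyc (hw : ∀ v, w v ≠ 0) (I : Finset σ) (n : ℕ) (J : Ideal (PP V)) :
    IsHomI w J →
    (∀ q : Ideal (PP V), q.IsPrime → IsHomI w q → J ≤ q → n + td q ≤ Fintype.card V) →
    ∃ L : Multiset (PrimeSpectrum (PP V)),
      (∀ q ∈ L, IsHomI w q.asIdeal ∧ J ≤ q.asIdeal ∧ n + td q.asIdeal = Fintype.card V) ∧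
      co w I n J = (L.map fun q => co w I n q.asIdeal).sum ∧
      ∀ q : PrimeSpectrum (PP V), n + td q.asIdeal = Fintype.card V →
        lam q J = (L.count q : ℕ) := by
  induction J using IsNoetherian.induction with
  | hgt J ih =>
  intro hJ hb
  -- vanishing case
  have hvan : (∀ q : Ideal (PP V), q.IsPrime → J ≤ q → n + td q < Fintype.card V) →
      ∃ L : Multiset (PrimeSpectrum (PP V)),
      (∀ q ∈ L, IsHomI w q.asIdeal ∧ J ≤ q.asIdeal ∧ n + td q.asIdeal = Fintype.card V) ∧
      co w I n J = (L.map fun q => co w I n q.asIdeal).sum ∧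
      ∀ q : PrimeSpectrum (PP V), n + td q.asIdeal = Fintype.card V →
        lam q J = (L.count q : ℕ) := by
    intro h
    obtain ⟨K, hK, hd⟩ := exists_K' hw I hJ
    refine ⟨0, by simp, ?_, fun q hq => ?_⟩
    · have := hd (n + 1) fun q hq _ hle => by have := h q hq hle; omega
      rw [co_eq I n hK, Polynomial.X_pow_dvd_iff.mp this n (Nat.lt_succ_self n)]
      simp
    · rw [lam_of_not_le q fun hle => by have := h _ q.isPrime hle; omega]
      simp
  by_cases htop : J = ⊤
  · exact hvan fun q hq hle => absurd (top_le_iff.mp (htop ▸ hle)) hq.ne_top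
  by_cases hp : Ideal.IsPrime J
  · rcases (hb J hp hJ le_rfl).eq_or_lt with heq | hlt
    · refine ⟨{⟨J, hp⟩}, ?_, by simp, fun q hq => ?_⟩
      · intro q hq
        rw [Multiset.mem_singleton] at hq
        subst hq
        exact ⟨hJ, le_rfl, heq⟩
      · by_cases hqJ : q = ⟨J, hp⟩
        · subst hqJ
          rw [Multiset.count_singleton_self]
          exact lam_self _
        · rw [Multiset.count_singleton, if_neg hqJ, lam_of_not_le]
          · simp
          · intro hle
            have hne : J ≠ q.asIdeal := fun e => hqJ (PrimeSpectrum.ext e.symm)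
            have := td_lt hp q.isPrime (lt_of_le_of_ne hle hne)
            omega
    · exact hvan fun q hq hle => by have := td_le_of_le hp hq hle; omega
  obtain ⟨φ, ψ, δ, δ', hφ, hψ, hφJ, hψJ, hmul⟩ := hJ.exists_mul_mem htop hp
  have hle₁ : J ≤ J.colon {φ} := fun x hx => by
    rw [Submodule.mem_colon_singleton, smul_eq_mul]; exact Ideal.mul_mem_right _ _ hx
  have hlt₁ : J < J.colon {φ} := lt_of_le_of_ne hle₁ fun e => hψJ (by
    rw [e, Submodule.mem_colon_singleton, smul_eq_mul, mul_comm]; exact hmul)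
  have hlt₂ : J < J ⊔ Ideal.span {φ} := lt_of_le_of_ne le_sup_left fun e => hφJ (by
    rw [e]; exact Ideal.mem_sup_right (Ideal.mem_span_singleton_self φ))
  have hb₁ : ∀ q : Ideal (PP V), q.IsPrime → IsHomI w q → J.colon {φ} ≤ q →
      n + td q ≤ Fintype.card V := fun q hq hq' hle => hb q hq hq' (hle₁.trans hle)
  obtain ⟨L₁, hL₁, hc₁, hl₁⟩ := ih _ hlt₁ (hJ.colon hφ) hb₁
  obtain ⟨L₂, hL₂, hc₂, hl₂⟩ := ih _ hlt₂ (hJ.sup_span hφ)
    fun q hq hq' hle => hb q hq hq' (le_sup_left.trans hle)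
  obtain ⟨K₁, hK₁, hd₁⟩ := exists_K' hw I (hJ.colon hφ)
  obtain ⟨K₂, hK₂, -⟩ := exists_K' hw I (hJ.sup_span hφ)
  refine ⟨L₁ + L₂, ?_, ?_, fun q hq => ?_⟩
  · intro q hq
    rcases Multiset.mem_add.mp hq with hq | hq
    · exact ⟨(hL₁ q hq).1, hle₁.trans (hL₁ q hq).2.1, (hL₁ q hq).2.2⟩
    · exact ⟨(hL₂ q hq).1, le_sup_left.trans (hL₂ q hq).2.1, (hL₂ q hq).2.2⟩
  · rw [Multiset.map_add, Multiset.sum_add, ← hc₁, ← hc₂,
      co_eq I n (IsK.colon hw hJ hφ hK₁ hK₂), co_eq I n hK₁, co_eq I n hK₂, map_add, map_mul,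
      Polynomial.coeff_add]
    have := coeff_mul_of_dvd (a := 0) (f := EI I (monomial δ 1)) (by simp) (hd₁ n hb₁)
    rw [zero_add, EI_coeff_zero, one_mul] at this
    rw [this]
  · rw [lam_colon q J φ, hl₁ q hq, hl₂ q hq, Multiset.count_add, Nat.cast_add]

end Cut

/-- Let `M = |V|`, `c = M - td p`, and for homogeneous `J` let `co J` be the coefficient of `ε^(c+1)` in `EI I K_J`
(`exists_K` with `V' = univ`).  (CYC) For homogeneous `J` all of whose homogeneous primes `q ≥ J` have `c + 1 + td q ≤ M`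
there is a multiset `L` of homogeneous primes `q ≥ J` with `c + 1 + td q = M`, such that `co J = ∑_{q ∈ L} co q` and
`lam q J = count q L` for every prime `q` with `c + 1 + td q = M`: Noetherian induction as in `exists_K` (`IsK.colon`,
`EI_coeff_zero`, `lam_colon`; a prime `J` with `c + 1 + td J < M` has `co J = 0` by the order bound with `c + 2` and is not
contained in such a `q` by `td_lt`; a prime with equality gives `L = {J}`).  For `J = p ⊔ span {φ}`:
`co J = coeff 1 (1 - EI [δ]) * coeff c (EI K_p) ≠ 0` (`IsK.sup_span`, `ε^c ∣ EI K_p`, domain), so in characteristic two some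
`q` has odd multiplicity and `co q ≠ 0`. -/
theorem Good.cut (hw : ∀ v, w v ≠ 0) {I : Finset σ} {p : Ideal (PP V)} (hp : Good w I p)
    {φ : PP V} {δ : σ →₀ ℕ} (hφ : IsWeightedHomogeneous w φ δ) (hδ : Act I δ) (hφp : φ ∉ p) :
    ∃ q : PrimeSpectrum (PP V), Good w I q.asIdeal ∧ p ⊔ Ideal.span {φ} ≤ q.asIdeal ∧
      td q.asIdeal + 1 = td p ∧ ∃ n : ℕ, Odd n ∧ lam q (p ⊔ Ideal.span {φ}) = n := by
  classical
  obtain ⟨hpp, hph, K, hK, hKc⟩ := hp
  have htd := td_le hpp
  set c := Fintype.card V - td p with hc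
  obtain ⟨L, hL, hco, hl⟩ := Cut.cyc hw I (1 + c) (p ⊔ Ideal.span {φ}) (hph.sup_span hφ)
    fun q hq _ hle => by
      have hlt : p < q := lt_of_le_of_ne (le_sup_left.trans hle) fun e => hφp (by
        rw [e]; exact hle (Ideal.mem_sup_right (Ideal.mem_span_singleton_self φ)))
      have := td_lt hpp hq hlt
      omega
  obtain ⟨K', hK', hd⟩ := Cut.exists_K' hw I hph
  obtain rfl : K = K' := hK.unique hK'
  have hdc : Polynomial.X ^ c ∣ EI I K := hd c fun q hq _ hle => by
    have := Cut.td_le_of_le hpp hq hle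
    omega
  have hne : Cut.co w I (1 + c) (p ⊔ Ideal.span {φ}) ≠ 0 := by
    rw [Cut.co_eq I _ (IsK.sup_span hw hpp hph hφ hφp hK), map_mul, map_sub, map_one,
      Cut.coeff_mul_of_dvd (by simpa using X_dvd_one_sub_EI I δ) hdc]
    exact mul_ne_zero (EI_coeff_one_ne_zero hδ) hKc
  rw [hco, Finset.sum_multiset_map_count] at hne
  obtain ⟨q, hqL, hq⟩ := Finset.exists_ne_zero_of_sum_ne_zero hne
  obtain ⟨hqh, hqle, hqt⟩ := hL q (Multiset.mem_toFinset.mp hqL)
  have hodd : Odd (L.count q) := by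
    rw [← Nat.not_even_iff_odd]
    rintro ⟨k, hk⟩
    apply hq
    rw [hk, add_smul, CharTwo.add_self_eq_zero]
  have hcq : Cut.co w I (1 + c) q.asIdeal ≠ 0 := fun e => hq (by rw [e, smul_zero])
  obtain ⟨Kq, hKq, -⟩ := Cut.exists_K' hw I hqh
  refine ⟨q, ⟨q.isPrime, hqh, Kq, hKq, ?_⟩, hqle, by omega, _, hodd, hl q hqt⟩
  rw [Cut.co_eq I _ hKq] at hcq
  have : Fintype.card V - td q.asIdeal = 1 + c := by omega
  rwa [this]

end Crest.Agent.R180
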