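import Crest.Agent.R180.Tw

/-! # Row 180 (Kurosh problem for division rings): definitions -/

set_option autoImplicit false

namespace Crest.Agent.R180

open Finset MvPolynomial

/-! ## Gram polynomial -/

section gram
variable {R A : Type} [CommRing R] [Ring A] [Algebra R A]

/-- Gram matrix of the powers of `b`. -/
def gramM (τ : A →ₗ[R] R) (b : A) (d : ℕ) : Matrix (Fin d) (Fin d) R :=
  Matrix.of fun i j => τ (b ^ ((i : ℕ) + j))

/-- Gram determinant. -/
def gramD (τ : A →ₗ[R] R) (b : A) (d : ℕ) : R := (gramM τ b d).det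

/-- Cramer numerators for the coefficients of `b ^ d`. -/
def gramC (τ : A →ₗ[R] R) (b : A) (d : ℕ) : Fin d → R :=
  (gramM τ b d).cramer fun j => τ (b ^ (d + j))

/-- The Gram polynomial evaluated at `b`. -/
def gramF (τ : A →ₗ[R] R) (b : A) (d : ℕ) : A :=
  gramD τ b d • b ^ d - ∑ i : Fin d, gramC τ b d i • b ^ (i : ℕ)

end gram

/-! ## Terms -/

/-- Noncommutative polynomials in `x, y` with traces. -/
inductive Tm
  | x | y | c (n : ℤ) | add (a b : Tm) | mul (a b : Tm) | tr (a : Tm)
  deriving Countable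

namespace Tm

/-- Degree used for homogenisation (always positive). -/
def deg : Tm → ℕ
  | x => 1
  | y => 1
  | c _ => 1
  | add a b => a.deg + b.deg
  | mul a b => a.deg + b.deg
  | tr a => a.deg

variable {R A : Type} [CommRing R] [Ring A] [Algebra R A]

/-- Evaluation. -/
def ev (τ : A →ₗ[R] R) (X Y : A) : Tm → A
  | x => X
  | y => Y
  | c n => (n : A)
  | add a b => ev τ X Y a + ev τ X Y b
  | mul a b => ev τ X Y a * ev τ X Y b
  | tr a => algebraMap R A (τ (ev τ X Y a))

/-- Homogenised evaluation. -/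
def hev (τ : A →ₗ[R] R) (z : R) (X Y : A) : Tm → A
  | x => X
  | y => Y
  | c n => z • (n : A)
  | add a b => z ^ b.deg • hev τ z X Y a + z ^ a.deg • hev τ z X Y b
  | mul a b => hev τ z X Y a * hev τ z X Y b
  | tr a => algebraMap R A (τ (hev τ z X Y a))

end Tm

/-- A division algebra over a field of characteristic zero with a normalised linear form and two
elements. -/
structure Lvl where
  F : Type
  D : Type
  [fieldF : Field F]
  [charF : CharZero F]
  [ringD : Ring D]
  [alg : Algebra F D]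
  τ : D →ₗ[F] F
  x : D
  y : D
  τ_one : τ 1 = 1
  unit : ∀ a : D, a ≠ 0 → IsUnit a

attribute [instance] Lvl.fieldF Lvl.charF Lvl.ringD Lvl.alg

/-! ## Graded calculus -/

/-- The polynomial ring. -/
abbrev PP (V : Type) := MvPolynomial V ℚ

section graded
variable {V σ : Type} [Fintype V] [DecidableEq V] [Fintype σ] [DecidableEq σ]

/-- Homogeneous ideals. -/
def IsHomI (w : V → σ →₀ ℕ) (J : Ideal (PP V)) : Prop :=
  ∀ a ∈ J, ∀ γ, weightedHomogeneousComponent w γ a ∈ J

/-- Hilbert function. -/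
noncomputable def hf (w : V → σ →₀ ℕ) (J : Ideal (PP V)) (γ : σ →₀ ℕ) : ℕ :=
  Module.finrank ℚ
    ((weightedHomogeneousSubmodule ℚ w γ).map (Ideal.Quotient.mkₐ ℚ J).toLinearMap)

/-- Hilbert series. -/
noncomputable def HS (w : V → σ →₀ ℕ) (J : Ideal (PP V)) : MvPowerSeries σ ℤ :=
  fun γ => (hf w J γ : ℤ)

/-- `K` is the `K`-polynomial of `J` relative to the variables `V'`. -/
def IsK (w : V → σ →₀ ℕ) (V' : Finset V) (J : Ideal (PP V)) (K : MvPolynomial σ ℤ) : Prop :=
  (K : MvPowerSeries σ ℤ) = HS w J * ∏ v ∈ V', (1 - MvPowerSeries.monomial (w v) (1 : ℤ))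

/-- Transcendence degree of the quotient. -/
noncomputable def td (p : Ideal (PP V)) : ℕ := Cardinal.toNat (Algebra.trdeg ℚ (PP V ⧸ p))

/-- The evaluation `X i ↦ 1 + x_i ε` (`i ∉ I`), `X i ↦ 1` (`i ∈ I`) modulo two. -/
noncomputable def EI (I : Finset σ) :
    MvPolynomial σ ℤ →+* Polynomial (MvPolynomial σ (ZMod 2)) :=
  eval₂Hom (Int.castRingHom _) fun i =>
    if i ∈ I then 1 else 1 + Polynomial.C (X i) * Polynomial.X

/-- Active degrees. -/
def Act (I : Finset σ) (γ : σ →₀ ℕ) : Prop := ∃ i, i ∉ I ∧ Odd (γ i)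

/-- Good primes: the multidegree does not vanish under `EI I`. -/
def Good (w : V → σ →₀ ℕ) (I : Finset σ) (p : Ideal (PP V)) : Prop :=
  p.IsPrime ∧ IsHomI w p ∧
    ∃ K, IsK w univ p K ∧ (EI I K).coeff (Fintype.card V - td p) ≠ 0

/-- The ideal generated by a set of variables. -/
noncomputable def vI (S : Set V) : Ideal (PP V) := Ideal.span (X '' S)

/-- Length of `P/J` at the prime `q`. -/
noncomputable def lam (q : PrimeSpectrum (PP V)) (J : Ideal (PP V)) : ℕ∞ :=
  Module.length (Localization.AtPrime q.asIdeal)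
    (Localization.AtPrime q.asIdeal ⧸ J.map (algebraMap (PP V) (Localization.AtPrime q.asIdeal)))

end graded

/-! ## Homogeneous elements of the twisted algebra, isotropic subgroups -/

/-- An exponent vector as a degree. -/
noncomputable def hat {m : ℕ} (ψ : Hh m) : Sg m →₀ ℕ :=
  Finsupp.equivFunOnFinite.symm fun i => (ψ i).val

/-- `a` is homogeneous of degree `γ` (where `u ψ` has degree `hat ψ`). -/
def IsHom {m : ℕ} {V : Type} (w : V → Sg m →₀ ℕ) {s : Sg m → PP V} (γ : Sg m →₀ ℕ)
    (a : Tw s) : Prop :=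
  ∀ ψ, ∀ μ ∈ (a ψ).support, Finsupp.weight w μ + hat ψ = γ

/-- The index set `I_e`. -/
def II (m e : ℕ) : Finset (Sg m) := univ.filter fun i => i.2 = false ∧ (i.1 : ℕ) < e

/-- The isotropic subgroup `A_e` of order `2 ^ e` (for `e ≤ m`). -/
def InA {m : ℕ} (e : ℕ) (ψ : Hh m) : Prop := ∀ i, i ∉ II m e → ψ i = 0

/-- Its orthogonal complement. -/
def InPerp {m : ℕ} (e : ℕ) (ψ : Hh m) : Prop := ∀ i : Fin m, (i : ℕ) < e → ψ (i, true) = 0

end Crest.Agent.R180
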