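import Crest.Agent.R180.Defs

/-! # Row 180: derivations of a field and inner derivations -/

set_option autoImplicit false

namespace Crest.Agent.R180

open Finset

namespace Deriv

/-- Derivations extend along formally étale maps. -/
theorem exists_extend (R S T : Type) [CommRing R] [CommRing S] [CommRing T] [Algebra R S]
    [Algebra R T] [Algebra S T] [IsScalarTower R S T] [Algebra.FormallyEtale S T]
    (d : Derivation R S T) :
    ∃ d' : Derivation R T T, ∀ s : S, d' (algebraMap S T s) = d s := by
  let e := KaehlerDifferential.tensorKaehlerEquivOfFormallyEtale R S T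
  let f : Ω[T⁄R] →ₗ[T] T :=
    (LinearMap.liftBaseChange T d.liftKaehlerDifferential) ∘ₗ e.symm.toLinearMap
  refine ⟨f.compDer (KaehlerDifferential.D R T), fun s => ?_⟩
  have h := KaehlerDifferential.tensorKaehlerEquivOfFormallyEtale_symm_D_algebraMap R S T s
  change f (KaehlerDifferential.D R T (algebraMap S T s)) = d s
  simp only [f, e, LinearMap.comp_apply, LinearEquiv.coe_coe, h, LinearMap.liftBaseChange_tmul,
    one_smul, Derivation.liftKaehlerDifferential_comp_D]

open scoped IntermediateField.algebraAdjoinAdjoin in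
/-- The partial derivatives along a transcendence basis. -/
theorem exists_pderiv (F : Type) [Field F] [CharZero F] {ι : Type} [DecidableEq ι] {v : ι → F}
    (hv : IsTranscendenceBasis ℚ v) (i : ι) :
    ∃ d : Derivation ℚ F F, ∀ j, d (v j) = if j = i then 1 else 0 := by
  let A := Algebra.adjoin ℚ (Set.range v)
  let K := IntermediateField.adjoin ℚ (Set.range v)
  have h1 : Algebra.FormallyEtale A K := .of_isLocalization (nonZeroDivisors A)
  have h2 : Algebra.IsAlgebraic K F := hv.isAlgebraic_field
  have h3 : Algebra.FormallyEtale K F := Algebra.FormallyEtale.of_isSeparable K F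
  have h4 : Algebra.FormallyEtale A F := Algebra.FormallyEtale.comp A K F
  let e : MvPolynomial ι ℚ ≃ₐ[ℚ] A := hv.1.aevalEquiv
  have he : ∀ p, ((e p : A) : F) = MvPolynomial.aeval v p := fun p =>
    hv.1.algebraMap_aevalEquiv p
  let d0 : Derivation ℚ A F := Derivation.mk'
    ((MvPolynomial.aeval v).toLinearMap ∘ₗ (MvPolynomial.pderiv i).toLinearMap ∘ₗ
      e.symm.toLinearMap) (by
      intro a b
      obtain ⟨a, rfl⟩ := e.surjective a
      obtain ⟨b, rfl⟩ := e.surjective b
      rw [← map_mul]
      simp only [LinearMap.comp_apply, AlgEquiv.toLinearMap_apply, AlgEquiv.symm_apply_apply,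
        Derivation.coeFn_coe, Derivation.leibniz, AlgHom.toLinearMap_apply, map_add, smul_eq_mul,
        map_mul (MvPolynomial.aeval v), Subalgebra.smul_def, he])
  obtain ⟨d, hd⟩ := exists_extend ℚ A F d0
  refine ⟨d, fun j => ?_⟩
  have h5 : v j = algebraMap A F (e (MvPolynomial.X j)) := by
    change v j = ((e (MvPolynomial.X j) : A) : F)
    rw [he, MvPolynomial.aeval_X]
  rw [h5, hd]
  change MvPolynomial.aeval v (MvPolynomial.pderiv i (e.symm (e (MvPolynomial.X j)))) = _
  rw [AlgEquiv.symm_apply_apply, MvPolynomial.pderiv_X, Pi.single_apply]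
  split_ifs <;> simp

/-- The Casimir identity. -/
theorem casimir {F B M ι : Type} [Field F] [Ring B] [Algebra F B] [AddCommGroup M] [Module F M]
    [Fintype ι] (t : B →ₗ[F] F) (w w' : ι → B) (hw : ∀ x, x = ∑ j, t (w' j * x) • w j)
    (hw' : ∀ x, x = ∑ i, t (x * w i) • w' i) (φ : B →ₗ[F] B →ₗ[F] M) (a : B) :
    ∑ i, φ (a * w i) (w' i) = ∑ i, φ (w i) (w' i * a) := by
  calc ∑ i, φ (a * w i) (w' i)
      = ∑ i, ∑ j, t (w' j * (a * w i)) • φ (w j) (w' i) := by
        refine sum_congr rfl fun i _ => ?_
        conv_lhs => rw [hw (a * w i)]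
        simp only [map_sum, map_smul, LinearMap.sum_apply, LinearMap.smul_apply]
    _ = ∑ j, ∑ i, t (w' j * a * w i) • φ (w j) (w' i) := by
        rw [sum_comm]; simp only [mul_assoc]
    _ = ∑ j, φ (w j) (w' j * a) := by
        refine sum_congr rfl fun j _ => ?_
        conv_rhs => rw [hw' (w' j * a)]
        simp only [map_sum, map_smul]

theorem exists_inv {F B : Type} [Field F] [Ring B] [Algebra F B] [NoZeroDivisors B]
    [Module.Finite F B] {a : B} (ha : a ≠ 0) : ∃ b, a * b = 1 ∧ b * a = 1 := by
  have h1 : Function.Injective (LinearMap.mulLeft F a) := by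
    rw [injective_iff_map_eq_zero]
    intro x hx
    exact (mul_eq_zero.1 hx).resolve_left ha
  obtain ⟨b, hb⟩ := LinearMap.injective_iff_surjective.1 h1 1
  refine ⟨b, hb, h1 ?_⟩
  change a * (b * a) = a * 1
  rw [← mul_assoc, show a * b = 1 from hb, one_mul, mul_one]

end Deriv

/-- Take a transcendence basis `t : ι → F` (`exists_isTranscendenceBasis`), so that `F` is formally étale over `MvPolynomial ι ℚ`
(localisation to the fraction field, then `Algebra.FormallyEtale.of_isSeparable`); `KaehlerDifferential.tensorKaehlerEquivOfFormallyEtale`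
and `KaehlerDifferential.mvPolynomialBasis` give a basis of `Ω[F⁄ℚ]` indexed by `ι`, and `KaehlerDifferential.linearMapEquivDerivation`
identifies derivations with the dual space, which contains `r` independent coordinate forms. -/
theorem exists_derivations (F : Type) [Field F] [CharZero F] (r : ℕ)
    (hr : (r : Cardinal) ≤ Algebra.trdeg ℚ F) :
    ∃ D : Fin r → Derivation ℚ F F, LinearIndependent F D := by
  classical
  obtain ⟨s, hs⟩ := exists_isTranscendenceBasis ℚ F
  rw [← hs.cardinalMk_eq_trdeg, ← Cardinal.mk_fin r] at hr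
  obtain ⟨j⟩ := (Cardinal.le_def _ _).1 hr
  choose d hd using Deriv.exists_pderiv F hs
  refine ⟨fun i => d (j i), Fintype.linearIndependent_iff.2 fun c hc i => ?_⟩
  have h := congrArg (fun D : Derivation ℚ F F => D ((j i : s) : F)) hc
  simp only [Derivation.coe_zero, Pi.zero_apply] at h
  rw [← h]
  have e : ∀ t : Finset (Fin r), (∑ k ∈ t, c k • d (j k)) ((j i : s) : F) =
      ∑ k ∈ t, c k * d (j k) ((j i : s) : F) := by
    intro t
    induction t using Finset.induction_on with
    | empty => simp
    | insert a t ha ih => rw [sum_insert ha, sum_insert ha, Derivation.add_apply, ih]; simp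
  rw [e, sum_eq_single i]
  · simp [hd]
  · intro k _ hk
    rw [hd, if_neg (fun h => hk (j.injective h).symm), mul_zero]
  · simp

/-- `B` is a finite dimensional division algebra.  The form `T a b = trace (mulLeft (a * b))` is symmetric and nondegenerate
(`T a a⁻¹ = dim B ≠ 0`).  With a basis `w i` and the dual basis `w' i` one has `∑ a w_i ⊗ w'_i = ∑ w_i ⊗ w'_i a` (i.e. the identity holds after
applying any bilinear map), `c = ∑ w_i w'_i` commutes with `B` and has trace `dim B`, so it is a unit.  With `g₀ = ∑ δ(w_i) w'_i`: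
`δ(a) c + a g₀ = g₀ a`, so `g = g₀ c⁻¹` works. -/
theorem derivation_inner {F D : Type} [Field F] [CharZero F] [Ring D] [Algebra F D] [Nontrivial D]
    [NoZeroDivisors D] (B : Subalgebra F D) [Module.Finite F B] (δ : B →ₗ[F] D)
    (hδ : ∀ a b : B, δ (a * b) = δ a * (b : D) + (a : D) * δ b) :
    ∃ g : D, ∀ a : B, δ a = g * a - a * g := by
  classical
  let t : B →ₗ[F] F := LinearMap.trace F B ∘ₗ LinearMap.mul F B
  have ht : ∀ a b : B, t (a * b) = t (b * a) := fun a b => by
    have e : ∀ x y : B, LinearMap.mul F B (x * y) = LinearMap.mul F B x * LinearMap.mul F B y :=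
      fun x y => by ext z; simp [mul_assoc]
    simp only [t, LinearMap.comp_apply, e]
    exact LinearMap.trace_mul_comm F _ _
  have hn : ((Module.finrank F B : ℕ) : F) ≠ 0 := Nat.cast_ne_zero.2 Module.finrank_pos.ne'
  have ht1 : t 1 = (Module.finrank F B : F) := by
    have e : LinearMap.mul F B 1 = LinearMap.id := by ext z; simp
    simp only [t, LinearMap.comp_apply, e, LinearMap.trace_id]
  let T : LinearMap.BilinForm F B := (LinearMap.mul F B).compr₂ t
  have hT : ∀ a b : B, T a b = t (a * b) := fun _ _ => rfl
  have hnd : T.Nondegenerate := by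
    refine ⟨fun a ha => ?_, fun a ha => ?_⟩
    · by_contra h0
      obtain ⟨b, hb, -⟩ := Deriv.exists_inv (F := F) h0
      have := ha b
      rw [hT, hb, ht1] at this
      exact hn this
    · by_contra h0
      obtain ⟨b, -, hb⟩ := Deriv.exists_inv (F := F) h0
      have := ha b
      rw [hT, hb, ht1] at this
      exact hn this
  let w := Module.finBasis F B
  let w' := T.dualBasis hnd w
  have hww : ∀ i j, t (w' i * w j) = if j = i then 1 else 0 := fun i j =>
    LinearMap.BilinForm.apply_dualBasis_left hnd w i j
  have hw : ∀ x, x = ∑ j, t (w' j * x) • w j := fun x => by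
    conv_lhs => rw [← w.sum_repr x]
    refine sum_congr rfl fun j _ => ?_
    congr 1
    conv_rhs => rw [← w.sum_repr x]
    simp only [mul_sum, mul_smul_comm, map_sum, map_smul, hww, smul_eq_mul, mul_ite, mul_one,
      mul_zero, sum_ite_eq', mem_univ, if_true]
  have hw' : ∀ x, x = ∑ i, t (x * w i) • w' i := fun x => by
    conv_lhs => rw [← w'.sum_repr x]
    refine sum_congr rfl fun i _ => ?_
    rw [LinearMap.BilinForm.dualBasis_repr_apply, hT]
  let c : B := ∑ i, w i * w' i
  have hc : ∀ a : B, a * c = c * a := fun a => by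
    have := Deriv.casimir t w w' hw hw' (LinearMap.mul F B) a
    simpa only [c, mul_sum, sum_mul, LinearMap.mul_apply', mul_assoc] using this
  have hc0 : c ≠ 0 := by
    intro h0
    have : t c = (Module.finrank F B : F) := by
      simp only [c, map_sum, ht (w _), hww]
      simp
    rw [h0, map_zero] at this
    exact hn this.symm
  obtain ⟨c', hc1, hc2⟩ := Deriv.exists_inv (F := F) hc0
  have hc' : ∀ a : B, a * c' = c' * a := fun a => by
    calc a * c' = c' * (c * a) * c' := by rw [← mul_assoc, hc2, one_mul]
      _ = c' * a := by rw [← hc a, mul_assoc, mul_assoc, hc1, mul_one]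
  let g₀ : D := ∑ i, δ (w i) * (w' i : D)
  refine ⟨g₀ * (c' : D), fun a => ?_⟩
  have key : δ a * (c : D) + (a : D) * g₀ = g₀ * a := by
    have := Deriv.casimir t w w' hw hw'
      (((LinearMap.mul F D).compl₁₂ δ B.val.toLinearMap)) a
    simp only [LinearMap.compl₁₂_apply, LinearMap.mul_apply', AlgHom.toLinearMap_apply,
      Subalgebra.coe_val, hδ, add_mul, sum_add_distrib, MulMemClass.coe_mul] at this
    simp only [c, g₀, AddSubmonoidClass.coe_finsetSum, MulMemClass.coe_mul, mul_sum, sum_mul,
      mul_assoc]
    simpa only [mul_assoc] using this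
  have h1 : (c : D) * c' = 1 := by rw [← MulMemClass.coe_mul, hc1]; rfl
  have h2 : (a : D) * c' = c' * a := by rw [← MulMemClass.coe_mul, hc', MulMemClass.coe_mul]
  calc δ a = δ a * (c : D) * c' := by rw [mul_assoc, h1, mul_one]
    _ = (g₀ * a - a * g₀) * c' := by rw [← key, add_sub_cancel_right]
    _ = g₀ * c' * a - a * (g₀ * c') := by rw [sub_mul, mul_assoc, h2, mul_assoc, mul_assoc]

end Crest.Agent.R180
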