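import Crest.Agent.R180.Defs

/-! # Row 180: lifting the division property along an odd multiplicity -/

set_option autoImplicit false

namespace Crest.Agent.R180

open Finset IsLocalRing

namespace DivStep

/-- Additivity of the length of the cokernel. -/
theorem length_coker_comp {R A B C : Type} [Ring R] [AddCommGroup A] [AddCommGroup B]
    [AddCommGroup C] [Module R A] [Module R B] [Module R C] (f : A →ₗ[R] B) (g : B →ₗ[R] C)
    (hg : Function.Injective g) :
    Module.length R (C ⧸ LinearMap.range (g ∘ₗ f)) =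
      Module.length R (B ⧸ LinearMap.range f) + Module.length R (C ⧸ LinearMap.range g) := by
  have h1 : LinearMap.range f ≤ (LinearMap.range (g ∘ₗ f)).comap g := by
    rintro _ ⟨a, rfl⟩; exact ⟨a, rfl⟩
  have h2 : LinearMap.range (g ∘ₗ f) ≤ (LinearMap.range g).comap LinearMap.id := by
    rintro _ ⟨a, rfl⟩; exact ⟨f a, rfl⟩
  refine Module.length_eq_add_of_exact (Submodule.mapQ _ _ g h1) (Submodule.mapQ _ _ .id h2)
    ?_ ?_ ?_
  · rw [injective_iff_map_eq_zero]
    intro x hx
    obtain ⟨b, rfl⟩ := Submodule.Quotient.mk_surjective _ x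
    rw [Submodule.mapQ_apply, Submodule.Quotient.mk_eq_zero] at hx
    obtain ⟨a, ha⟩ := hx
    rw [Submodule.Quotient.mk_eq_zero]
    exact ⟨a, hg ha⟩
  · intro x
    obtain ⟨c, rfl⟩ := Submodule.Quotient.mk_surjective _ x
    exact ⟨Submodule.Quotient.mk c, rfl⟩
  · intro x
    obtain ⟨c, rfl⟩ := Submodule.Quotient.mk_surjective _ x
    rw [Submodule.mapQ_apply, Submodule.Quotient.mk_eq_zero]
    constructor
    · rintro ⟨b, hb⟩
      exact ⟨Submodule.Quotient.mk b, by rw [Submodule.mapQ_apply, hb]; rfl⟩
    · rintro ⟨y, hy⟩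
      obtain ⟨b, rfl⟩ := Submodule.Quotient.mk_surjective _ y
      rw [Submodule.mapQ_apply, Submodule.Quotient.eq] at hy
      obtain ⟨a, ha⟩ := hy
      refine ⟨b - f a, ?_⟩
      rw [map_sub]
      change g b - (g ∘ₗ f) a = c
      rw [ha, sub_sub_cancel]

variable {R : Type} [CommRing R]

theorem length_quot_free [Nontrivial R] (F : Type) [AddCommGroup F] [Module R F] [Module.Free R F]
    [Module.Finite R F] (I : Ideal R) :
    Module.length R (F ⧸ (I • ⊤ : Submodule R F)) =
      Module.finrank R F * Module.length R (R ⧸ I) := by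
  have b := Module.finBasis R F
  rw [← (TensorProduct.quotTensorEquivQuotSMul F I).length_eq,
    (TensorProduct.congr (LinearEquiv.refl R (R ⧸ I)) b.equivFun).length_eq,
    (TensorProduct.piScalarRight R R (R ⧸ I) _).length_eq, Module.length_pi]
  simp

theorem range_lsmul (M : Type) [AddCommGroup M] [Module R M] (v : R) :
    LinearMap.range (LinearMap.lsmul R M v) = (Ideal.span {v} • ⊤ : Submodule R M) := by
  rw [Submodule.ideal_span_singleton_smul]
  ext x
  simp [Submodule.mem_smul_pointwise_iff_exists]

theorem length_ne_top_of_torsion [IsDomain R]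
    (hfin : ∀ r : R, r ≠ 0 → Module.length R (R ⧸ Ideal.span {r}) ≠ ⊤)
    (Q : Type) [AddCommGroup Q] [Module R Q] [Module.Finite R Q]
    (hQ : Module.finrank R Q = 0) : Module.length R Q ≠ ⊤ := by
  rw [Module.finrank_eq_zero_iff_isTorsion] at hQ
  obtain ⟨r, hr, hr0⟩ := Submodule.annihilator_top_inter_nonZeroDivisors hQ
  have hr0' : r ≠ 0 := nonZeroDivisors.ne_zero hr0
  obtain ⟨k, π, hπ⟩ := Module.Finite.exists_fin' R Q
  have hle : (Ideal.span {r} • ⊤ : Submodule R (Fin k → R)) ≤ LinearMap.ker π := by
    rw [← range_lsmul]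
    rintro _ ⟨x, rfl⟩
    rw [LinearMap.mem_ker, LinearMap.lsmul_apply, map_smul]
    exact Submodule.mem_annihilator.1 hr _ Submodule.mem_top
  have hsurj : Function.Surjective (Submodule.liftQ _ π hle) := by
    intro y
    obtain ⟨x, rfl⟩ := hπ y
    exact ⟨Submodule.Quotient.mk x, rfl⟩
  refine ne_top_of_le_ne_top ?_ (Module.length_le_of_surjective _ hsurj)
  rw [length_quot_free]
  exact WithTop.mul_ne_top (ENat.natCast_ne_top _) (hfin r hr0')

/-- The Herbrand quotient argument. -/
theorem length_quot_smul [IsDomain R]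
    (hfin : ∀ r : R, r ≠ 0 → Module.length R (R ⧸ Ideal.span {r}) ≠ ⊤)
    (M : Type) [AddCommGroup M] [Module R M] [Module.Finite R M] (v : R)
    (hv : Function.Injective (LinearMap.lsmul R M v)) :
    Module.length R (M ⧸ LinearMap.range (LinearMap.lsmul R M v)) =
      Module.finrank R M * Module.length R (R ⧸ Ideal.span {v}) := by
  obtain ⟨b, hb⟩ := exists_linearIndependent_of_le_finrank (le_refl (Module.finrank R M))
  set f : (Fin (Module.finrank R M) → R) →ₗ[R] M := Fintype.linearCombination R b with hf
  have hinj : Function.Injective f := hb.fintypeLinearCombination_injective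
  have hrk : Module.finrank R (LinearMap.range f) = Module.finrank R M := by
    rw [← (LinearEquiv.ofInjective f hinj).finrank_eq]; simp
  have hq : Module.finrank R (M ⧸ LinearMap.range f) = 0 := by
    have := (LinearMap.range f).finrank_quotient_add_finrank
    omega
  have hne := length_ne_top_of_torsion hfin _ hq
  have h1 := length_coker_comp (LinearMap.lsmul R _ v) f hinj
  have h2 := length_coker_comp f (LinearMap.lsmul R M v) hv
  have e : f ∘ₗ LinearMap.lsmul R _ v = LinearMap.lsmul R M v ∘ₗ f := by
    refine LinearMap.ext fun x => ?_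
    simp only [LinearMap.comp_apply, LinearMap.lsmul_apply, map_smul]
  rw [e, h2, add_comm, range_lsmul (Fin (Module.finrank R M) → R), length_quot_free] at h1
  rw [Module.finrank_fin_fun, add_comm, add_comm (_ * _)] at h1
  exact (ENat.add_right_injective_of_ne_top hne) h1

section simple
variable {O : Type} [IsLocalRing R] [Ring O] [Algebra R O] [Module.Free R O] [Module.Finite R O]

theorem length_simple
    (hdiv : ∀ a : O, a ∉ (maximalIdeal R • ⊤ : Submodule R O) →
      ∃ b : O, b * a - 1 ∈ (maximalIdeal R • ⊤ : Submodule R O))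
    (S : Type) [AddCommGroup S] [Module O S] [Module R S] [IsScalarTower R O S]
    [IsSimpleModule O S] : Module.length R S = Module.finrank R O := by
  have := IsSimpleModule.nontrivial O S
  obtain ⟨s, hs⟩ := exists_ne (0 : S)
  set φ : O →ₗ[R] S := (LinearMap.toSpanSingleton O S s).restrictScalars R with hφ
  have hsurj : Function.Surjective φ := IsSimpleModule.toSpanSingleton_surjective O hs
  have : Module.Finite R S := Module.Finite.of_surjective φ hsurj
  have hkill : ∀ r ∈ maximalIdeal R, ∀ x : S, r • x = 0 := by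
    intro r hr
    let ψ : S →ₗ[O] S :=
      { toFun := fun x => r • x
        map_add' := fun x y => smul_add r x y
        map_smul' := fun a x => by
          rw [RingHom.id_apply, ← algebraMap_smul O r (a • x), ← algebraMap_smul O r x, smul_smul,
            smul_smul, Algebra.commutes] }
    rcases eq_bot_or_eq_top (LinearMap.range ψ) with h | h
    · intro x
      have : ψ x ∈ LinearMap.range ψ := ⟨x, rfl⟩
      rw [h] at this
      exact this
    · exfalso
      have hbot : (⊤ : Submodule R S) = ⊥ := by
        refine Submodule.eq_bot_of_le_smul_of_le_jacobson_bot (maximalIdeal R) ⊤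
          Module.Finite.fg_top ?_ (by rw [jacobson_eq_maximalIdeal ⊥ bot_ne_top])
        intro y _
        have : y ∈ LinearMap.range ψ := by rw [h]; trivial
        obtain ⟨x, rfl⟩ := this
        exact Submodule.smul_mem_smul hr Submodule.mem_top
      exact top_ne_bot hbot
  have hle : (maximalIdeal R • ⊤ : Submodule R O) ≤ LinearMap.ker φ := by
    refine Submodule.smul_le.2 fun r hr a _ => ?_
    rw [LinearMap.mem_ker, map_smul]
    exact hkill r hr _
  have hker : LinearMap.ker φ = (maximalIdeal R • ⊤ : Submodule R O) := by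
    refine le_antisymm (fun a ha => ?_) hle
    by_contra hna
    obtain ⟨b, hb⟩ := hdiv a hna
    have h1 : (b * a - 1) • s = 0 := hle hb
    have h2 : a • s = 0 := ha
    rw [sub_smul, mul_smul, h2, smul_zero, one_smul, zero_sub, neg_eq_zero] at h1
    exact hs h1
  rw [← (φ.quotKerEquivOfSurjective hsurj).length_eq,
    (Submodule.quotEquivOfEq _ _ hker).length_eq, length_quot_free]
  have : IsSimpleModule R (R ⧸ maximalIdeal R) :=
    isSimpleModule_iff_isCoatom.2 (Ideal.isMaximal_def.1 inferInstance)
  rw [Module.length_eq_one, mul_one]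

theorem dvd_length
    (hdiv : ∀ a : O, a ∉ (maximalIdeal R • ⊤ : Submodule R O) →
      ∃ b : O, b * a - 1 ∈ (maximalIdeal R • ⊤ : Submodule R O))
    {Q : Type} [AddCommGroup Q] [Module O Q] (hQ : IsFiniteLength O Q) :
    ∀ [Module R Q] [IsScalarTower R O Q],
      ∃ k : ℕ, Module.length R Q = (Module.finrank R O * k : ℕ) := by
  induction hQ with
  | of_subsingleton => intro _ _; exact ⟨0, by simp [Module.length_eq_zero]⟩
  | @of_simple_quotient M _ _ N _ _ ih =>
    intro _ _
    obtain ⟨k, hk⟩ := ih
    refine ⟨k + 1, ?_⟩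
    rw [Module.length_eq_add_of_exact (N.subtype.restrictScalars R) (N.mkQ.restrictScalars R)
      N.subtype_injective N.mkQ_surjective (LinearMap.exact_subtype_mkQ N), hk,
      length_simple hdiv (M ⧸ N)]
    push_cast
    ring

end simple

end DivStep

/-- Suppose `h * g = 0` with `g, h ≠ 0`.  `M = O g` (range of the `R`-linear map `a ↦ a * g`) is a finite torsion-free
`R`-module of rank `ρ`, `0 < ρ < 2^e` (rank-nullity over a domain, the kernel contains `h`).
(1) `length (M / vM) = ρ n`: take a free `N ≅ R^ρ ≤ M` and `r ≠ 0` with `r M ≤ N`; `M/N` has finite length (it is a quotient of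
`(R/r)^k`); `length (M / vN) = length (M/N) + length (N/vN) = length (M/vM) + length (vM/vN)` and `vM/vN ≅ M/N`.
(2) `2^e` divides the `R`-length of every left `O`-module `Q` of finite `R`-length (e.g. of `L₁/L₂` for left ideals `L₂ ≤ L₁`):
a simple subquotient is `O/L` with `L` a maximal left ideal, `𝔪 (O/L) ≠ O/L` by Nakayama so `𝔪 O ≤ L`, and `hdiv` forces `L = 𝔪 O`;
`O/𝔪O ≅ (R/𝔪)^(2^e)` has length `2^e`.  So `2^e ∣ ρ n` with `n` odd: contradiction. -/
theorem noZeroDivisors_of_length {R O : Type} [CommRing R] [IsDomain R] [IsLocalRing R]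
    [IsNoetherianRing R] [Ring O] [Algebra R O] [Module.Free R O] [Module.Finite R O] (e : ℕ)
    (hrank : Module.finrank R O = 2 ^ e)
    (hfin : ∀ r : R, r ≠ 0 → Module.length R (R ⧸ Ideal.span {r}) ≠ ⊤)
    (v : R) (hv : v ≠ 0) (n : ℕ) (hn : Odd n) (hlen : Module.length R (R ⧸ Ideal.span {v}) = n)
    (hdiv : ∀ a : O, a ∉ (maximalIdeal R • ⊤ : Submodule R O) →
      ∃ b : O, b * a - 1 ∈ (maximalIdeal R • ⊤ : Submodule R O)) :
    NoZeroDivisors O := by
  refine ⟨fun {h g} hhg => ?_⟩
  by_contra hne
  push Not at hne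
  obtain ⟨hh, hg⟩ := hne
  set M : Submodule O O := LinearMap.range (LinearMap.toSpanSingleton O O g) with hM
  set φ : O →ₗ[R] M := (LinearMap.toSpanSingleton O O g).rangeRestrict.restrictScalars R with hφ
  have hsurj : Function.Surjective φ := LinearMap.surjective_rangeRestrict _
  have : Module.Finite R M := Module.Finite.of_surjective φ hsurj
  have htf : ∀ (r : R) (x : O), r ≠ 0 → r • x = 0 → x = 0 := fun r x hr hx =>
    (smul_eq_zero.1 hx).resolve_left hr
  have hrk : Module.finrank R M + Module.finrank R (LinearMap.ker φ) = 2 ^ e := by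
    rw [← hrank, ← (LinearMap.ker φ).finrank_quotient_add_finrank,
      (φ.quotKerEquivOfSurjective hsurj).finrank_eq]
  have hM0 : Module.finrank R M ≠ 0 := by
    intro h0
    obtain ⟨r, hr, hx⟩ := Module.finrank_eq_zero_iff.1 h0 ⟨g, 1, by simp⟩
    exact hg (htf r g hr (congrArg Subtype.val hx))
  have hK0 : Module.finrank R (LinearMap.ker φ) ≠ 0 := by
    intro h0
    have hmem : h ∈ LinearMap.ker φ := Subtype.ext hhg
    obtain ⟨r, hr, hx⟩ := Module.finrank_eq_zero_iff.1 h0 ⟨h, hmem⟩
    exact hh (htf r h hr (congrArg Subtype.val hx))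
  have hinj : Function.Injective (LinearMap.lsmul R M v) := by
    rw [injective_iff_map_eq_zero]
    intro x hx
    exact Subtype.ext (htf v x hv (congrArg Subtype.val hx))
  have h1 := DivStep.length_quot_smul hfin M v hinj
  let ψ : M →ₗ[O] M :=
    { toFun := fun x => v • x
      map_add' := fun x y => smul_add v x y
      map_smul' := fun a x => Subtype.ext (by simp) }
  have e1 : (LinearMap.range ψ).restrictScalars R = LinearMap.range (LinearMap.lsmul R M v) := by
    ext x; rfl
  rw [← (Submodule.quotEquivOfEq _ _ e1).length_eq,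
    (Submodule.Quotient.restrictScalarsEquiv R (LinearMap.range ψ)).length_eq, hlen] at h1
  have hfl : IsFiniteLength R (M ⧸ LinearMap.range ψ) := by
    rw [← Module.length_ne_top_iff, h1]
    exact WithTop.mul_ne_top (ENat.natCast_ne_top _) (ENat.natCast_ne_top _)
  have hfl' : IsFiniteLength O (M ⧸ LinearMap.range ψ) := by
    rw [isFiniteLength_iff_isNoetherian_isArtinian] at hfl ⊢
    exact ⟨isNoetherian_of_tower R hfl.1, isArtinian_of_tower R hfl.2⟩
  obtain ⟨k, hk⟩ := DivStep.dvd_length hdiv hfl'
  rw [h1, hrank] at hk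
  have hk' : Module.finrank R M * n = 2 ^ e * k := by exact_mod_cast hk
  have hdvd : 2 ^ e ∣ Module.finrank R M :=
    (Nat.Coprime.pow_left e (Nat.coprime_two_left.2 hn)).dvd_of_dvd_mul_right ⟨k, hk'⟩
  have := Nat.le_of_dvd (Nat.pos_of_ne_zero hM0) hdvd
  omega

end Crest.Agent.R180
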