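import Crest.Agent.R180.GoodApi
import Crest.Agent.R180.DivStep
import Crest.Agent.R180.Base

/-! # Row 180: good primes give division algebras -/

set_option autoImplicit false

namespace Crest.Agent.R180

open Finset MvPolynomial

/-- Clear denominators. -/
theorem Tw.noZeroDivisors_frac {m : ℕ} {A F : Type} [CommRing A] [Field F] (π : A →+* F)
    (hπ : Function.Injective π) (hfr : ∀ c : F, ∃ a b : A, π b ≠ 0 ∧ c * π b = π a)
    {s : Sg m → A} {s' : Sg m → F} (h : ∀ i, π (s i) = s' i) [NoZeroDivisors (Tw s)] :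
    NoZeroDivisors (Tw s') := by
  classical
  have hclear : ∀ a : Tw s', ∃ (d : F) (a₀ : Tw s), d ≠ 0 ∧ Tw.map π h a₀ = d • a := by
    intro a
    choose x y hy hxy using fun ψ => hfr (a ψ)
    refine ⟨∏ ψ, π (y ψ), Tw.mk s fun ψ => x ψ * ∏ φ ∈ univ.erase ψ, y φ,
      prod_ne_zero_iff.2 fun ψ _ => hy ψ, ?_⟩
    ext ψ
    rw [Tw.map_apply, Tw.mk_apply, Tw.smul_apply, map_mul, map_prod, ← hxy ψ,
      ← mul_prod_erase univ (fun ψ => π (y ψ)) (mem_univ ψ)]
    ring
  have hinj : Function.Injective (Tw.map π h) := by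
    intro a b hab
    ext ψ
    exact hπ (congrArg (fun c : Tw s' => c ψ) hab)
  refine ⟨fun {a b} hab => ?_⟩
  obtain ⟨d, a₀, hd, ha⟩ := hclear a
  obtain ⟨e, b₀, he, hb⟩ := hclear b
  have h0 : a₀ * b₀ = 0 := by
    apply hinj
    rw [map_mul, ha, hb, smul_mul_smul_comm, hab, smul_zero, map_zero]
  rcases mul_eq_zero.1 h0 with h1 | h1
  · left
    rw [h1, map_zero] at ha
    exact (smul_eq_zero.1 ha.symm).resolve_left hd
  · right
    rw [h1, map_zero] at hb
    exact (smul_eq_zero.1 hb.symm).resolve_left he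

/-- Finite dimensional domains are division rings. -/
theorem Tw.isUnit_of_ne_zero {m : ℕ} {F : Type} [Field F] {s : Sg m → F}
    [NoZeroDivisors (Tw s)] {a : Tw s} (ha : a ≠ 0) : IsUnit a := by
  have hl : Function.Injective (LinearMap.mulLeft F a) := by
    rw [injective_iff_map_eq_zero]
    intro b hb
    exact (mul_eq_zero.1 hb).resolve_left ha
  have hr : Function.Injective (LinearMap.mulRight F a) := by
    rw [injective_iff_map_eq_zero]
    intro b hb
    exact (mul_eq_zero.1 hb).resolve_right ha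
  obtain ⟨b, hb⟩ := LinearMap.surjective_of_injective hl 1
  obtain ⟨c, hc⟩ := LinearMap.surjective_of_injective hr 1
  have hb' : a * b = 1 := hb
  have hc' : c * a = 1 := hc
  have hcb : c = b := by rw [← mul_one c, ← hb', ← mul_assoc, hc', one_mul]
  exact ⟨⟨a, b, hb', hcb ▸ hc'⟩, rfl⟩

namespace Div

theorem mem_smul_top {m : ℕ} {R : Type} [CommRing R] {s : Sg m → R} (I : Ideal R) (a : Tw s)
    (h : ∀ ψ, a ψ ∈ I) : a ∈ (I • ⊤ : Submodule R (Tw s)) := by
  rw [← Tw.sum_smul_u a]
  exact Submodule.sum_mem _ fun ψ _ => Submodule.smul_mem_smul (h ψ) Submodule.mem_top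

theorem hdiv_of_residue {m : ℕ} {R : Type} [CommRing R] [IsLocalRing R] (s : Sg m → R)
    [NoZeroDivisors (Tw fun i => IsLocalRing.residue R (s i))] (a : Tw s)
    (ha : a ∉ (IsLocalRing.maximalIdeal R • ⊤ : Submodule R (Tw s))) :
    ∃ b : Tw s, b * a - 1 ∈ (IsLocalRing.maximalIdeal R • ⊤ : Submodule R (Tw s)) := by
  let ρ : Tw s →+* Tw fun i => IsLocalRing.residue R (s i) :=
    Tw.map (IsLocalRing.residue R) fun _ => rfl
  have hker : ∀ c : Tw s, ρ c = 0 →
      c ∈ (IsLocalRing.maximalIdeal R • ⊤ : Submodule R (Tw s)) := by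
    intro c hc
    refine mem_smul_top _ c fun ψ => ?_
    rw [← IsLocalRing.residue_eq_zero_iff]
    exact congrArg (fun c : Tw fun i => IsLocalRing.residue R (s i) => c ψ) hc
  have hne : ρ a ≠ 0 := fun h => ha (hker a h)
  obtain ⟨b', hb'⟩ := (Tw.isUnit_of_ne_zero hne).exists_left_inv
  choose b hb using fun ψ => IsLocalRing.residue_surjective (R := R) (b' ψ)
  have hρ : ρ (Tw.mk s b) = b' := by
    ext ψ
    exact hb ψ
  refine ⟨Tw.mk s b, hker _ ?_⟩
  rw [map_sub, map_mul, hρ, hb', map_one, sub_self]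

theorem step {m : ℕ} {P : Type} [CommRing P] [IsNoetherianRing P] (p q : Ideal P)
    [hp : p.IsPrime] [hq : q.IsPrime] (hpq : p ≤ q)
    (hmid : ∀ p' : Ideal P, p'.IsPrime → p < p' → p' ≤ q → p' = q)
    (v : P) (hv : v ∉ p) (n : ℕ) (hn : Odd n)
    (hlen : Module.length (Localization.AtPrime q) (Localization.AtPrime q ⧸
      (p ⊔ Ideal.span {v}).map (algebraMap P (Localization.AtPrime q))) = n)
    (x : Sg m → P) [NoZeroDivisors (Tw fun i => Ideal.Quotient.mk q (x i))] :
    NoZeroDivisors (Tw fun i => Ideal.Quotient.mk p (x i)) := by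
  set S := Localization.AtPrime q with hS
  set I : Ideal S := p.map (algebraMap P S) with hI
  have hdisj : Disjoint (q.primeCompl : Set P) p :=
    Set.disjoint_left.2 fun a ha hap => ha (hpq hap)
  have hIp : I.IsPrime := IsLocalization.isPrime_of_isPrime_disjoint q.primeCompl S p hp hdisj
  have hunder : I.under P = p := IsLocalization.under_map_of_isPrime_disjoint q.primeCompl S hp hdisj
  have : IsNoetherianRing S := IsLocalization.isNoetherianRing q.primeCompl S inferInstance
  have : IsLocalRing (S ⧸ I) :=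
    IsLocalRing.of_surjective' (Ideal.Quotient.mk I) Ideal.Quotient.mk_surjective
  have : IsLocalHom (Ideal.Quotient.mk I) :=
    IsLocalHom.of_surjective _ Ideal.Quotient.mk_surjective
  let f : P →+* S ⧸ I := (Ideal.Quotient.mk I).comp (algebraMap P S)
  have hf0 : ∀ a, f a = 0 ↔ a ∈ p := by
    intro a
    rw [← hunder]
    exact Ideal.Quotient.eq_zero_iff_mem
  have hfu : ∀ a, IsUnit (f a) ↔ a ∉ q := by
    intro a
    change IsUnit (Ideal.Quotient.mk I (algebraMap P S a)) ↔ _
    rw [isUnit_map_iff, IsLocalization.AtPrime.isUnit_to_map_iff S q]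
    rfl
  have hfm : ∀ a, f a ∈ IsLocalRing.maximalIdeal (S ⧸ I) ↔ a ∈ q := by
    intro a
    rw [IsLocalRing.mem_maximalIdeal, mem_nonunits_iff, hfu, not_not]
  have hfr : ∀ c : S ⧸ I, ∃ a b : P, b ∉ q ∧ c * f b = f a := by
    intro c
    obtain ⟨c, rfl⟩ := Ideal.Quotient.mk_surjective c
    obtain ⟨⟨a, b⟩, hab⟩ := IsLocalization.surj q.primeCompl c
    refine ⟨a, b, b.2, ?_⟩
    change Ideal.Quotient.mk I c * Ideal.Quotient.mk I _ = Ideal.Quotient.mk I _
    rw [← map_mul, hab]
  -- dimension one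
  have hdim : Ring.KrullDimLE 1 (S ⧸ I) := by
    rw [Ring.krullDimLE_one_iff_of_noZeroDivisors]
    intro J hJ0 hJ
    have h1 : J.comap f = q := by
      refine hmid _ inferInstance (lt_of_le_of_ne ?_ ?_) ?_
      · intro a ha
        rw [Ideal.mem_comap, (hf0 a).2 ha]
        exact J.zero_mem
      · intro he
        apply hJ0
        rw [eq_bot_iff]
        intro c hc
        obtain ⟨a, b, hb, hab⟩ := hfr c
        have ha : a ∈ J.comap f := by
          rw [Ideal.mem_comap, ← hab]
          exact J.mul_mem_right _ hc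
        rw [← he, ← hf0, ← hab] at ha
        exact ((hfu b).2 hb).mul_left_eq_zero.1 ha
      · intro a ha
        by_contra haq
        exact hJ.ne_top (J.eq_top_of_isUnit_mem ha ((hfu a).2 haq))
    have h2 : IsLocalRing.maximalIdeal (S ⧸ I) ≤ J := by
      intro c hc
      obtain ⟨a, b, hb, hab⟩ := hfr c
      have ha : a ∈ q := by
        rw [← hfm, ← hab]
        exact Ideal.mul_mem_right _ _ hc
      rw [← h1, Ideal.mem_comap, ← hab] at ha
      exact (J.mul_unit_mem_iff_mem ((hfu b).2 hb)).1 ha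
    rw [← (IsLocalRing.maximalIdeal.isMaximal (S ⧸ I)).eq_of_le hJ.ne_top h2]
    exact IsLocalRing.maximalIdeal.isMaximal _
  have hfin : ∀ r : S ⧸ I, r ≠ 0 →
      Module.length (S ⧸ I) ((S ⧸ I) ⧸ Ideal.span {r}) ≠ ⊤ := by
    intro r hr
    rw [Module.length_ne_top_iff]
    exact isFiniteLength_quotient_span_singleton _ (mem_nonZeroDivisors_of_ne_zero hr)
  have hlen' : Module.length (S ⧸ I) ((S ⧸ I) ⧸ Ideal.span {f v}) = n := by
    have e1 : Ideal.span {f v} =
        (Ideal.span {algebraMap P S v}).map (Ideal.Quotient.mkₐ S I) := by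
      rw [Ideal.map_span, Set.image_singleton]
      rfl
    have e2 : (p ⊔ Ideal.span {v}).map (algebraMap P S) = I ⊔ Ideal.span {algebraMap P S v} := by
      rw [Ideal.map_sup, Ideal.map_span, Set.image_singleton]
    rw [e2] at hlen
    rw [e1, ← hlen, ← Module.length_eq_of_surjective (S := S) Ideal.Quotient.mk_surjective]
    exact (DoubleQuot.quotQuotEquivQuotSupₐ S I _).toLinearEquiv.length_eq
  -- the residue field
  let g : P →+* IsLocalRing.ResidueField (S ⧸ I) := (IsLocalRing.residue _).comp f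
  have hg0 : ∀ a, g a = 0 ↔ a ∈ q := by
    intro a
    rw [← hfm]
    exact IsLocalRing.residue_eq_zero_iff _
  have hres : NoZeroDivisors (Tw fun i => IsLocalRing.residue (S ⧸ I) (f (x i))) := by
    refine Tw.noZeroDivisors_frac (Ideal.Quotient.lift q g fun a ha => (hg0 a).2 ha) ?_ ?_
      (s := fun i => Ideal.Quotient.mk q (x i)) (fun _ => rfl)
    · exact RingHom.lift_injective_of_ker_le_ideal q _ fun a ha => (hg0 a).1 ha
    · intro c
      obtain ⟨c, rfl⟩ := IsLocalRing.residue_surjective c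
      obtain ⟨a, b, hb, hab⟩ := hfr c
      refine ⟨Ideal.Quotient.mk q a, Ideal.Quotient.mk q b, fun h => hb ((hg0 b).1 h), ?_⟩
      change IsLocalRing.residue _ c * IsLocalRing.residue _ (f b) = IsLocalRing.residue _ (f a)
      rw [← map_mul, hab]
  have hR : NoZeroDivisors (Tw fun i => f (x i)) := by
    refine noZeroDivisors_of_length (R := S ⧸ I) (2 * m) ?_ hfin (f v)
      (fun h => hv ((hf0 v).1 h)) n hn hlen' (hdiv_of_residue _)
    rw [Tw.finrank_eq, pow_mul]
    norm_num
  let π : P ⧸ p →+* S ⧸ I := Ideal.Quotient.lift p f fun a ha => (hf0 a).2 ha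
  have hπ : Function.Injective π :=
    RingHom.lift_injective_of_ker_le_ideal p _ fun a ha => (hf0 a).1 ha
  let τ : (Tw fun i => Ideal.Quotient.mk p (x i)) →+* Tw fun i => f (x i) :=
    Tw.map π fun _ => rfl
  have hτ : Function.Injective τ := by
    intro a b hab
    ext ψ
    exact hπ (congrArg (fun c : Tw fun i => f (x i) => c ψ) hab)
  exact hτ.noZeroDivisors τ (map_zero τ) (map_mul τ)

end Div

variable {V σ : Type} [Fintype V] [DecidableEq V] [Fintype σ] [DecidableEq σ] {w : V → σ →₀ ℕ}

/-- Induction on `td p`.  If `p` contains all active variables it is `vI {active}` (`Good.eq_of_le`): `noZeroDivisors_base`.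
Otherwise cut by an active variable `X v ∉ p` (`Good.cut`, giving `q`), let `S = Localization.AtPrime q`, `R = S ⧸ p.map _`:
a local Noetherian domain, `P/p → R` is injective, `R/v ≅ S/(p ⊔ span {X v})S` has odd length (`Module.length_eq_of_surjective`,
`DoubleQuot`), the only primes of `R` are `0` and `𝔪` (a prime `p < p' < q` would give `td q + 2 ≤ td p`), so `R/r` is Artinian
(`IsNoetherianRing.isArtinianRing_of_krullDimLE_zero` or the like) of finite length for `r ≠ 0`.  The residue field of `R` is a fraction field of `P/q`,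
so `Tw` over it is a division ring by the induction hypothesis; an element of `Tw` over `R` lies in `𝔪 • ⊤` iff all its coordinates
lie in `𝔪`.  Apply `noZeroDivisors_of_length` with `4^m = 2^(2m)` and pull back along the injective `Tw.map`. -/
theorem div_of_good (hw : ∀ v, w v ≠ 0) {m : ℕ} (s : Sg m → V) (hs : Function.Injective s)
    (hs' : ∀ i, ¬ Act ∅ (w (s i))) {p : Ideal (PP V)} (hp : Good w ∅ p) :
    NoZeroDivisors (Tw fun i => Ideal.Quotient.mk p (X (s i) : PP V)) := by
  induction hn : td p using Nat.strong_induction_on generalizing p with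
  | _ n ih =>
    by_cases hall : ∀ v, Act ∅ (w v) → (X v : PP V) ∈ p
    · have hle : vI {v | Act ∅ (w v)} ≤ p := by
        rw [vI, Ideal.span_le]
        rintro _ ⟨v, hv, rfl⟩
        exact hall v hv
      rw [hp.eq_of_le hw hle]
      exact noZeroDivisors_base s hs _ hs'
    · push Not at hall
      obtain ⟨v, hv, hvp⟩ := hall
      obtain ⟨q, hq, hle, htd, k, hk, hlam⟩ :=
        hp.cut hw (isWeightedHomogeneous_X ℚ w v) hv hvp
      have := ih (td q.asIdeal) (by omega) hq rfl
      have hpp := hp.1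
      refine Div.step p q.asIdeal (le_sup_left.trans hle) ?_ (X v) hvp k hk hlam
        (fun i => X (s i))
      intro p' hp' h1 h2
      by_contra hne
      have h3 := td_lt hp.1 hp' h1
      have h4 := td_lt hp' q.2 (lt_of_le_of_ne h2 hne)
      omega

end Crest.Agent.R180
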