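import Crest.Agent.R180.Cut

/-! # Row 180: properties of good primes -/

set_option autoImplicit false

namespace Crest.Agent.R180

open Finset MvPolynomial

variable {V σ : Type} [Fintype V] [DecidableEq V] [Fintype σ] [DecidableEq σ] {w : V → σ →₀ ℕ}

namespace GoodApi

theorem td_anti {p q : Ideal (PP V)} (hp : p.IsPrime) (hq : q.IsPrime) (h : p ≤ q) :
    td q ≤ td p := by
  rcases h.lt_or_eq with h | rfl
  · exact (td_lt hp hq h).le
  · exact le_rfl

omit [Fintype σ] in
theorem EI_map {I I' : Finset σ} (h : I ⊆ I') (K : MvPolynomial σ ℤ) :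
    EI I' K = (EI I K).map
      (aeval (R := ZMod 2) fun i => if i ∈ I' then (0 : MvPolynomial σ (ZMod 2)) else X i).toRingHom := by
  have : EI I' = (Polynomial.mapRingHom
      (aeval (R := ZMod 2) fun i =>
        if i ∈ I' then (0 : MvPolynomial σ (ZMod 2)) else X i).toRingHom).comp (EI I) := by
    refine MvPolynomial.ringHom_ext (fun r => ?_) fun i => ?_
    · simp
    · by_cases hi : i ∈ I
      · simp [EI, hi, h hi]
      · by_cases hi' : i ∈ I' <;> simp [EI, hi, hi']
  rw [this]; rfl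

omit [Fintype V] [DecidableEq V] in
/-- The order of vanishing of the product over active variables is exactly their number. -/
theorem coeff_prod_ne_zero (I : Finset σ) (S : Finset V) (hS : ∀ v ∈ S, Act I (w v)) :
    (EI I (∏ v ∈ S, (1 - monomial (w v) 1))).coeff S.card ≠ 0 := by
  classical
  choose g hg using fun v : V => X_dvd_one_sub_EI I (w v)
  have h1 : EI I (∏ v ∈ S, (1 - monomial (w v) 1)) = Polynomial.X ^ S.card * ∏ v ∈ S, g v := by
    rw [map_prod, ← prod_const, ← prod_mul_distrib]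
    exact prod_congr rfl fun v _ => by rw [map_sub, map_one, hg]
  have h2 := Polynomial.coeff_X_pow_mul (∏ v ∈ S, g v) S.card 0
  rw [zero_add] at h2
  rw [h1, h2, Polynomial.coeff_zero_prod]
  refine prod_ne_zero_iff.2 fun v hv => ?_
  have h3 := EI_coeff_one_ne_zero (hS v hv)
  rwa [hg, Polynomial.coeff_X_mul] at h3

omit [Fintype V] [DecidableEq V] in
theorem X_pow_dvd_prod (I : Finset σ) (S : Finset V) :
    Polynomial.X ^ S.card ∣ EI I (∏ v ∈ S, (1 - monomial (w v) 1)) := by
  rw [map_prod, ← prod_const]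
  exact prod_dvd_prod_of_dvd _ _ fun v _ => by
    rw [map_sub, map_one]; exact X_dvd_one_sub_EI I (w v)

end GoodApi

open GoodApi

omit [DecidableEq V] [Fintype σ] in
/-- `EI I' = (Polynomial.map ρ) ∘ EI I` with `ρ x_i = 0` for `i ∈ I'`, `ρ x_i = x_i` otherwise. -/
theorem Good.mono {I I' : Finset σ} (h : I ⊆ I') {p : Ideal (PP V)} (hp : Good w I' p) :
    Good w I p := by
  obtain ⟨h1, h2, K, hK, h3⟩ := hp
  refine ⟨h1, h2, K, hK, fun h0 => h3 ?_⟩
  rw [EI_map h, Polynomial.coeff_map, h0, map_zero]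

/-- `K = ∏_{v ∈ S} (1 - [w v])` (`isK_vI`) has a nonzero coefficient at `ε^|S|`; the order bound of `exists_K` with
`c = M - td` gives `M - td ≤ |S|`, and `td_vI_le` the converse. -/
theorem good_vI (hw : ∀ v, w v ≠ 0) (I : Finset σ) (S : Finset V) (hS : ∀ v ∈ S, Act I (w v)) :
    Good w I (vI (S : Set V)) := by
  have hp := vI_isPrime (S : Set V)
  have hne := coeff_prod_ne_zero I S hS
  refine ⟨hp, isHomI_vI _, _, isK_vI hw S, ?_⟩
  obtain ⟨K, hK, hdiv⟩ := exists_K hw univ (vI (S : Set V)) (isHomI_vI _)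
    (fun v hv => absurd (mem_univ v) hv)
  obtain rfl := hK.unique (isK_vI hw S)
  have h1 := td_vI_le S
  have h2 := hdiv _ (EI I) Polynomial.X (fun v _ => X_dvd_one_sub_EI I (w v))
    (Fintype.card V - td (vI (S : Set V))) fun q hq _ hle => by
      have := td_anti hp hq hle
      rw [card_univ]; omega
  have h3 : Fintype.card V - td (vI (S : Set V)) ≤ S.card := by
    by_contra hlt
    exact hne (Polynomial.X_pow_dvd_iff.1 h2 _ (not_le.1 hlt))
  have h4 : Fintype.card V - td (vI (S : Set V)) = S.card := by omega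
  rwa [h4]

theorem good_bot (hw : ∀ v, w v ≠ 0) (I : Finset σ) : Good w I (⊥ : Ideal (PP V)) := by
  have := good_vI hw I ∅ (by simp)
  rwa [coe_empty, vI_empty] at this

/-- Let `a` be the number of active variables, `V'` the null ones.  If `p` is strictly larger then `td p < |V'|`
(`td_lt`, `td_vI_le`); `exists_K` for `V'` with `η = ε²`, `c' = |V'| - td p ≥ 1`, and `IsK.extend` show that `ε^(a + 2c')` divides
`EI K_p`, while `M - td p = a + c'`. -/
theorem Good.eq_of_le (hw : ∀ v, w v ≠ 0) {I : Finset σ} {p : Ideal (PP V)} (hp : Good w I p)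
    (h : vI {v | Act I (w v)} ≤ p) : p = vI {v | Act I (w v)} := by
  classical
  obtain ⟨hpr, hhom, K, hK, hne⟩ := hp
  by_contra hneq
  obtain ⟨A, hA⟩ : ∃ A : Finset V, ∀ v, v ∈ A ↔ Act I (w v) :=
    ⟨univ.filter fun v => Act I (w v), by simp⟩
  have hAs : {v | Act I (w v)} = (A : Set V) := by ext v; simp [hA]
  rw [hAs] at h hneq
  have h1 := td_lt (vI_isPrime _) hpr (lt_of_le_of_ne h (Ne.symm hneq))
  have h2 := td_vI_le A
  have hc : Aᶜ.card = Fintype.card V - A.card := card_compl A
  obtain ⟨K', hK', hdiv⟩ := exists_K hw Aᶜ p hhom fun v hv =>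
    h (X_mem_vI.2 (by simpa using hv))
  have h3 := hdiv _ (EI I) (Polynomial.X ^ 2)
    (fun v hv => X_sq_dvd_one_sub_EI (by rwa [mem_compl, hA] at hv))
    (Aᶜ.card - td p) fun q hq _ hle => by
      have := td_anti hpr hq hle
      omega
  have h4 := hK.unique (hK'.extend (subset_univ _))
  have h5 : univ \ Aᶜ = A := by ext v; simp
  rw [h5] at h4
  have h6 := mul_dvd_mul (X_pow_dvd_prod (w := w) I A) h3
  rw [← map_mul, ← h4, ← pow_mul, ← pow_add] at h6
  exact hne (Polynomial.X_pow_dvd_iff.1 h6 _ (by omega))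

/-- Induction on `td p`, cutting by an active variable outside `p`. -/
theorem Good.le_vI (hw : ∀ v, w v ≠ 0) {I : Finset σ} {p : Ideal (PP V)} (hp : Good w I p) :
    p ≤ vI {v | Act I (w v)} := by
  induction hn : td p generalizing p with
  | zero =>
    by_cases hall : ∀ v, Act I (w v) → (X v : PP V) ∈ p
    · refine (hp.eq_of_le hw (Ideal.span_le.2 ?_)).le
      rintro _ ⟨v, hv, rfl⟩
      exact hall v hv
    · push Not at hall
      obtain ⟨v, hv, hvp⟩ := hall
      obtain ⟨q, -, -, htd, -⟩ := hp.cut hw (isWeightedHomogeneous_X ℚ w v) hv hvp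
      omega
  | succ n ih =>
    by_cases hall : ∀ v, Act I (w v) → (X v : PP V) ∈ p
    · refine (hp.eq_of_le hw (Ideal.span_le.2 ?_)).le
      rintro _ ⟨v, hv, rfl⟩
      exact hall v hv
    · push Not at hall
      obtain ⟨v, hv, hvp⟩ := hall
      obtain ⟨q, hq, hle, htd, -⟩ := hp.cut hw (isWeightedHomogeneous_X ℚ w v) hv hvp
      exact (le_sup_left.trans hle).trans (ih hq (by omega))

theorem Good.cut_family (hw : ∀ v, w v ≠ 0) {I : Finset σ} {p : Ideal (PP V)} (hp : Good w I p)
    {ι : Type} (t : Finset ι) (φ : ι → PP V)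
    (h : ∀ i ∈ t, φ i = 0 ∨ ∃ δ, IsWeightedHomogeneous w (φ i) δ ∧ Act I δ) :
    ∃ q, Good w I q ∧ p ≤ q ∧ (∀ i ∈ t, φ i ∈ q) ∧ td p ≤ td q + t.card := by
  classical
  induction t using Finset.induction_on with
  | empty => exact ⟨p, hp, le_rfl, by simp, by simp⟩
  | insert i t hi ih =>
    obtain ⟨q, hq, hpq, hmem, htd⟩ := ih fun j hj => h j (mem_insert_of_mem hj)
    rw [card_insert_of_notMem hi]
    by_cases hiq : φ i ∈ q
    · refine ⟨q, hq, hpq, fun j hj => ?_, by omega⟩
      rcases mem_insert.1 hj with rfl | hj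
      · exact hiq
      · exact hmem j hj
    · rcases h i (mem_insert_self _ _) with h0 | ⟨δ, hδ, hact⟩
      · exact absurd (h0 ▸ q.zero_mem) hiq
      · obtain ⟨q', hq', hle, htd', -⟩ := hq.cut hw hδ hact hiq
        refine ⟨q'.asIdeal, hq', hpq.trans (le_sup_left.trans hle), fun j hj => ?_, by omega⟩
        rcases mem_insert.1 hj with rfl | hj
        · exact hle (Ideal.mem_sup_right (Ideal.mem_span_singleton_self _))
        · exact hle (Ideal.mem_sup_left (hmem j hj))

end Crest.Agent.R180
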