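import Crest.Agent.R180.Defs

/-! # Row 180: Gram polynomial, rank lemma, terms -/

set_option autoImplicit false

namespace Crest.Agent.R180

open Finset

/-- Independence after a base change to a field implies independence.  Proof: the rows of the matrix `π (v i r)` span `κ^ι`;
choose `|ι|` rows forming a basis, the corresponding square submatrix of `v` has a determinant with nonzero image, so it is nonzero
(`Matrix.eq_zero_of_vecMul_eq_zero` / `Matrix.linearIndependent_rows_of_det_ne_zero`). -/
theorem linearIndependent_of_map {A κ ι ρ : Type} [CommRing A] [IsDomain A] [Field κ] [Fintype ι]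
    [Fintype ρ] (π : A →+* κ) (v : ι → ρ → A)
    (h : LinearIndependent κ fun i r => π (v i r)) : LinearIndependent A v := by
  classical
  let M : Matrix ι ρ κ := Matrix.of fun i r => π (v i r)
  have hrank : M.rank = Fintype.card ι := LinearIndependent.rank_matrix (M := M) h
  obtain ⟨k, a, ha, hsp, hli⟩ := exists_linearIndependent' κ M.col
  have : Finite k := Finite.of_injective a ha
  have : Fintype k := Fintype.ofFinite k
  have hcard : Fintype.card k = Fintype.card ι := by
    rw [linearIndependent_iff_card_eq_finrank_span.mp hli, ← hrank, M.rank_eq_finrank_span_cols,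
      Set.finrank, hsp]
  let e : ι ≃ k := (Fintype.equivOfCardEq hcard).symm
  let N : Matrix ι ι A := Matrix.of fun i j => v i (a (e j))
  have hN : (N.map π).det ≠ 0 := by
    have h1 : LinearIndependent κ (N.map π).col := hli.comp e e.injective
    exact ((Matrix.isUnit_iff_isUnit_det _).1
      (Matrix.linearIndependent_cols_iff_isUnit.1 h1)).ne_zero
  have hN' : N.det ≠ 0 := by
    intro h0
    apply hN
    have := π.map_det N
    rw [h0, map_zero] at this
    exact this.symm
  have h2 := Matrix.linearIndependent_rows_of_det_ne_zero hN'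
  exact LinearIndependent.of_comp (LinearMap.funLeft A A fun j => a (e j)) h2

section
variable {R A R' A' : Type} [CommRing R] [Ring A] [Algebra R A] [CommRing R'] [Ring A']
  [Algebra R' A']

/-- `Matrix.mulVec_cramer`. -/
theorem tr_gramF_mul_pow (τ : A →ₗ[R] R) (b : A) (d : ℕ) (j : Fin d) :
    τ (gramF τ b d * b ^ (j : ℕ)) = 0 := by
  have h := congrFun (Matrix.mulVec_cramer (gramM τ b d) fun j : Fin d => τ (b ^ (d + j))) j
  simp only [Matrix.mulVec, dotProduct, Pi.smul_apply, smul_eq_mul] at h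
  simp only [gramF, sub_mul, sum_mul, smul_mul_assoc, map_sub, map_sum, map_smul, smul_eq_mul,
    ← pow_add]
  rw [gramD, ← h, sub_eq_zero]
  refine sum_congr rfl fun i _ => ?_
  rw [gramC, mul_comm]
  simp only [gramM, Matrix.of_apply, add_comm (j : ℕ)]

theorem commute_gramF (τ : A →ₗ[R] R) (b : A) (d : ℕ) : b * gramF τ b d = gramF τ b d * b := by
  simp only [gramF, mul_sub, sub_mul, mul_sum, sum_mul, mul_smul_comm, smul_mul_assoc,
    ← pow_succ, ← pow_succ']

theorem gramF_eq_zero (τ : A →ₗ[R] R) (b : A) (d : ℕ) (c : Fin d → R)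
    (h : b ^ d = ∑ i : Fin d, c i • b ^ (i : ℕ)) : gramF τ b d = 0 := by
  have h1 : (fun j : Fin d => τ (b ^ (d + j))) = (gramM τ b d).mulVec c := by
    funext j
    simp only [pow_add, h, sum_mul, smul_mul_assoc, map_sum, map_smul, smul_eq_mul,
      Matrix.mulVec, dotProduct, gramM, Matrix.of_apply]
    refine sum_congr rfl fun i _ => ?_
    rw [mul_comm, ← pow_add, ← pow_add, add_comm]
  have h2 : gramC τ b d = gramD τ b d • c := by
    rw [gramC, h1, Matrix.cramer_eq_adjugate_mulVec, Matrix.mulVec_mulVec, Matrix.adjugate_mul,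
      Matrix.smul_mulVec, Matrix.one_mulVec, gramD]
  rw [gramF, h2, h, smul_sum, sub_eq_zero]
  refine sum_congr rfl fun i _ => ?_
  rw [Pi.smul_apply, smul_assoc]

theorem map_gramD (τ : A →ₗ[R] R) (τ' : A' →ₗ[R'] R') (π : R →+* R') (Φ : A →+* A')
    (hτ : ∀ a, τ' (Φ a) = π (τ a)) (b : A) (d : ℕ) :
    gramD τ' (Φ b) d = π (gramD τ b d) := by
  rw [gramD, gramD, π.map_det]
  congr 1
  ext i j
  simp only [gramM, Matrix.of_apply, RingHom.mapMatrix_apply, Matrix.map_apply, ← map_pow, hτ]

theorem map_gramC (τ : A →ₗ[R] R) (τ' : A' →ₗ[R'] R') (π : R →+* R') (Φ : A →+* A')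
    (hτ : ∀ a, τ' (Φ a) = π (τ a)) (b : A) (d : ℕ) (i : Fin d) :
    gramC τ' (Φ b) d i = π (gramC τ b d i) := by
  rw [gramC, gramC, Matrix.cramer_apply, Matrix.cramer_apply, π.map_det, RingHom.mapMatrix_apply,
    Matrix.map_updateCol]
  congr 2
  · ext i j
    simp only [gramM, Matrix.of_apply, Matrix.map_apply, ← map_pow, hτ]
  · funext j
    simp only [Function.comp_apply, ← map_pow, hτ]

theorem map_gramF (τ : A →ₗ[R] R) (τ' : A' →ₗ[R'] R') (π : R →+* R') (Φ : A →+* A')
    (hτ : ∀ a, τ' (Φ a) = π (τ a)) (hΦ : ∀ r a, Φ (r • a) = π r • Φ a) (b : A) (d : ℕ) :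
    gramF τ' (Φ b) d = Φ (gramF τ b d) := by
  simp only [gramF, map_sub, map_sum, hΦ, map_pow, map_gramD τ τ' π Φ hτ, map_gramC τ τ' π Φ hτ]

theorem map_hev (τ : A →ₗ[R] R) (τ' : A' →ₗ[R'] R') (π : R →+* R') (Φ : A →+* A')
    (hτ : ∀ a, τ' (Φ a) = π (τ a)) (hΦ : ∀ r a, Φ (r • a) = π r • Φ a) (z : R) (X Y : A)
    (t : Tm) : Tm.hev τ' (π z) (Φ X) (Φ Y) t = Φ (Tm.hev τ z X Y t) := by
  induction t with
  | x => rfl
  | y => rfl
  | c n => simp only [Tm.hev, hΦ, map_intCast]
  | add a b iha ihb => simp only [Tm.hev, iha, ihb, map_add, hΦ, map_pow]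
  | mul a b iha ihb => simp only [Tm.hev, iha, ihb, map_mul]
  | tr a iha =>
    simp only [Tm.hev, iha, hτ, Algebra.algebraMap_eq_smul_one, hΦ, map_one]

theorem hev_eq_smul_ev (τ : A →ₗ[R] R) (z : R) (X Y : A) (t : Tm) :
    Tm.hev τ z (z • X) (z • Y) t = z ^ t.deg • Tm.ev τ X Y t := by
  induction t with
  | x => simp only [Tm.hev, Tm.ev, Tm.deg, pow_one]
  | y => simp only [Tm.hev, Tm.ev, Tm.deg, pow_one]
  | c n => simp only [Tm.hev, Tm.ev, Tm.deg, pow_one]
  | add a b iha ihb =>
    simp only [Tm.hev, Tm.ev, Tm.deg, iha, ihb, smul_smul, smul_add, pow_add]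
    rw [mul_comm (z ^ b.deg)]
  | mul a b iha ihb =>
    simp only [Tm.hev, Tm.ev, Tm.deg, iha, ihb, pow_add, smul_mul_smul_comm]
  | tr a iha =>
    simp only [Tm.hev, Tm.ev, Tm.deg, iha, map_smul, smul_eq_mul, map_mul]
    rw [Algebra.smul_def]

end

theorem Tm.deg_pos (t : Tm) : 0 < t.deg := by
  induction t with
  | x => exact Nat.one_pos
  | y => exact Nat.one_pos
  | c n => exact Nat.one_pos
  | add a b iha _ => exact Nat.add_pos_left iha _
  | mul a b iha _ => exact Nat.add_pos_left iha _
  | tr a iha => exact iha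

/-- If `G c = 0` with `c ≠ 0` then `u = ∑ c i • b^i ≠ 0` and `τ (u v) = 0` for all `v` in the span `W` of the powers, which is
closed under multiplication by `b`, hence by `u`; left multiplication by `u` is injective on `W`, so onto, and `u v = 1`. -/
theorem gramD_ne_zero {F A : Type} [Field F] [Ring A] [Algebra F A] [NoZeroDivisors A]
    (τ : A →ₗ[F] F) (hτ : τ 1 = 1) (b : A) (d : ℕ)
    (hli : LinearIndependent F fun i : Fin d => b ^ (i : ℕ)) (c : Fin d → F)
    (h : b ^ d = ∑ i : Fin d, c i • b ^ (i : ℕ)) : gramD τ b d ≠ 0 := by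
  classical
  intro hdet
  obtain ⟨c', hc0, hc⟩ := Matrix.exists_vecMul_eq_zero_iff.2 hdet
  set W : Submodule F A := Submodule.span F (Set.range fun i : Fin d => b ^ (i : ℕ)) with hW
  set u : A := ∑ i : Fin d, c' i • b ^ (i : ℕ) with hu
  have hu0 : u ≠ 0 := fun h0 => hc0 (funext (Fintype.linearIndependent_iff.1 hli c' h0))
  have hpow : ∀ i : Fin d, b ^ (i : ℕ) ∈ W := fun i => Submodule.subset_span ⟨i, rfl⟩
  have hb : ∀ w ∈ W, b * w ∈ W := by
    intro w hw
    induction hw using Submodule.span_induction with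
    | mem x hx =>
      obtain ⟨i, rfl⟩ := hx
      rw [← pow_succ']
      rcases (Nat.succ_le_of_lt i.2).lt_or_eq with h1 | h1
      · exact hpow ⟨_, h1⟩
      · rw [show (i : ℕ) + 1 = d from h1, h]
        exact W.sum_mem fun j _ => W.smul_mem _ (hpow j)
    | zero => simp
    | add x y _ _ hx hy => rw [mul_add]; exact W.add_mem hx hy
    | smul r x _ hx => rw [mul_smul_comm]; exact W.smul_mem _ hx
  have hbk : ∀ k : ℕ, ∀ w ∈ W, b ^ k * w ∈ W := by
    intro k
    induction k with
    | zero => intro w hw; simpa using hw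
    | succ k ih => intro w hw; rw [pow_succ', mul_assoc]; exact hb _ (ih w hw)
  have huW : ∀ w ∈ W, LinearMap.mulLeft F u w ∈ W := by
    intro w hw
    rw [LinearMap.mulLeft_apply, hu, sum_mul]
    exact W.sum_mem fun j _ => by rw [smul_mul_assoc]; exact W.smul_mem _ (hbk _ w hw)
  have hτu : ∀ w ∈ W, τ (u * w) = 0 := by
    intro w hw
    induction hw using Submodule.span_induction with
    | mem x hx =>
      obtain ⟨j, rfl⟩ := hx
      have h1 := congrFun hc j
      simp only [Matrix.vecMul, dotProduct, gramM, Matrix.of_apply, Pi.zero_apply] at h1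
      simp only [hu, sum_mul, smul_mul_assoc, map_sum, map_smul, smul_eq_mul, ← pow_add]
      exact h1
    | zero => simp
    | add x y _ _ hx hy => rw [mul_add, map_add, hx, hy, add_zero]
    | smul r x _ hx => rw [mul_smul_comm, map_smul, hx, smul_zero]
  have : FiniteDimensional F W := FiniteDimensional.span_of_finite F (Set.finite_range _)
  have hinj : Function.Injective ((LinearMap.mulLeft F u).restrict huW) := by
    rw [← LinearMap.ker_eq_bot, eq_bot_iff]
    intro w hw
    have h1 : u * (w : A) = 0 := congrArg Subtype.val (LinearMap.mem_ker.1 hw)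
    exact Subtype.ext ((mul_eq_zero.1 h1).resolve_left hu0)
  have hd : 0 < d := by
    rcases Nat.eq_zero_or_pos d with rfl | hd
    · exact absurd (Subsingleton.elim _ _) hc0
    · exact hd
  have h1W : (1 : A) ∈ W := by simpa using hpow ⟨0, hd⟩
  obtain ⟨w, hw⟩ := LinearMap.injective_iff_surjective.1 hinj ⟨1, h1W⟩
  have h1 : u * (w : A) = 1 := congrArg Subtype.val hw
  have h2 := hτu w w.2
  rw [h1, hτ] at h2
  exact one_ne_zero h2

/-- Dependence of the powers is unchanged by `b ↦ α • b + β` (both say that a nonzero polynomial of degree `≤ d` kills the element). -/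
theorem not_linearIndependent_pow_affine {F A : Type} [Field F] [Ring A] [Algebra F A] (b : A)
    (d : ℕ) (α β : F) (h : ¬ LinearIndependent F fun i : Fin (d + 1) => b ^ (i : ℕ)) :
    ¬ LinearIndependent F fun i : Fin (d + 1) => (α • b + algebraMap F A β) ^ (i : ℕ) := by
  intro hli
  apply h
  set W : Submodule F A := Submodule.span F (Set.range fun i : Fin (d + 1) => b ^ (i : ℕ)) with hW
  have hmem : ∀ i : Fin (d + 1), (α • b + algebraMap F A β) ^ (i : ℕ) ∈ W := by
    intro i
    have hc : Commute (α • b) (algebraMap F A β) := (Algebra.commutes β (α • b)).symm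
    rw [hc.add_pow]
    refine W.sum_mem fun k hk => ?_
    have hk' : k < d + 1 := lt_of_le_of_lt (Nat.lt_succ_iff.1 (mem_range.1 hk)) i.2
    have e1 : (α • b) ^ k * algebraMap F A β ^ ((i : ℕ) - k) * (((i : ℕ).choose k : ℕ) : A) =
        (α ^ k * (β ^ ((i : ℕ) - k) * (((i : ℕ).choose k : ℕ) : F))) • b ^ k := by
      rw [smul_pow, ← map_natCast (algebraMap F A), ← map_pow, mul_assoc, ← map_mul,
        ← Algebra.commutes, ← Algebra.smul_def, smul_smul, mul_comm]
    rw [e1]
    exact W.smul_mem _ (Submodule.subset_span ⟨⟨k, hk'⟩, rfl⟩)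
  have : FiniteDimensional F W := FiniteDimensional.span_of_finite F (Set.finite_range _)
  rw [linearIndependent_iff_card_le_finrank_span, linearIndependent_iff_card_eq_finrank_span.1 hli]
  refine Submodule.finrank_mono ?_
  rw [Submodule.span_le]
  rintro _ ⟨i, rfl⟩
  exact hmem i

end Crest.Agent.R180
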