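import Crest.Agent.R180.Defs

/-! # Row 180: homogeneous ideals and Hilbert series -/

set_option autoImplicit false
set_option linter.unusedSectionVars false
set_option linter.style.haveILetI false

namespace Crest.Agent.R180

open Finset MvPolynomial

variable {V σ : Type} [Fintype V] [DecidableEq V] [Fintype σ] [DecidableEq σ] {w : V → σ →₀ ℕ}

namespace Hilb

theorem comp_mul_add {φ : PP V} {δ : σ →₀ ℕ} (hφ : IsWeightedHomogeneous w φ δ) (a : PP V)
    (γ : σ →₀ ℕ) :
    weightedHomogeneousComponent w (γ + δ) (a * φ) = weightedHomogeneousComponent w γ a * φ := by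
  induction a using MvPolynomial.induction_on' with
  | monomial d c =>
    have h1 : IsWeightedHomogeneous w (monomial d c : PP V) (Finsupp.weight w d) :=
      isWeightedHomogeneous_monomial w d c rfl
    have h2 := h1.mul hφ
    by_cases h : γ = Finsupp.weight w d
    · subst h
      rw [h1.weightedHomogeneousComponent_same, h2.weightedHomogeneousComponent_same]
    · rw [h1.weightedHomogeneousComponent_ne _ h,
        h2.weightedHomogeneousComponent_ne _ (fun h' => h (add_right_cancel h')), zero_mul]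
  | add p q hp hq => rw [add_mul, map_add, map_add, hp, hq, add_mul]

theorem comp_mul_of_not_le {φ : PP V} {δ : σ →₀ ℕ} (hφ : IsWeightedHomogeneous w φ δ) (a : PP V)
    {γ : σ →₀ ℕ} (h : ¬ δ ≤ γ) : weightedHomogeneousComponent w γ (a * φ) = 0 := by
  induction a using MvPolynomial.induction_on' with
  | monomial d c =>
    have h1 : IsWeightedHomogeneous w (monomial d c : PP V) (Finsupp.weight w d) :=
      isWeightedHomogeneous_monomial w d c rfl
    exact (h1.mul hφ).weightedHomogeneousComponent_ne _ (fun h' => h (h' ▸ le_add_self))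
  | add p q hp hq => rw [add_mul, map_add, hp, hq, add_zero]

theorem finite_weight (hw : ∀ v, w v ≠ 0) (γ : σ →₀ ℕ) :
    {d : V →₀ ℕ | Finsupp.weight w d = γ}.Finite := by
  have hw' : ∀ v, Finsupp.degree (w v) ≠ 0 := fun v h => hw v ((Finsupp.degree_eq_zero_iff _).1 h)
  refine (Finsupp.finite_of_nat_weight_eq (fun v => Finsupp.degree (w v)) hw'
    (Finsupp.degree γ)).subset ?_
  intro d hd
  simp only [Set.mem_ofPred_eq] at hd ⊢
  rw [← hd, Finsupp.weight_apply, Finsupp.weight_apply, Finsupp.sum, Finsupp.sum, map_sum]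
  simp

theorem finite_piece (hw : ∀ v, w v ≠ 0) (γ : σ →₀ ℕ) :
    Module.Finite ℚ (weightedHomogeneousSubmodule ℚ w γ) := by
  rw [weightedHomogeneousSubmodule_eq_finsupp_supported]
  have := (finite_weight hw γ).to_subtype
  exact Module.Finite.of_basis (basisRestrictSupport ℚ {d | Finsupp.weight w d = γ})

theorem finrank_map_add {K E E' : Type*} [Field K] [AddCommGroup E] [Module K E] [AddCommGroup E']
    [Module K E'] (W : Submodule K E) [Module.Finite K W] (f : E →ₗ[K] E') :
    Module.finrank K (W.map f) + Module.finrank K (W ⊓ LinearMap.ker f : Submodule K E)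
      = Module.finrank K W := by
  have h := (f.domRestrict W).finrank_range_add_finrank_ker
  rw [LinearMap.range_domRestrict, LinearMap.ker_domRestrict] at h
  rw [← h, ← Submodule.map_comap_subtype]
  congr 1
  exact (Submodule.finrank_map_subtype_eq W _)

theorem finrank_map_congr {K E E' E'' : Type*} [Field K] [AddCommGroup E] [Module K E]
    [AddCommGroup E'] [Module K E'] [AddCommGroup E''] [Module K E''] (W : Submodule K E)
    [Module.Finite K W] (f : E →ₗ[K] E') (g : E →ₗ[K] E'')
    (h : W ⊓ LinearMap.ker f = W ⊓ LinearMap.ker g) :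
    Module.finrank K (W.map f) = Module.finrank K (W.map g) := by
  have h1 := finrank_map_add W f
  have h2 := finrank_map_add W g
  rw [h] at h1
  omega

end Hilb

open Hilb

theorem isHomI_bot : IsHomI w ⊥ := by
  intro a ha γ
  rw [Ideal.mem_bot] at ha
  rw [ha, map_zero]
  exact Ideal.zero_mem _

/-- Use `MvPolynomial.mem_ideal_span_X_image` (the support of a component is part of the support). -/
theorem isHomI_vI (S : Set V) : IsHomI w (vI S) := by
  intro a ha γ
  rw [vI, mem_ideal_span_X_image] at ha ⊢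
  intro m hm
  rw [support_weightedHomogeneousComponent] at hm
  exact ha m (Finset.mem_filter.1 hm).1

/-- The component of `a * φ` in degree `γ + δ` is (component of `a` in degree `γ`) `* φ`. -/
theorem IsHomI.colon {J : Ideal (PP V)} {φ : PP V} {δ : σ →₀ ℕ} (hJ : IsHomI w J)
    (hφ : IsWeightedHomogeneous w φ δ) : IsHomI w (J.colon {φ}) := by
  intro a ha γ
  rw [Submodule.mem_colon_singleton, smul_eq_mul] at ha ⊢
  rw [← comp_mul_add hφ]
  exact hJ _ ha _

theorem IsHomI.sup_span {J : Ideal (PP V)} {φ : PP V} {δ : σ →₀ ℕ} (hJ : IsHomI w J)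
    (hφ : IsWeightedHomogeneous w φ δ) : IsHomI w (J ⊔ Ideal.span {φ}) := by
  intro a ha γ
  obtain ⟨j, hj, b, hb, rfl⟩ := Submodule.mem_sup.1 ha
  obtain ⟨c, rfl⟩ := Ideal.mem_span_singleton'.1 hb
  rw [map_add]
  refine Submodule.add_mem_sup (hJ j hj γ) ?_
  by_cases h : δ ≤ γ
  · obtain ⟨β, rfl⟩ := exists_add_of_le h
    rw [add_comm δ β, comp_mul_add hφ]
    exact Ideal.mem_span_singleton'.2 ⟨_, rfl⟩
  · rw [comp_mul_of_not_le hφ c h]
    exact Ideal.zero_mem _

/-- Put a linear order on `σ` (via `Fintype.equivFin`) and the lexicographic order on degrees; either use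
`Ideal.IsHomogeneous.isPrime_of_homogeneous_mem_or_mem` for the grading `toLex ∘ w`, or argue directly: for
`a, b ∉ J` with `a * b ∈ J` take the largest degrees in which the components of `a`, `b` are not in `J`. -/
theorem IsHomI.exists_mul_mem {J : Ideal (PP V)} (hJ : IsHomI w J) (hne : J ≠ ⊤)
    (hp : ¬ J.IsPrime) :
    ∃ (φ ψ : PP V) (δ δ' : σ →₀ ℕ), IsWeightedHomogeneous w φ δ ∧ IsWeightedHomogeneous w ψ δ' ∧
      φ ∉ J ∧ ψ ∉ J ∧ φ * ψ ∈ J := by
  classical
  by_contra hcon
  apply hp
  letI : LinearOrder σ := LinearOrder.lift' (Fintype.equivFin σ) (Fintype.equivFin σ).injective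
  let w' : V → Lex (σ →₀ ℕ) := fun v => toLex (w v)
  letI : DecidableEq (Lex (σ →₀ ℕ)) := fun a b => LinearOrder.toDecidableEq a b
  letI := weightedGradedAlgebra ℚ w'
  have hJ' : J.IsHomogeneous (weightedHomogeneousSubmodule ℚ w') := by
    intro γ a ha
    have e : ((DirectSum.decompose (weightedHomogeneousSubmodule ℚ w') a γ : _) : PP V)
        = weightedHomogeneousComponent w' γ a := weightedDecomposition.decompose'_apply ℚ w' a γ
    rw [e]
    exact hJ a ha (ofLex γ)
  refine hJ'.isPrime_of_homogeneous_mem_or_mem hne ?_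
  rintro x y ⟨δ, hx⟩ ⟨δ', hy⟩ hxy
  by_contra h
  push Not at h
  exact hcon ⟨x, y, ofLex δ, ofLex δ', hx, hy, h.1, h.2, hxy⟩

theorem HS_top : HS w (⊤ : Ideal (PP V)) = 0 := by
  ext γ
  have : Subsingleton (PP V ⧸ (⊤ : Ideal (PP V))) := Ideal.Quotient.subsingleton_iff.2 rfl
  change (hf w ⊤ γ : ℤ) = 0
  rw [hf, Module.finrank_zero_of_subsingleton]
  rfl

/-- The image of the degree `γ` part in `P/(all variables)` is spanned by `1` for `γ = 0` and zero otherwise. -/
theorem HS_vI_univ (hw : ∀ v, w v ≠ 0) : HS w (vI (Set.univ : Set V)) = 1 := by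
  have hmem : ∀ a : PP V, a ∈ vI (Set.univ : Set V) ↔ coeff 0 a = 0 := by
    intro a
    rw [vI, mem_ideal_span_X_image]
    constructor
    · intro h
      by_contra h0
      obtain ⟨i, -, hi⟩ := h 0 (mem_support_iff.2 h0)
      exact hi rfl
    · intro h m hm
      by_contra hcon
      push Not at hcon
      have : m = 0 := Finsupp.ext fun i => hcon i (Set.mem_univ i)
      exact mem_support_iff.1 hm (this ▸ h)
  ext γ
  rw [MvPowerSeries.coeff_one]
  change (hf w _ γ : ℤ) = _
  split_ifs with h
  · subst h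
    have e : (weightedHomogeneousSubmodule ℚ w 0).map
        (Ideal.Quotient.mkₐ ℚ (vI (Set.univ : Set V))).toLinearMap = ℚ ∙ (1 : PP V ⧸ _) := by
      apply le_antisymm
      · rintro _ ⟨a, ha, rfl⟩
        have h1 : a = C (coeff 0 a) := by
          rw [← weightedHomogeneousComponent_zero a hw]
          exact (weightedHomogeneousComponent_eq_self ha).symm
        rw [Submodule.mem_span_singleton]
        refine ⟨coeff 0 a, ?_⟩
        conv_rhs => rw [h1]
        rw [C_eq_smul_one, map_smul]
        rfl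
      · rw [Submodule.span_singleton_le_iff_mem]
        exact ⟨1, isWeightedHomogeneous_one ℚ w, rfl⟩
    have h1 : (1 : PP V ⧸ vI (Set.univ : Set V)) ≠ 0 := by
      intro h
      have : (1 : PP V) ∈ vI (Set.univ : Set V) := Ideal.Quotient.eq_zero_iff_mem.1 h
      simpa using (hmem 1).1 this
    rw [hf, e, finrank_span_singleton h1]
    rfl
  · have e : (weightedHomogeneousSubmodule ℚ w γ).map
        (Ideal.Quotient.mkₐ ℚ (vI (Set.univ : Set V))).toLinearMap = ⊥ := by
      rw [eq_bot_iff]
      rintro _ ⟨a, ha, rfl⟩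
      rw [Submodule.mem_bot]
      refine Ideal.Quotient.eq_zero_iff_mem.2 ((hmem a).2 ?_)
      exact IsWeightedHomogeneous.coeff_eq_zero ha 0 (by rw [map_zero]; exact Ne.symm h)
    rw [hf, e, finrank_bot]
    rfl

/-- All degree pieces `P_γ` are finite dimensional since `w v ≠ 0` (only finitely many monomials have weight `γ`:
the total degree is at most the sum of the entries of `γ`).  The image of `P_γ` in `P/J` maps onto the image in
`P/(J + φ)`; the kernel is the image of `φ P_{γ-δ}` (zero if `¬ δ ≤ γ`; uses homogeneity), which is isomorphic to the image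
of `P_{γ-δ}` in `P/(J : φ)`.  Then `MvPowerSeries.coeff_monomial_mul`. -/
theorem HS_colon (hw : ∀ v, w v ≠ 0) {J : Ideal (PP V)} {φ : PP V} {δ : σ →₀ ℕ} (hJ : IsHomI w J)
    (hφ : IsWeightedHomogeneous w φ δ) :
    HS w J = MvPowerSeries.monomial δ (1 : ℤ) * HS w (J.colon {φ}) +
      HS w (J ⊔ Ideal.span {φ}) := by
  ext γ
  rw [map_add, MvPowerSeries.coeff_monomial_mul]
  change (hf w J γ : ℤ) = (if δ ≤ γ then 1 * (hf w (J.colon {φ}) (γ - δ) : ℤ) else 0)
    + (hf w (J ⊔ Ideal.span {φ}) γ : ℤ)
  haveI := finite_piece hw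
  split_ifs with h
  · obtain ⟨β, rfl⟩ := exists_add_of_le h
    rw [add_tsub_cancel_left, one_mul, add_comm δ β]
    set mk := (Ideal.Quotient.mkₐ ℚ J).toLinearMap with hmk
    set π := (Ideal.Quotient.factorₐ ℚ (le_sup_left : J ≤ J ⊔ Ideal.span {φ})).toLinearMap with hπ
    set g : PP V →ₗ[ℚ] PP V ⧸ J := mk ∘ₗ LinearMap.mulRight ℚ φ with hg
    have h1 := finrank_map_add ((weightedHomogeneousSubmodule ℚ w (β + δ)).map mk) π
    have h2 : ((weightedHomogeneousSubmodule ℚ w (β + δ)).map mk).map π
        = (weightedHomogeneousSubmodule ℚ w (β + δ)).map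
          (Ideal.Quotient.mkₐ ℚ (J ⊔ Ideal.span {φ})).toLinearMap := by
      rw [← Submodule.map_comp]
      rfl
    have h3 : (weightedHomogeneousSubmodule ℚ w (β + δ)).map mk ⊓ LinearMap.ker π
        = (weightedHomogeneousSubmodule ℚ w β).map g := by
      apply le_antisymm
      · rintro _ ⟨⟨a, ha, rfl⟩, hk⟩
        have ha' : a ∈ J ⊔ Ideal.span {φ} := Ideal.Quotient.eq_zero_iff_mem.1 hk
        obtain ⟨j, hj, b, hb, hab⟩ := Submodule.mem_sup.1 ha'
        obtain ⟨c, rfl⟩ := Ideal.mem_span_singleton'.1 hb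
        refine ⟨weightedHomogeneousComponent w β c, weightedHomogeneousComponent_mem w c β, ?_⟩
        have e : a = weightedHomogeneousComponent w (β + δ) j
            + weightedHomogeneousComponent w β c * φ := by
          rw [← comp_mul_add hφ, ← map_add, hab]
          exact (weightedHomogeneousComponent_eq_self ha).symm
        rw [e, map_add]
        have e0 : mk (weightedHomogeneousComponent w (β + δ) j) = 0 :=
          Ideal.Quotient.eq_zero_iff_mem.2 (hJ j hj _)
        rw [e0, zero_add]
        rfl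
      · rintro _ ⟨c, hc, rfl⟩
        refine ⟨⟨c * φ, IsWeightedHomogeneous.mul hc hφ, rfl⟩, ?_⟩
        exact Ideal.Quotient.eq_zero_iff_mem.2
          (Ideal.mem_sup_right (Ideal.mem_span_singleton'.2 ⟨c, rfl⟩))
    have h4 := finrank_map_congr (weightedHomogeneousSubmodule ℚ w β) g
      (Ideal.Quotient.mkₐ ℚ (J.colon {φ})).toLinearMap (by
        congr 1
        ext a
        rw [LinearMap.mem_ker, LinearMap.mem_ker]
        refine Iff.trans (Ideal.Quotient.eq_zero_iff_mem (a := a * φ) (I := J)) ?_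
        refine Iff.trans ?_ (Ideal.Quotient.eq_zero_iff_mem (a := a) (I := J.colon {φ})).symm
        rw [Submodule.mem_colon_singleton, smul_eq_mul])
    rw [h2, h3, h4] at h1
    unfold hf
    rw [← h1]
    push_cast
    ring
  · rw [zero_add]
    congr 1
    refine finrank_map_congr _ _ _ ?_
    apply le_antisymm
    · rintro a ⟨ha, hk⟩
      have ha' : a ∈ J := Ideal.Quotient.eq_zero_iff_mem.1 hk
      exact ⟨ha, Ideal.Quotient.eq_zero_iff_mem.2 (Ideal.mem_sup_left ha')⟩
    · rintro a ⟨ha, hk⟩
      have ha' : a ∈ J ⊔ Ideal.span {φ} := Ideal.Quotient.eq_zero_iff_mem.1 hk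
      obtain ⟨j, hj, b, hb, hab⟩ := Submodule.mem_sup.1 ha'
      obtain ⟨c, rfl⟩ := Ideal.mem_span_singleton'.1 hb
      have e : a = weightedHomogeneousComponent w γ j := by
        rw [← weightedHomogeneousComponent_eq_self ha, ← hab, map_add, comp_mul_of_not_le hφ c h,
          add_zero]
      exact ⟨ha, Ideal.Quotient.eq_zero_iff_mem.2 (e ▸ hJ j hj γ)⟩

end Crest.Agent.R180
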