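import Crest.Agent.R180.Defs

/-! # Row 180: homogeneous elements of the twisted algebra -/

set_option autoImplicit false

namespace Crest.Agent.R180

open Finset MvPolynomial

variable {m : ℕ} {V : Type} {w : V → Sg m →₀ ℕ} {s : Sg m → PP V}

/-- A component is zero or homogeneous of the complementary degree. -/
theorem IsHom.comp {γ : Sg m →₀ ℕ} {a : Tw s} (ha : IsHom w γ a) (ψ : Hh m) :
    a ψ = 0 ∨ ∃ δ, IsWeightedHomogeneous w (a ψ) δ ∧ δ + hat ψ = γ := by
  by_cases h : a ψ = 0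
  · exact Or.inl h
  · obtain ⟨μ, hμ⟩ := support_nonempty.2 h
    refine Or.inr ⟨Finsupp.weight w μ, fun ν hν => ?_, ha ψ μ hμ⟩
    exact add_right_cancel ((ha ψ ν (mem_support_iff.2 hν)).trans (ha ψ μ hμ).symm)

theorem isHom_of_comp {γ : Sg m →₀ ℕ} {a : Tw s}
    (h : ∀ ψ, a ψ = 0 ∨ ∃ δ, IsWeightedHomogeneous w (a ψ) δ ∧ δ + hat ψ = γ) :
    IsHom w γ a := by
  intro ψ μ hμ
  rcases h ψ with h0 | ⟨δ, h1, h2⟩
  · rw [h0] at hμ
    simp at hμ
  · rw [h1 (mem_support_iff.1 hμ), h2]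

theorem IsHom.sub {γ : Sg m →₀ ℕ} {a b : Tw s} (ha : IsHom w γ a) (hb : IsHom w γ b) :
    IsHom w γ (a - b) := by
  classical
  intro ψ μ hμ
  rw [Tw.sub_apply] at hμ
  rcases Finset.mem_union.1 (support_sub _ _ _ hμ) with h | h
  exacts [ha ψ μ h, hb ψ μ h]

namespace Homog

theorem hat_apply (ψ : Hh m) (i : Sg m) : hat ψ i = (ψ i).val := rfl

theorem hat_zero : hat (0 : Hh m) = 0 := by
  ext i
  simp [hat_apply]

theorem isHom_zero (γ : Sg m →₀ ℕ) : IsHom w γ (0 : Tw s) := by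
  intro ψ μ hμ
  simp at hμ

theorem isHom_add {γ : Sg m →₀ ℕ} {a b : Tw s} (ha : IsHom w γ a) (hb : IsHom w γ b) :
    IsHom w γ (a + b) := by
  classical
  intro ψ μ hμ
  rw [Tw.add_apply] at hμ
  rcases Finset.mem_union.1 (support_add hμ) with h | h
  exacts [ha ψ μ h, hb ψ μ h]

theorem isHom_sum {ι : Type} {γ : Sg m →₀ ℕ} (t : Finset ι) {f : ι → Tw s}
    (h : ∀ i ∈ t, IsHom w γ (f i)) : IsHom w γ (∑ i ∈ t, f i) :=
  Finset.sum_induction f (IsHom w γ) (fun _ _ => isHom_add) (isHom_zero γ) h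

theorem isHom_smul {γ δ : Sg m →₀ ℕ} {z : PP V} {a : Tw s} (hz : IsWeightedHomogeneous w z δ)
    (ha : IsHom w γ a) : IsHom w (δ + γ) (z • a) := by
  refine isHom_of_comp fun ψ => ?_
  rw [Tw.smul_apply]
  rcases ha.comp ψ with h | ⟨η, h1, h2⟩
  · left; rw [h, mul_zero]
  · exact Or.inr ⟨δ + η, hz.mul h1, by rw [add_assoc, h2]⟩

theorem isHom_one : IsHom w 0 (1 : Tw s) := by
  refine isHom_of_comp fun ψ => ?_
  rw [Tw.one_apply]
  split_ifs with h
  · exact Or.inr ⟨0, isWeightedHomogeneous_one ℚ w, by rw [h, hat_zero, add_zero]⟩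
  · exact Or.inl rfl

theorem isHom_algebraMap {δ : Sg m →₀ ℕ} {z : PP V} (hz : IsWeightedHomogeneous w z δ) :
    IsHom w δ (algebraMap (PP V) (Tw s) z) := by
  rw [Algebra.algebraMap_eq_smul_one]
  simpa using isHom_smul hz (isHom_one (w := w) (s := s))

theorem isHom_intCast (n : ℤ) : IsHom w 0 (n : Tw s) := by
  rw [← map_intCast (algebraMap (PP V) (Tw s)), ← map_intCast (C : ℚ →+* PP V)]
  exact isHom_algebraMap (isWeightedHomogeneous_C w _)

theorem hom_tr {γ : Sg m →₀ ℕ} {a : Tw s} (ha : IsHom w γ a) :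
    IsWeightedHomogeneous w (Tw.tr s a) γ := by
  intro μ hμ
  have := ha 0 μ (mem_support_iff.2 hμ)
  rwa [hat_zero, add_zero] at this

theorem hom_coc (hs : ∀ i, IsWeightedHomogeneous w (s i) (Finsupp.single i 2)) (ψ φ : Hh m) :
    ∃ η, IsWeightedHomogeneous w (coc s ψ φ) η ∧ η + hat (ψ + φ) = hat ψ + hat φ := by
  classical
  refine ⟨0 + ∑ i, if ψ i = 1 ∧ φ i = 1 then Finsupp.single i 2 else 0, ?_, ?_⟩
  · refine IsWeightedHomogeneous.mul ?_ (IsWeightedHomogeneous.prod _ _ _ fun i _ => ?_)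
    · rw [← map_sgn (C : ℚ →+* PP V)]
      exact isWeightedHomogeneous_C w _
    · split_ifs
      exacts [hs i, isWeightedHomogeneous_one ℚ w]
  · ext i
    rw [zero_add, Finsupp.add_apply, Finsupp.add_apply, Finsupp.finsetSum_apply,
      Finset.sum_eq_single i]
    · simp only [hat_apply, Pi.add_apply]
      rcases zmod2_cases (ψ i) with h1 | h1 <;> rcases zmod2_cases (φ i) with h2 | h2 <;>
        simp [h1, h2, show (1 : ZMod 2) + 1 = 0 from rfl, ZMod.val_one]
    · intro j _ hj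
      split_ifs
      · exact Finsupp.single_eq_of_ne' hj
      · rfl
    · simp

theorem hom_det {d : ℕ} (γ : Sg m →₀ ℕ) (M : Matrix (Fin d) (Fin d) (PP V)) (e f : Fin d → ℕ)
    (h : ∀ i j, IsWeightedHomogeneous w (M i j) ((e i + f j) • γ)) :
    IsWeightedHomogeneous w M.det ((∑ i, e i + ∑ j, f j) • γ) := by
  rw [Matrix.det_apply']
  refine IsWeightedHomogeneous.sum _ _ _ fun π _ => ?_
  have h1 := IsWeightedHomogeneous.prod Finset.univ (fun i => M (π i) i)
    (fun i => (e (π i) + f i) • γ) (fun i _ => h (π i) i)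
  rw [← Finset.sum_smul, Finset.sum_add_distrib, Equiv.sum_comp π e] at h1
  rw [← map_intCast (C : ℚ →+* PP V)]
  exact h1.C_mul _

end Homog

open Homog

/-- `coc s ψ φ` is homogeneous of a degree `η` with `η + hat (ψ + φ) = hat ψ + hat φ`. -/
theorem IsHom.mul (hs : ∀ i, IsWeightedHomogeneous w (s i) (Finsupp.single i 2))
    {γ γ' : Sg m →₀ ℕ} {a b : Tw s} (ha : IsHom w γ a) (hb : IsHom w γ' b) :
    IsHom w (γ + γ') (a * b) := by
  classical
  intro χ μ hμ
  rw [Tw.mul_apply] at hμ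
  obtain ⟨ψ, -, hψ⟩ := Finset.mem_biUnion.1 (support_sum hμ)
  rcases ha.comp ψ with h | ⟨δ, h1, h2⟩
  · simp [h] at hψ
  rcases hb.comp (ψ + χ) with h | ⟨δ', h3, h4⟩
  · simp [h] at hψ
  obtain ⟨η, h5, h6⟩ := hom_coc hs ψ (ψ + χ)
  rw [Hh.add_add_cancel] at h6
  rw [(h5.mul (h1.mul h3)) (mem_support_iff.1 hψ), ← h2, ← h4, add_right_comm, h6]
  abel

theorem Homog.isHom_pow (hs : ∀ i, IsWeightedHomogeneous w (s i) (Finsupp.single i 2))
    {γ : Sg m →₀ ℕ} {b : Tw s} (hb : IsHom w γ b) (n : ℕ) : IsHom w (n • γ) (b ^ n) := by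
  induction n with
  | zero => simpa using isHom_one
  | succ n ih => rw [pow_succ, succ_nsmul]; exact ih.mul hs hb

/-- `tr (b^n)` is homogeneous of degree `n • γ`; a determinant whose `(r, j)` entry has degree `(r + e j) • γ` is homogeneous of degree
`(∑ r + ∑ e j) • γ` (`Matrix.det_apply'`, `Matrix.cramer_apply`); `gramD` has degree `(2 ∑_{r<d} r) • γ`, `gramC i` has `d - i` more. -/
theorem IsHom.gramF (hs : ∀ i, IsWeightedHomogeneous w (s i) (Finsupp.single i 2))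
    {γ : Sg m →₀ ℕ} {b : Tw s} (hb : IsHom w γ b) (d : ℕ) :
    ∃ n : ℕ, IsHom w (n • γ) (gramF (Tw.tr s) b d) := by
  refine ⟨(∑ i : Fin d, (i : ℕ) + ∑ i : Fin d, (i : ℕ)) + d, IsHom.sub ?_ (isHom_sum _ fun i _ => ?_)⟩
  · rw [add_smul]
    refine isHom_smul (hom_det γ _ _ _ fun i j => ?_) (isHom_pow hs hb d)
    exact hom_tr (isHom_pow hs hb _)
  · have e : (∑ i : Fin d, (i : ℕ) + ∑ i : Fin d, (i : ℕ)) + d
        = (∑ i : Fin d, (i : ℕ) + ∑ j : Fin d, Function.update (fun j : Fin d => (j : ℕ)) i d j)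
          + i := by
      rw [Finset.sum_update_of_mem (Finset.mem_univ i), Finset.sdiff_singleton_eq_erase]
      have := Finset.add_sum_erase Finset.univ (fun j : Fin d => (j : ℕ)) (Finset.mem_univ i)
      omega
    rw [e, add_smul]
    refine isHom_smul ?_ (isHom_pow hs hb i)
    rw [gramC, Matrix.cramer_apply]
    refine hom_det γ _ _ _ fun r j => ?_
    rw [Matrix.updateCol_apply, Function.update_apply]
    split_ifs
    · rw [add_comm]
      exact hom_tr (isHom_pow hs hb _)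
    · exact hom_tr (isHom_pow hs hb _)

theorem IsHom.hev (hs : ∀ i, IsWeightedHomogeneous w (s i) (Finsupp.single i 2))
    {γ : Sg m →₀ ℕ} {z : PP V} {x y : Tw s} (hz : IsWeightedHomogeneous w z γ)
    (hx : IsHom w γ x) (hy : IsHom w γ y) (t : Tm) :
    IsHom w (t.deg • γ) (Tm.hev (Tw.tr s) z x y t) := by
  induction t with
  | x => simpa [Tm.deg, Tm.hev] using hx
  | y => simpa [Tm.deg, Tm.hev] using hy
  | c n => simpa [Tm.deg, Tm.hev] using isHom_smul hz (isHom_intCast (w := w) (s := s) n)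
  | add a b iha ihb =>
    simp only [Tm.deg, Tm.hev, add_smul]
    refine isHom_add ?_ (isHom_smul (hz.pow _) ihb)
    rw [add_comm]
    exact isHom_smul (hz.pow _) iha
  | mul a b iha ihb =>
    simp only [Tm.deg, Tm.hev, add_smul]
    exact iha.mul hs ihb
  | tr a ih =>
    simp only [Tm.deg, Tm.hev]
    exact isHom_algebraMap (hom_tr ih)

end Crest.Agent.R180
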