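import Crest.Agent.R180.Deriv

/-! # Row 180: largeness of the generated subalgebra -/

set_option autoImplicit false

namespace Crest.Agent.R180

open Finset

/-- The coefficientwise action of a derivation. -/
def dT {m : ℕ} {F : Type} [Field F] [CharZero F] {s : Sg m → F} (D : Derivation ℚ F F)
    (a : Tw s) : Tw s := Tw.mk s fun ψ => D (a ψ)

namespace Large

variable {m : ℕ} {F : Type} [Field F] [CharZero F] {s : Sg m → F}

@[simp] theorem dT_apply (D : Derivation ℚ F F) (a : Tw s) (ψ : Hh m) : dT D a ψ = D (a ψ) := rfl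

theorem dT_add (D : Derivation ℚ F F) (a b : Tw s) : dT D (a + b) = dT D a + dT D b := by
  ext ψ; simp

theorem dT_zero (D : Derivation ℚ F F) : dT D (0 : Tw s) = 0 := by
  ext ψ; simp

theorem dT_smul (D : Derivation ℚ F F) {c : F} (hc : D c = 0) (a : Tw s) :
    dT D (c • a) = c • dT D a := by
  ext ψ; simp [hc]

theorem dT_sum (D : Derivation ℚ F F) {ι : Type} (t : Finset ι) (f : ι → Tw s) :
    dT D (∑ i ∈ t, f i) = ∑ i ∈ t, dT D (f i) := by
  ext ψ; simp [Tw.sum_apply, map_sum]

theorem D_coc (D : Derivation ℚ F F) (hs : ∀ i, D (s i) = 0) (ψ φ : Hh m) :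
    D (coc s ψ φ) = 0 := by
  have h1 : D (sgn F (beta ψ φ)) = 0 := by
    unfold sgn; split_ifs <;> simp
  have h2 : D (∏ i, if ψ i = 1 ∧ φ i = 1 then s i else 1) = 0 := by
    refine Finset.prod_induction _ (fun a => D a = 0) ?_ (by simp) ?_
    · intro a b ha hb; simp [ha, hb]
    · intro i _; split_ifs <;> simp [hs]
  unfold coc
  rw [Derivation.leibniz, h1, h2]; simp

theorem dT_algebraMap (D : Derivation ℚ F F) {c : F} (hc : D c = 0) :
    dT D (algebraMap F (Tw s) c) = 0 := by
  ext ψ
  rw [dT_apply, Tw.algebraMap_apply]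
  split_ifs <;> simp [hc]

/-- `dT` is linear in the derivation. -/
def dTl (a : Tw s) : Derivation ℚ F F →ₗ[F] Tw s where
  toFun D := dT D a
  map_add' D E := by ext ψ; simp
  map_smul' c D := by ext ψ; simp

/-- Evaluation of a derivation at a family of elements. -/
def evl {ι : Type} (t : ι → F) : Derivation ℚ F F →ₗ[F] (ι → F) where
  toFun D := fun i => D (t i)
  map_add' D E := by ext i; simp
  map_smul' c D := by ext i; simp

end Large

open Large

/-- Leibniz rule (the structure constants are killed). -/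
theorem dT_mul {m : ℕ} {F : Type} [Field F] [CharZero F] {s : Sg m → F} (D : Derivation ℚ F F)
    (hs : ∀ i, D (s i) = 0) (a b : Tw s) : dT D (a * b) = dT D a * b + a * dT D b := by
  ext χ
  simp only [dT_apply, Tw.add_apply, Tw.mul_apply, map_sum, ← sum_add_distrib]
  refine sum_congr rfl fun ψ _ => ?_
  rw [Derivation.leibniz, Derivation.leibniz, D_coc D hs]
  simp only [smul_eq_mul]
  ring

/-- Induction on the term. -/
theorem dT_hev {m : ℕ} {F : Type} [Field F] [CharZero F] {s : Sg m → F} (D : Derivation ℚ F F)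
    (hs : ∀ i, D (s i) = 0) {z : F} (hz : D z = 0) {x y : Tw s} (hx : dT D x = 0)
    (hy : dT D y = 0) (t : Tm) : dT D (Tm.hev (Tw.tr s) z x y t) = 0 := by
  have hzp : ∀ n : ℕ, D (z ^ n) = 0 := fun n => by
    rw [Derivation.leibniz_pow, hz]; simp
  induction t with
  | x => exact hx
  | y => exact hy
  | c n =>
    have h : ((n : ℤ) : Tw s) = algebraMap F (Tw s) (n : F) := by simp
    simp only [Tm.hev]
    rw [dT_smul D hz, h, dT_algebraMap D (by simp), smul_zero]
  | add a b iha ihb =>
    simp only [Tm.hev]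
    rw [dT_add, dT_smul D (hzp _), dT_smul D (hzp _), iha, ihb]; simp
  | mul a b iha ihb =>
    simp only [Tm.hev]
    rw [dT_mul D hs, iha, ihb]; simp
  | tr a iha =>
    simp only [Tm.hev]
    refine dT_algebraMap D ?_
    have := congrArg (fun a : Tw s => a 0) iha
    simpa using this

/-- Let `B = adjoin F {x, y}` have the basis `w_1..w_k`.  In the `r`-dimensional space spanned by the derivations of
`exists_derivations` consider the subspace `W` of those killing the `s i`, `z`, the `k³` structure constants of `B` and the `2k` coordinates of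
`x, y`; `dim W ≥ r - (2m + 1 + k³ + 2k)`.  For `D ∈ W` the `F`-linear map `δ : B → Tw s` with `δ w_i = dT D w_i` is a derivation with
`δ x = dT D x`, `δ y = dT D y`, so by `derivation_inner` the linear map `D ↦ (dT D x, dT D y)`, injective by `hgen`, has values in the range of
`g ↦ (g x - x g, g y - y g)`, of dimension `≤ 4^m`. -/
theorem large {m : ℕ} {F : Type} [Field F] [CharZero F] {s : Sg m → F} [NoZeroDivisors (Tw s)]
    (z : F) (x y : Tw s) (r : ℕ) (hr : (r : Cardinal) ≤ Algebra.trdeg ℚ F)
    (hgen : ∀ D : Derivation ℚ F F, (∀ i, D (s i) = 0) → D z = 0 → dT D x = 0 → dT D y = 0 →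
      D = 0) (k : ℕ) (hk : Module.finrank F (Algebra.adjoin F ({x, y} : Set (Tw s))) ≤ k) :
    r ≤ 2 * m + 1 + k ^ 3 + 2 * k + 4 ^ m := by
  classical
  obtain ⟨Dv, hDv⟩ := exists_derivations F r hr
  set B : Subalgebra F (Tw s) := Algebra.adjoin F ({x, y} : Set (Tw s)) with hB
  have : Module.Finite F B := Module.Finite.of_injective B.val.toLinearMap Subtype.val_injective
  set n := Module.finrank F B with hn
  let w : Module.Basis (Fin n) F B := Module.finBasis F B
  have hxB : x ∈ B := Algebra.subset_adjoin (by simp)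
  have hyB : y ∈ B := Algebra.subset_adjoin (by simp)
  let ι : Type := Sg m ⊕ Unit ⊕ (Fin n × Fin n × Fin n) ⊕ Fin n ⊕ Fin n
  let t : ι → F := Sum.elim s (Sum.elim (fun _ => z)
    (Sum.elim (fun p => w.repr (w p.1 * w p.2.1) p.2.2)
      (Sum.elim (fun i => w.repr ⟨x, hxB⟩ i) (fun i => w.repr ⟨y, hyB⟩ i))))
  let L : (Fin r → F) →ₗ[F] Derivation ℚ F F := Fintype.linearCombination F Dv
  have hL : Function.Injective L := hDv.fintypeLinearCombination_injective
  let Φ : (Fin r → F) →ₗ[F] (ι → F) := (evl t).comp L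
  let W := LinearMap.ker Φ
  have hcard : Fintype.card ι = 2 * m + 1 + n ^ 3 + 2 * n := by
    simp [ι, Sg]; ring
  have hW : r ≤ Module.finrank F W + (2 * m + 1 + n ^ 3 + 2 * n) := by
    have h1 := LinearMap.finrank_range_add_finrank_ker Φ
    have h2 : Module.finrank F (LinearMap.range Φ) ≤ Fintype.card ι := by
      have := Submodule.finrank_le (LinearMap.range Φ)
      rwa [Module.finrank_fintype_fun_eq_card] at this
    rw [Module.finrank_fin_fun] at h1
    change r ≤ Module.finrank F (LinearMap.ker Φ) + _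
    omega
  let Ψ : W →ₗ[F] Tw s × Tw s := (((dTl x).prod (dTl y)).comp L).comp W.subtype
  let G : Tw s →ₗ[F] Tw s × Tw s :=
    (LinearMap.mulRight F x - LinearMap.mulLeft F x).prod
      (LinearMap.mulRight F y - LinearMap.mulLeft F y)
  have hker : ∀ c : W, ∀ i, L c (t i) = 0 := fun c i => congrFun c.2 i
  have hΨ : Function.Injective Ψ := by
    rw [injective_iff_map_eq_zero]
    intro c hc
    have hc1 : dT (L c) x = 0 := congrArg Prod.fst hc
    have hc2 : dT (L c) y = 0 := congrArg Prod.snd hc
    have h0 := hgen (L c) (fun i => hker c (Sum.inl i)) (hker c (Sum.inr (Sum.inl ()))) hc1 hc2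
    exact Subtype.ext (hL (by rw [h0]; simp))
  have hrange : LinearMap.range Ψ ≤ LinearMap.range G := by
    rintro _ ⟨c, rfl⟩
    set D := L c with hD
    have hs : ∀ i, D (s i) = 0 := fun i => hker c (Sum.inl i)
    let δ : B →ₗ[F] Tw s := w.constr F fun i => dT D (w i : Tw s)
    have hδw : ∀ i, δ (w i) = dT D (w i : Tw s) := fun i => by simp [δ]
    have hδ : ∀ a : B, (∀ i, D (w.repr a i) = 0) → δ a = dT D (a : Tw s) := by
      intro a ha
      conv_lhs => rw [← w.sum_repr a]
      conv_rhs => rw [← w.sum_repr a]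
      rw [map_sum, AddSubmonoidClass.coe_finsetSum, dT_sum]
      refine sum_congr rfl fun i _ => ?_
      rw [map_smul, hδw, Subalgebra.coe_smul, dT_smul D (ha i)]
    have hder : ∀ a b : B, δ (a * b) = δ a * (b : Tw s) + (a : Tw s) * δ b := by
      have h : (LinearMap.mul F B).compr₂ δ =
          (LinearMap.mul F (Tw s)).compl₁₂ δ B.val.toLinearMap +
            (LinearMap.mul F (Tw s)).compl₁₂ B.val.toLinearMap δ := by
        refine LinearMap.ext_basis w w fun i j => ?_
        have h1 := hδ (w i * w j) fun l => hker c (Sum.inr (Sum.inr (Sum.inl (i, j, l))))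
        simp only [LinearMap.compr₂_apply, LinearMap.mul_apply', LinearMap.add_apply,
          LinearMap.compl₁₂_apply, AlgHom.toLinearMap_apply, Subalgebra.coe_val]
        rw [h1, hδw, hδw, Subalgebra.coe_mul, dT_mul D hs]
      intro a b
      simpa using LinearMap.congr_fun₂ h a b
    obtain ⟨g, hg⟩ := derivation_inner B δ hder
    have h1 := hδ ⟨x, hxB⟩ fun i => hker c (Sum.inr (Sum.inr (Sum.inr (Sum.inl i))))
    have h2 := hδ ⟨y, hyB⟩ fun i => hker c (Sum.inr (Sum.inr (Sum.inr (Sum.inr i))))
    refine ⟨g, Prod.ext ?_ ?_⟩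
    · change g * x - x * g = dT D x
      rw [← h1, hg]
    · change g * y - y * g = dT D y
      rw [← h2, hg]
  have hW2 : Module.finrank F W ≤ 4 ^ m := by
    rw [← LinearMap.finrank_range_of_inj hΨ, ← Tw.finrank_eq (s := s)]
    exact (Submodule.finrank_mono hrange).trans (LinearMap.finrank_range_le G)
  have h3 : n ^ 3 ≤ k ^ 3 := Nat.pow_le_pow_left hk 3
  omega

end Crest.Agent.R180
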