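import Crest.Agent.R180.Defs

/-! # Row 180: rigidity at the base point -/

set_option autoImplicit false

namespace Crest.Agent.R180

open Finset

namespace Rigid

open Classical in
theorem card_supp {m : ℕ} (S : Finset (Sg m)) :
    (univ.filter fun ψ : Hh m => ∀ i, i ∉ S → ψ i = 0).card = 2 ^ S.card := by
  have h : (univ.filter fun ψ : Hh m => ∀ i, i ∉ S → ψ i = 0) =
      Fintype.piFinset fun i => if i ∈ S then (univ : Finset (ZMod 2)) else {0} := by
    ext ψ
    simp only [mem_filter, mem_univ, true_and, Fintype.mem_piFinset]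
    refine forall_congr' fun i => ?_
    by_cases hi : i ∈ S <;> simp [hi]
  rw [h, Fintype.card_piFinset]
  simp only [apply_ite Finset.card, card_univ, ZMod.card, card_singleton]
  rw [prod_ite_mem, univ_inter, prod_const]

theorem card_side {m e : ℕ} (he : e ≤ m) (b : Bool) :
    (univ.filter fun i : Sg m => i.2 = b ∧ (i.1 : ℕ) < e).card = e := by
  have h : (univ.filter fun i : Sg m => i.2 = b ∧ (i.1 : ℕ) < e) =
      (univ.filter fun i : Fin m => (i : ℕ) < e).map
        ⟨fun i => (i, b), fun i j h => (Prod.mk.inj h).1⟩ := by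
    ext ⟨i, c⟩
    simp only [mem_filter, mem_univ, true_and, mem_map]
    constructor
    · rintro ⟨rfl, h⟩; exact ⟨i, h, rfl⟩
    · rintro ⟨j, h, hj⟩
      obtain ⟨rfl, rfl⟩ := Prod.mk.inj hj
      exact ⟨rfl, h⟩
  rw [h, card_map, Fin.card_filter_val_lt, min_eq_right he]

theorem card_II {m e : ℕ} (he : e ≤ m) : (II m e).card = e := card_side he false

theorem card_A {m e : ℕ} (he : e ≤ m) : Nat.card {ψ : Hh m // InA e ψ} = 2 ^ e := by
  classical
  rw [Nat.card_eq_fintype_card, Fintype.card_subtype]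
  have := card_supp (II m e)
  rw [card_II he] at this
  convert this using 2
  ext ψ
  simp [InA]

variable {m e : ℕ} {κ : Type} [Field κ] {s : Sg m → κ}

theorem InA.add {ψ φ : Hh m} (h1 : InA e ψ) (h2 : InA e φ) : InA e (ψ + φ) := fun i hi => by
  simp [h1 i hi, h2 i hi]

theorem InA.true {ψ : Hh m} (h : InA e ψ) (i : Fin m) : ψ (i, true) = 0 :=
  h _ (by simp [II])

/-- the standard pairing -/
def pr (φ ψ : Hh m) : ZMod 2 := ∑ i, φ i * ψ i

theorem pr_add (φ ψ χ : Hh m) : pr φ (ψ + χ) = pr φ ψ + pr φ χ := by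
  simp [pr, mul_add, sum_add_distrib]

/-- the sign change -/
def sg (s : Sg m → κ) (φ : Hh m) : Tw s →ₐ[κ] Tw s where
  toFun a := Tw.mk s fun ψ => sgn κ (pr φ ψ) * a ψ
  map_one' := by
    ext ψ
    simp only [Tw.mk_apply, Tw.one_apply]
    split_ifs with h
    · subst h; simp [pr]
    · simp
  map_mul' a b := by
    ext χ
    simp only [Tw.mk_apply, Tw.mul_apply, mul_sum]
    refine sum_congr rfl fun ψ _ => ?_
    have h : sgn κ (pr φ χ) = sgn κ (pr φ ψ) * sgn κ (pr φ (ψ + χ)) := by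
      rw [← sgn_add, ← pr_add, Hh.add_add_cancel]
    rw [h]; ring
  map_zero' := by ext ψ; simp
  map_add' a b := by ext ψ; simp [mul_add]
  commutes' r := by
    ext ψ
    simp only [Tw.mk_apply, Tw.algebraMap_apply]
    split_ifs with h
    · subst h; simp [pr]
    · simp

theorem sg_apply (φ : Hh m) (a : Tw s) (ψ : Hh m) : sg s φ a ψ = sgn κ (pr φ ψ) * a ψ := rfl

theorem sg_zero (a : Tw s) : sg s 0 a = a := by
  ext ψ; simp [sg_apply, pr]

/-- the character of `A_e` given by commutation with `u ψ` -/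
def th (e : ℕ) (ψ : Hh m) : Hh m := fun i => if i ∈ II m e then ψ (i.1, true) else 0

theorem th_inA (ψ : Hh m) : InA e (th e ψ) := fun i hi => by simp [th, hi]

theorem th_add {χ : Hh m} (h : InA e χ) (ψ : Hh m) : th e (χ + ψ) = th e ψ := by
  funext i
  simp [th, InA.true h]

theorem th_eq_zero_iff {ψ : Hh m} : th e ψ = 0 ↔ InPerp e ψ := by
  constructor
  · intro h i hi
    have := congrFun h (i, false)
    simpa [th, II, hi] using this
  · intro h
    funext i
    simp only [th, Pi.zero_apply]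
    split_ifs with hi
    · exact h i.1 (by simpa [II] using (mem_filter.1 hi).2.2)
    · rfl

theorem th_of_inA {ψ : Hh m} (h : InA e ψ) : th e ψ = 0 :=
  th_eq_zero_iff.2 fun i _ => InA.true h i

theorem beta_left {χ : Hh m} (h : InA e χ) (ψ : Hh m) : beta χ ψ = 0 := by
  simp [beta, InA.true h]

theorem beta_right {χ : Hh m} (h : InA e χ) (ψ : Hh m) : beta ψ χ = pr (th e ψ) χ := by
  unfold beta pr
  rw [Fintype.sum_prod_type]
  refine sum_congr rfl fun i _ => ?_
  rw [Fintype.sum_bool, InA.true h, mul_zero, zero_add]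
  by_cases hi : (i, false) ∈ II m e
  · simp [th, hi]
  · simp [h _ hi]

theorem coc_swap {χ : Hh m} (h : InA e χ) (ψ : Hh m) :
    coc s χ ψ = coc s ψ χ * sgn κ (pr (th e ψ) χ) := by
  unfold coc
  rw [beta_left h, beta_right h, sgn_zero, one_mul, mul_right_comm, sgn_mul_self, one_mul]
  exact prod_congr rfl fun i _ => by simp only [and_comm]

theorem mul_apply' (g a : Tw s) (ω : Hh m) :
    (g * a) ω = ∑ χ, coc s (χ + ω) χ * (g (χ + ω) * a χ) := by
  rw [Tw.mul_apply, ← Equiv.sum_comp (Equiv.addRight ω)]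
  refine sum_congr rfl fun χ _ => ?_
  simp only [Equiv.coe_addRight]
  rw [add_assoc, Hh.add_self, add_zero]

/-- the commutative subalgebra spanned by `A_e` -/
def LL (s : Sg m → κ) (e : ℕ) : Subalgebra κ (Tw s) where
  carrier := {a | ∀ ψ, ¬ InA e ψ → a ψ = 0}
  mul_mem' {a b} ha hb ω hω := by
    rw [Tw.mul_apply]
    refine sum_eq_zero fun χ _ => ?_
    by_cases hχ : InA e χ
    · rw [hb (χ + ω) fun h => hω (by simpa [Hh.add_add_cancel] using InA.add hχ h)]; simp
    · rw [ha χ hχ]; simp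
  add_mem' {a b} ha hb ω hω := by simp [ha ω hω, hb ω hω]
  algebraMap_mem' r ω hω := by
    rw [Tw.algebraMap_apply, if_neg]
    rintro rfl
    exact hω fun _ _ => rfl

theorem mem_LL {a : Tw s} : a ∈ LL s e ↔ ∀ ψ, ¬ InA e ψ → a ψ = 0 := Iff.rfl

theorem sg_mem {a : Tw s} (ha : a ∈ LL s e) (φ : Hh m) : sg s φ a ∈ LL s e := fun ψ hψ => by
  rw [sg_apply, ha ψ hψ, mul_zero]

theorem mul_swap {a : Tw s} (ha : a ∈ LL s e) (g : Tw s) (ω : Hh m) :
    (a * g) ω = (g * sg s (th e ω) a) ω := by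
  rw [Tw.mul_apply, mul_apply']
  refine sum_congr rfl fun χ _ => ?_
  by_cases hχ : InA e χ
  · rw [coc_swap hχ, th_add hχ, sg_apply]; ring
  · rw [sg_apply, ha χ hχ]; simp

theorem LL_comm {a b : Tw s} (ha : a ∈ LL s e) (hb : b ∈ LL s e) : a * b = b * a := by
  ext ω
  by_cases hω : InA e ω
  · rw [mul_swap ha, th_of_inA hω, sg_zero]
  · rw [(LL s e).mul_mem ha hb ω hω, (LL s e).mul_mem hb ha ω hω]

theorem sg_inj [CharZero κ] {l : Tw s} (hl : ∀ ψ, InA e ψ → ψ ≠ 0 → l ψ ≠ 0) {φ φ' : Hh m}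
    (h1 : InA e φ) (h2 : InA e φ') (h : sg s φ l = sg s φ' l) : φ = φ' := by
  classical
  funext i
  by_cases hi : i ∈ II m e
  · have hA : InA e (Pi.single i 1 : Hh m) := fun j hj => by
      rw [Pi.single_apply, if_neg]
      rintro rfl
      exact hj hi
    have h0 : (Pi.single i 1 : Hh m) ≠ 0 := fun h0 => by simpa using congrFun h0 i
    have h3 := congrArg (fun a : Tw s => a (Pi.single i 1)) h
    simp only [sg_apply] at h3
    have h4 := mul_right_cancel₀ (hl _ hA h0) h3
    have hp : ∀ φ : Hh m, pr φ (Pi.single i 1) = φ i := fun φ => by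
      simp [pr, Pi.single_apply]
    rw [hp, hp] at h4
    rcases zmod2_cases (φ i) with h5 | h5 <;> rcases zmod2_cases (φ' i) with h6 | h6 <;>
      rw [h5, h6] at h4 ⊢ <;> simp at h4 <;> norm_num at h4
  · rw [h1 i hi, h2 i hi]

theorem finrank_LL_le (he : e ≤ m) : Module.finrank κ (LL s e) ≤ 2 ^ e := by
  classical
  let r : LL s e →ₗ[κ] ({ψ : Hh m // InA e ψ} → κ) :=
    { toFun := fun a ψ => (a : Tw s) ψ
      map_add' := fun a b => rfl
      map_smul' := fun c a => rfl }
  have hr : Function.Injective r := by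
    intro a b hab
    ext ψ
    by_cases hψ : InA e ψ
    · exact congrFun hab ⟨ψ, hψ⟩
    · rw [a.2 ψ hψ, b.2 ψ hψ]
  have := LinearMap.finrank_le_finrank_of_injective hr
  rwa [Module.finrank_fintype_fun_eq_card, ← Nat.card_eq_fintype_card, card_A he] at this

theorem indep [CharZero κ] [NoZeroDivisors (Tw s)] (he : e ≤ m) {l : Tw s} (hL : l ∈ LL s e)
    (hl : ∀ ψ, InA e ψ → ψ ≠ 0 → l ψ ≠ 0) :
    LinearIndependent κ fun i : Fin (2 ^ e) => l ^ (i : ℕ) := by
  classical
  rw [Fintype.linearIndependent_iff]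
  intro c hc
  let : CommRing (LL s e) :=
    { (inferInstance : Ring (LL s e)) with
      mul_comm := fun a b => Subtype.ext (LL_comm a.2 b.2) }
  have : IsDomain (LL s e) := NoZeroDivisors.to_isDomain _
  let q : Fin (2 ^ e) ≃ {ψ : Hh m // InA e ψ} :=
    (Fintype.equivFinOfCardEq (by rw [← Nat.card_eq_fintype_card, card_A he])).symm
  let f : Fin (2 ^ e) → LL s e := fun j => ⟨sg s (q j) l, sg_mem hL _⟩
  have hf : Function.Injective f := fun j j' h =>
    q.injective (Subtype.ext (sg_inj hl (q j).2 (q j').2 (congrArg Subtype.val h)))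
  have hv := Matrix.eq_zero_of_forall_index_sum_mul_pow_eq_zero (f := f)
    (v := fun i => algebraMap κ (LL s e) (c i)) hf (fun j => by
      apply Subtype.ext
      have h1 := congrArg (sg s (q j)) hc
      rw [map_sum, map_zero] at h1
      rw [AddSubmonoidClass.coe_finsetSum, ZeroMemClass.coe_zero, ← h1]
      refine sum_congr rfl fun i _ => ?_
      rw [map_smul, map_pow, Algebra.smul_def]
      rfl)
  intro i
  have h2 : algebraMap κ (LL s e) (c i) = 0 := congrFun hv i
  exact (map_eq_zero _).1 h2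

theorem span_pow [CharZero κ] [NoZeroDivisors (Tw s)] (he : e ≤ m) {l : Tw s} (hL : l ∈ LL s e)
    (hl : ∀ ψ, InA e ψ → ψ ≠ 0 → l ψ ≠ 0) {a : Tw s} (ha : a ∈ LL s e) :
    ∃ c : Fin (2 ^ e) → κ, a = ∑ i : Fin (2 ^ e), c i • l ^ (i : ℕ) := by
  let v : Fin (2 ^ e) → LL s e := fun i => ⟨l ^ (i : ℕ), (LL s e).pow_mem hL _⟩
  have hv : LinearIndependent κ v :=
    LinearIndependent.of_comp (LL s e).val.toLinearMap (indep he hL hl)
  have : Module.Finite κ (LL s e) :=
    Module.Finite.of_injective (LL s e).val.toLinearMap Subtype.val_injective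
  have hcard : Fintype.card (Fin (2 ^ e)) = Module.finrank κ (LL s e) := by
    refine le_antisymm hv.fintype_card_le_finrank ?_
    rw [Fintype.card_fin]
    exact finrank_LL_le he
  have hsp := hv.span_eq_top_of_card_eq_finrank' hcard
  have hmem : (⟨a, ha⟩ : LL s e) ∈ Submodule.span κ (Set.range v) := by
    rw [hsp]; exact Submodule.mem_top
  obtain ⟨c, hc⟩ := (Submodule.mem_span_range_iff_exists_fun κ).1 hmem
  refine ⟨c, ?_⟩
  have := congrArg Subtype.val hc
  rw [AddSubmonoidClass.coe_finsetSum] at this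
  exact this.symm

end Rigid

open Classical in
theorem card_perp {m e : ℕ} (he : e ≤ m) :
    (univ.filter fun ψ : Hh m => InPerp e ψ).card * 2 ^ e = 4 ^ m := by
  let S : Finset (Sg m) := univ.filter fun i : Sg m => i.2 = true ∧ (i.1 : ℕ) < e
  have hS : S.card = e := Rigid.card_side he true
  have h1 := Rigid.card_supp Sᶜ
  have h2 : (univ.filter fun ψ : Hh m => InPerp e ψ) =
      (univ.filter fun ψ : Hh m => ∀ i, i ∉ Sᶜ → ψ i = 0) := by
    refine filter_congr fun ψ _ => ?_
    simp only [mem_filter, mem_univ, true_and, mem_compl, not_not, S]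
    constructor
    · rintro h ⟨i, b⟩ ⟨hb, hi⟩
      simp only at hb hi
      subst hb
      exact h i hi
    · intro h i hi
      exact h (i, true) ⟨rfl, hi⟩
  have h3 : Sᶜ.card + e = 2 * m := by
    have := card_add_card_compl S
    rw [hS] at this
    simp only [Sg, Fintype.card_prod, Fintype.card_fin, Fintype.card_bool] at this
    omega
  rw [h2]
  convert congrArg (· * 2 ^ e) h1 using 1
  rw [← pow_add, h3, pow_mul]
  norm_num

/-- Let `L` be the span of the `u χ`, `χ ∈ A_e` (a commutative subalgebra of dimension `d = 2^e`: `beta` vanishes on `A_e`).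
For `φ : Hh m` the sign change `σ_φ : u ψ ↦ (-1)^(∑ φ i ψ i) u ψ` is an algebra automorphism of `Tw s`; the `σ_φ l`, `φ ∈ A_e`, are
`d` distinct elements of the commutative domain `L`, and roots of every polynomial over `κ` killing `l`; so the powers `l^i`, `i < d`,
are independent, hence a basis of `L`.  Third claim: for a character `θ ≠ 1` of `A_e` let `f_θ` be the part of `f` on the `ψ` with
`(ψ (i,true))_{i<e} = θ`; `l * ·` and `· * l` preserve these parts, `l * f_θ = f_θ * σ l` for the sign change `σ` given by `θ`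
(`coc s χ ψ = ± coc s ψ χ`), so `f_θ (σ l - l) = 0` and `f_θ = 0`.  So `f ∈ L`, `tr (f * a) = 0` for all `a ∈ L`, and
`tr (f * u χ) = coc s χ χ * f χ` with `coc s χ χ ≠ 0` because `u χ * u χ ≠ 0`. -/
theorem rigid {m e : ℕ} (he : e ≤ m) {κ : Type} [Field κ] [CharZero κ] {s : Sg m → κ}
    [NoZeroDivisors (Tw s)] (l : Tw s) (hl : ∀ ψ, l ψ ≠ 0 ↔ InA e ψ ∧ ψ ≠ 0) :
    (LinearIndependent κ fun i : Fin (2 ^ e) => l ^ (i : ℕ)) ∧
    (∃ c : Fin (2 ^ e) → κ, l ^ (2 ^ e) = ∑ i : Fin (2 ^ e), c i • l ^ (i : ℕ)) ∧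
    ∀ f : Tw s, l * f = f * l → (∀ ψ, InPerp e ψ → ¬ InA e ψ → f ψ = 0) →
      (∀ j : Fin (2 ^ e), Tw.tr s (f * l ^ (j : ℕ)) = 0) → f = 0 := by
  classical
  have hL : l ∈ Rigid.LL s e := fun ψ hψ => by
    by_contra h
    exact hψ ((hl ψ).1 h).1
  have hl' : ∀ ψ, InA e ψ → ψ ≠ 0 → l ψ ≠ 0 := fun ψ h1 h2 => (hl ψ).2 ⟨h1, h2⟩
  refine ⟨Rigid.indep he hL hl', Rigid.span_pow he hL hl' ((Rigid.LL s e).pow_mem hL _), ?_⟩
  intro f hc hp ht
  -- `f` vanishes off the orthogonal complement
  have hperp : ∀ ψ, ¬ InPerp e ψ → f ψ = 0 := by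
    intro ψ hψ
    set θ := Rigid.th e ψ with hθ
    let g : Tw s := Tw.mk s fun ω => if Rigid.th e ω = θ then f ω else 0
    have hb : Rigid.sg s θ l - l ∈ Rigid.LL s e := (Rigid.LL s e).sub_mem (Rigid.sg_mem hL _) hL
    have hg : g * (Rigid.sg s θ l - l) = 0 := by
      ext ω
      rw [Tw.zero_apply]
      by_cases hω : Rigid.th e ω = θ
      · have h1 : (f * (Rigid.sg s θ l - l)) ω = 0 := by
          rw [mul_sub, Tw.sub_apply, ← hω, ← Rigid.mul_swap hL, hc, sub_self]
        rw [← h1, Rigid.mul_apply', Rigid.mul_apply']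
        refine sum_congr rfl fun χ _ => ?_
        by_cases hχ : InA e χ
        · simp only [g, Tw.mk_apply]
          rw [Rigid.th_add hχ, if_pos hω]
        · rw [hb χ hχ]; simp
      · rw [Rigid.mul_apply']
        refine sum_eq_zero fun χ _ => ?_
        by_cases hχ : InA e χ
        · simp only [g, Tw.mk_apply]
          rw [Rigid.th_add hχ, if_neg hω]; simp
        · rw [hb χ hχ]; simp
    rcases mul_eq_zero.1 hg with h0 | h0
    · have := congrArg (fun a : Tw s => a ψ) h0
      simpa [g, hθ] using this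
    · exfalso
      have h1 : Rigid.sg s θ l = Rigid.sg s 0 l := by rw [Rigid.sg_zero]; exact sub_eq_zero.1 h0
      exact hψ (Rigid.th_eq_zero_iff.1
        (Rigid.sg_inj hl' (Rigid.th_inA ψ) (fun _ _ => rfl) h1))
  ext χ
  rw [Tw.zero_apply]
  by_cases hχ : InA e χ
  · have hu : Tw.u s χ ∈ Rigid.LL s e := fun ψ hψ => by
      rw [Tw.u_apply, if_neg]
      rintro rfl
      exact hψ hχ
    obtain ⟨c, hcu⟩ := Rigid.span_pow he hL hl' hu
    have h1 : Tw.tr s (f * Tw.u s χ) = 0 := by
      rw [hcu, mul_sum, map_sum]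
      refine sum_eq_zero fun j _ => ?_
      rw [mul_smul_comm, map_smul, ht j, smul_zero]
    rw [Tw.tr_apply, Tw.mul_u_apply, add_zero] at h1
    have hu0 : Tw.u s χ ≠ 0 := fun h => by
      simpa [Tw.u_apply] using congrArg (fun a : Tw s => a χ) h
    have hco : coc s χ χ ≠ 0 := fun h => by
      have := Tw.u_mul_u (s := s) χ χ
      rw [h, zero_smul] at this
      exact mul_ne_zero hu0 hu0 this
    exact (mul_eq_zero.1 h1).resolve_left hco
  · by_cases hP : InPerp e χ
    · exact hp χ hP hχ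
    · exact hperp χ hP

end Crest.Agent.R180
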