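import Crest.Agent.R180.Gram
import Crest.Agent.R180.Rigid

/-! # Row 180: the local lemma -/

set_option autoImplicit false

namespace Crest.Agent.R180

open Finset

namespace Local

open Classical in
/-- The linear constraints `f ↦ (b * f - f * b, (f ψ)_{ψ ∈ A^⊥ \ A}, (tr (f * b^j))_{j<d})`. -/
noncomputable def Lam {m : ℕ} (e : ℕ) {R : Type} [CommRing R] {s : Sg m → R} (b : Tw s) :
    Tw s →ₗ[R] (Hh m ⊕ Hh m ⊕ Fin (2 ^ e) → R) where
  toFun f := Sum.elim (fun ψ => (b * f - f * b) ψ)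
    (Sum.elim (fun ψ => if InPerp e ψ ∧ ¬ InA e ψ then f ψ else 0)
      (fun j => Tw.tr s (f * b ^ (j : ℕ))))
  map_add' f g := by
    funext r
    rcases r with ψ | ψ | j
    · simp only [Sum.elim_inl, Pi.add_apply, mul_add, add_mul, Tw.sub_apply, Tw.add_apply]; ring
    · simp only [Sum.elim_inr, Sum.elim_inl, Pi.add_apply, Tw.add_apply]
      split_ifs <;> simp
    · simp only [Sum.elim_inr, Pi.add_apply, add_mul, map_add]
  map_smul' r f := by
    funext x
    rcases x with ψ | ψ | j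
    · simp only [Sum.elim_inl, Pi.smul_apply, RingHom.id_apply, mul_smul_comm, smul_mul_assoc,
        Tw.sub_apply, Tw.smul_apply, smul_eq_mul]; ring
    · simp only [Sum.elim_inr, Sum.elim_inl, Pi.smul_apply, RingHom.id_apply, Tw.smul_apply,
        smul_eq_mul]
      split_ifs <;> simp
    · simp only [Sum.elim_inr, Pi.smul_apply, RingHom.id_apply, smul_mul_assoc, map_smul]

theorem Lam_eq_zero_iff {m : ℕ} (e : ℕ) {R : Type} [CommRing R] {s : Sg m → R} (b f : Tw s) :
    Lam e b f = 0 ↔ b * f = f * b ∧ (∀ ψ, InPerp e ψ → ¬ InA e ψ → f ψ = 0) ∧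
      ∀ j : Fin (2 ^ e), Tw.tr s (f * b ^ (j : ℕ)) = 0 := by
  constructor
  · intro h
    refine ⟨?_, fun ψ h1 h2 => ?_, fun j => ?_⟩
    · rw [← sub_eq_zero]
      ext ψ
      exact congrFun h (Sum.inl ψ)
    · have := congrFun h (Sum.inr (Sum.inl ψ))
      simpa [Lam, h1, h2] using this
    · exact congrFun h (Sum.inr (Sum.inr j))
  · rintro ⟨h1, h2, h3⟩
    funext r
    rcases r with ψ | ψ | j
    · simp [Lam, h1]
    · simp only [Lam, LinearMap.coe_mk, AddHom.coe_mk, Sum.elim_inr, Sum.elim_inl, Pi.zero_apply]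
      split_ifs with h
      · exact h2 ψ h.1 h.2
      · rfl
    · exact h3 j

theorem map_Lam {m : ℕ} (e : ℕ) {R R' : Type} [CommRing R] [CommRing R'] (π : R →+* R')
    {s : Sg m → R} {s' : Sg m → R'} (h : ∀ i, π (s i) = s' i) (b f : Tw s)
    (r : Hh m ⊕ Hh m ⊕ Fin (2 ^ e)) :
    π (Lam e b f r) = Lam e (Tw.map π h b) (Tw.map π h f) r := by
  rcases r with ψ | ψ | j
  · simp only [Lam, LinearMap.coe_mk, AddHom.coe_mk, Sum.elim_inl]
    rw [← map_mul, ← map_mul, ← map_sub, Tw.map_apply]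
  · simp only [Lam, LinearMap.coe_mk, AddHom.coe_mk, Sum.elim_inr, Sum.elim_inl, Tw.map_apply]
    split_ifs <;> simp
  · simp only [Lam, LinearMap.coe_mk, AddHom.coe_mk, Sum.elim_inr]
    rw [← map_pow, ← map_mul, Tw.tr_map]

end Local

open Local in
/-- `f = gramF tr b d` is killed by the `A`-linear map
`Λ_b : f ↦ (b * f - f * b, (f ψ)_{ψ ∈ A^⊥ \ A}, (tr (f * b^j))_{j<d})` with values in `ρ → A` for a finite type `ρ`
(`commute_gramF`, `tr_gramF_mul_pow`).  The vectors `Λ_b (u ψ)` map under `π` to `Λ_{π b} (u ψ)`, which are independent over `κ` by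
`rigid`; so they are independent over `A` (`linearIndependent_of_map`) and `f = 0`.  Also `π (gramD b) = gramD (π b) ≠ 0`
(`map_gramD`, `gramD_ne_zero`), which gives a nontrivial relation. -/
theorem local_lemma {m e : ℕ} (he : e ≤ m) {A κ : Type} [CommRing A] [IsDomain A] [Field κ]
    [CharZero κ] (π : A →+* κ) {s : Sg m → A} {s' : Sg m → κ} (h : ∀ i, π (s i) = s' i)
    [NoZeroDivisors (Tw s')] (b : Tw s) (hb : ∀ ψ, π (b ψ) ≠ 0 ↔ InA e ψ ∧ ψ ≠ 0)
    (hF : ∀ ψ, InPerp e ψ → ¬ InA e ψ → gramF (Tw.tr s) b (2 ^ e) ψ = 0) :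
    ¬ LinearIndependent A fun i : Fin (2 ^ e + 1) => b ^ (i : ℕ) := by
  obtain ⟨h1, ⟨c, h2⟩, h3⟩ := rigid he (Tw.map π h b) (fun ψ => by rw [Tw.map_apply]; exact hb ψ)
  -- independence over `κ`
  have hκ : LinearIndependent κ fun (ψ : Hh m) r => π (Lam e b (Tw.u s ψ) r) := by
    rw [Fintype.linearIndependent_iff]
    intro g hg
    have hz : Lam e (Tw.map π h b) (Tw.mk s' g) = 0 := by
      rw [← Tw.sum_smul_u (Tw.mk s' g), map_sum, ← hg]
      refine sum_congr rfl fun ψ _ => ?_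
      rw [map_smul, Tw.mk_apply]
      congr 1
      funext r
      rw [map_Lam e π h, Tw.map_u]
    rw [Lam_eq_zero_iff] at hz
    intro ψ
    exact congrArg (fun a : Tw s' => a ψ) (h3 _ hz.1 hz.2.1 hz.2.2)
  have hA := linearIndependent_of_map π (fun ψ : Hh m => Lam e b (Tw.u s ψ)) hκ
  have hf : gramF (Tw.tr s) b (2 ^ e) = 0 := by
    have hz : Lam e b (gramF (Tw.tr s) b (2 ^ e)) = 0 :=
      (Lam_eq_zero_iff e b _).2 ⟨commute_gramF _ _ _, hF, tr_gramF_mul_pow _ _ _⟩
    rw [← Tw.sum_smul_u (gramF (Tw.tr s) b (2 ^ e)), map_sum] at hz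
    simp only [map_smul] at hz
    ext ψ
    exact Fintype.linearIndependent_iff.1 hA _ hz ψ
  have hD : gramD (Tw.tr s) b (2 ^ e) ≠ 0 := by
    intro h0
    have := gramD_ne_zero (Tw.tr s') Tw.tr_one (Tw.map π h b) (2 ^ e) h1 c h2
    rw [map_gramD (Tw.tr s) (Tw.tr s') π (Tw.map π h) (Tw.tr_map π h), h0, map_zero] at this
    exact this rfl
  intro hli
  have := Fintype.linearIndependent_iff.1 hli
    (Fin.snoc (α := fun _ => A) (fun i => - gramC (Tw.tr s) b (2 ^ e) i)
      (gramD (Tw.tr s) b (2 ^ e))) ?_ (Fin.last _)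
  · rw [Fin.snoc_last] at this
    exact hD this
  · rw [Fin.sum_univ_castSucc]
    simp only [Fin.snoc_castSucc, Fin.snoc_last, Fin.val_castSucc, Fin.val_last, neg_smul,
      sum_neg_distrib]
    rw [← hf, gramF]
    abel

/-- Dependence of powers passes to any field (contrapositive of `linearIndependent_of_map`, via `Tw.coord`). -/
theorem not_linearIndependent_map {m : ℕ} {A F : Type} [CommRing A] [IsDomain A] [Field F]
    (π : A →+* F) {s : Sg m → A} {s' : Sg m → F} (h : ∀ i, π (s i) = s' i) (b : Tw s) (d : ℕ)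
    (hb : ¬ LinearIndependent A fun i : Fin d => b ^ (i : ℕ)) :
    ¬ LinearIndependent F fun i : Fin d => (Tw.map π h b) ^ (i : ℕ) := by
  intro hli
  apply hb
  have h1 : LinearIndependent F fun (i : Fin d) (r : Hh m) => π ((b ^ (i : ℕ)) r) := by
    have h0 := hli.map' (Tw.coord s').toLinearMap (Tw.coord s').ker
    have he : (fun (i : Fin d) (r : Hh m) => π ((b ^ (i : ℕ)) r)) =
        (Tw.coord s').toLinearMap ∘ fun i : Fin d => (Tw.map π h b) ^ (i : ℕ) := by
      funext i r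
      simp only [Function.comp, LinearEquiv.coe_coe, Tw.coord_apply]
      rw [← map_pow, Tw.map_apply]
    rw [he]
    exact h0
  have h2 := linearIndependent_of_map π (fun (i : Fin d) (r : Hh m) => (b ^ (i : ℕ)) r) h1
  exact LinearIndependent.of_comp (Tw.coord s).toLinearMap h2

end Crest.Agent.R180
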