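import Crest.Agent.R180.Div
import Crest.Agent.R180.Local
import Crest.Agent.R180.Homog
import Crest.Agent.R180.Large

/-! # Row 180: the finite level theorem -/

set_option autoImplicit false

namespace Crest.Agent.R180

open Finset MvPolynomial

theorem td_bot {V : Type} [Fintype V] : td (⊥ : Ideal (PP V)) = Fintype.card V := by
  unfold td
  rw [(AlgEquiv.quotientBot ℚ (PP V)).trdeg_eq, MvPolynomial.trdeg_of_isDomain]
  simp

/-- The fraction field of `P/p` with a domain `Tw` over it. -/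
theorem exists_frac {V σ : Type} [Fintype V] [DecidableEq V] [Fintype σ] [DecidableEq σ]
    {w : V → σ →₀ ℕ} (hw : ∀ v, w v ≠ 0) {m : ℕ} (s : Sg m → V) (hs : Function.Injective s)
    (hs' : ∀ i, ¬ Act ∅ (w (s i))) {p : Ideal (PP V)} (hp : Good w ∅ p) :
    ∃ (F : Type) (_ : Field F) (_ : CharZero F) (π : PP V →+* F), RingHom.ker π = p ∧
      (∀ c : F, ∃ a b : PP V, c = π a / π b) ∧ NoZeroDivisors (Tw fun i => π (X (s i))) := by
  have := hp.1
  have := div_of_good hw s hs hs' hp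
  let F := FractionRing (PP V ⧸ p)
  have hinj : Function.Injective (algebraMap (PP V ⧸ p) F) := IsFractionRing.injective _ _
  have : CharZero (PP V ⧸ p) := algebraRat.charZero _
  have hF : CharZero F := charZero_of_injective_algebraMap hinj
  refine ⟨F, inferInstance, hF, (algebraMap (PP V ⧸ p) F).comp (Ideal.Quotient.mk p), ?_, ?_, ?_⟩
  · rw [RingHom.ker_comp_of_injective _ hinj, Ideal.mk_ker]
  · intro c
    obtain ⟨a, b, -, rfl⟩ := IsFractionRing.div_surjective (PP V ⧸ p) c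
    obtain ⟨a, rfl⟩ := Ideal.Quotient.mk_surjective a
    obtain ⟨b, rfl⟩ := Ideal.Quotient.mk_surjective b
    exact ⟨a, b, rfl⟩
  · refine Tw.noZeroDivisors_frac (algebraMap (PP V ⧸ p) F) hinj ?_
      (s := fun i => Ideal.Quotient.mk p (X (s i) : PP V)) (fun i => rfl)
    intro c
    obtain ⟨a, b, hb, rfl⟩ := IsFractionRing.div_surjective (PP V ⧸ p) c
    have hb' : algebraMap (PP V ⧸ p) F b ≠ 0 :=
      (map_ne_zero_iff _ hinj).2 (nonZeroDivisors.ne_zero hb)
    exact ⟨a, b, hb', div_mul_cancel₀ _ hb'⟩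

/-- A derivation killing the images of the variables vanishes. -/
theorem derivation_eq_zero {V F : Type} [Field F] [CharZero F] (π : PP V →+* F)
    (hfr : ∀ c : F, ∃ a b : PP V, c = π a / π b) (D : Derivation ℚ F F)
    (h : ∀ v, D (π (X v)) = 0) : D = 0 := by
  have h1 : ∀ a : PP V, D (π a) = 0 := by
    intro a
    induction a using MvPolynomial.induction_on with
    | C r =>
      have : π (C r) = algebraMap ℚ F r := by
        rw [eq_ratCast (algebraMap ℚ F), ← eq_ratCast (π.comp C)]; rfl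
      rw [this, D.map_algebraMap]
    | add a b ha hb => rw [map_add, map_add, ha, hb, add_zero]
    | mul_X a v ha => rw [map_mul, D.leibniz, ha, h, smul_zero, smul_zero, add_zero]
  ext c
  obtain ⟨a, b, rfl⟩ := hfr c
  rw [D.leibniz_div, h1, h1]; simp

/-! ## The generic data -/

/-- The variables. -/
abbrev VV (m k : ℕ) := Option (Sg m) ⊕ ((Bool ⊕ Fin k) × {ψ : Hh m // ψ ≠ 0})

/-- The degree `(2, …, 2)`. -/
noncomputable def two (m : ℕ) : Sg m →₀ ℕ := Finsupp.equivFunOnFinite.symm fun _ => 2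

/-- Degrees of the generic elements. -/
def DD (a : ℕ → Tm) (k : ℕ) : Bool ⊕ Fin k → ℕ := Sum.elim (fun _ => 1) fun j => (a j).deg

theorem DD_pos (a : ℕ → Tm) (k : ℕ) (g : Bool ⊕ Fin k) : 0 < DD a k g := by
  rcases g with _ | j
  · exact one_pos
  · exact Tm.deg_pos _

/-- Weights of the variables. -/
noncomputable def ww (a : ℕ → Tm) (m k : ℕ) : VV m k → Sg m →₀ ℕ
  | .inl none => two m
  | .inl (some i) => Finsupp.single i 2
  | .inr (g, ψ) => Finsupp.equivFunOnFinite.symm fun i => 2 * DD a k g - (ψ.1 i).val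

/-- The squares of the generators. -/
def sv (m k : ℕ) (i : Sg m) : VV m k := .inl (some i)

/-- The generic elements. -/
noncomputable def gen (m k : ℕ) (g : Bool ⊕ Fin k) : Tw fun i => (X (sv m k i) : PP (VV m k)) :=
  Tw.mk _ fun ψ => if h : ψ ≠ 0 then X (.inr (g, ⟨ψ, h⟩)) else 0

variable {a : ℕ → Tm} {m k : ℕ}

theorem gen_zero (g : Bool ⊕ Fin k) : gen m k g 0 = 0 := by simp [gen]

theorem gen_apply (g : Bool ⊕ Fin k) {ψ : Hh m} (h : ψ ≠ 0) :
    gen m k g ψ = X (.inr (g, ⟨ψ, h⟩)) := by simp [gen, h]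

theorem sv_injective : Function.Injective (sv m k) := fun _ _ h => by simpa [sv] using h

theorem val_le_one (c : ZMod 2) : c.val ≤ 1 := Nat.lt_succ_iff.1 (ZMod.val_lt c)

theorem ww_ne_zero (hm : 0 < m) (v : VV m k) : ww a m k v ≠ 0 := by
  intro h
  rcases v with (_ | i) | ⟨g, ψ⟩
  · simpa [ww, two] using congrArg (fun f => f (⟨0, hm⟩, true)) h
  · simp [ww] at h
  · have h1 := congrArg (fun f => f (⟨0, hm⟩, true)) h
    have h2 := val_le_one (ψ.1 (⟨0, hm⟩, true))
    have h3 := DD_pos a k g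
    simp only [ww, Finsupp.equivFunOnFinite_symm_apply_apply, Finsupp.coe_zero,
      Pi.zero_apply] at h1
    omega

theorem not_act_inl (I : Finset (Sg m)) (o : Option (Sg m)) : ¬ Act I (ww a m k (.inl o)) := by
  rintro ⟨i, -, hi⟩
  rcases o with _ | j
  · simp [ww, two] at hi
    exact absurd hi (by decide)
  · simp only [ww, Finsupp.single_apply] at hi
    split_ifs at hi
    · exact absurd hi (by decide)
    · exact absurd hi (by decide)

theorem ww_add_hat (g : Bool ⊕ Fin k) (ψ : {ψ : Hh m // ψ ≠ 0}) :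
    ww a m k (.inr (g, ψ)) + hat ψ.1 = DD a k g • two m := by
  ext i
  have h2 := val_le_one (ψ.1 i)
  have h3 := DD_pos a k g
  simp only [ww, hat, two, Finsupp.coe_add, Pi.add_apply,
    Finsupp.equivFunOnFinite_symm_apply_apply, Finsupp.coe_smul, Pi.smul_apply, smul_eq_mul]
  omega

/-- Activity of a degree complementary to `hat ψ`. -/
theorem act_iff {I : Finset (Sg m)} {δ : Sg m →₀ ℕ} {ψ : Hh m} {n : ℕ}
    (h : δ + hat ψ = n • two m) : Act I δ ↔ ∃ i, i ∉ I ∧ ψ i ≠ 0 := by
  refine exists_congr fun i => and_congr_right fun _ => ?_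
  have h1 := congrArg (fun f => f i) h
  simp only [hat, two, Finsupp.coe_add, Pi.add_apply,
    Finsupp.equivFunOnFinite_symm_apply_apply, Finsupp.coe_smul, Pi.smul_apply,
    smul_eq_mul] at h1
  rw [Nat.odd_iff]
  rcases zmod2_cases (ψ i) with h2 | h2
  · rw [h2] at h1 ⊢
    simp only [ZMod.val_zero] at h1
    simp only [ne_eq, not_true, iff_false]; omega
  · rw [h2] at h1 ⊢
    rw [ZMod.val_one] at h1
    simp only [ne_eq, one_ne_zero, not_false_iff, iff_true]; omega

theorem hom_sv (i : Sg m) :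
    IsWeightedHomogeneous (ww a m k) (X (sv m k i) : PP (VV m k)) (Finsupp.single i 2) :=
  isWeightedHomogeneous_X ℚ (ww a m k) (sv m k i)

theorem hom_gen (g : Bool ⊕ Fin k) : IsHom (ww a m k) (DD a k g • two m) (gen m k g) := by
  refine isHom_of_comp fun ψ => ?_
  by_cases h : ψ = 0
  · left; rw [h, gen_zero]
  · right
    rw [gen_apply g h]
    exact ⟨_, isWeightedHomogeneous_X ℚ _ _, ww_add_hat g ⟨ψ, h⟩⟩

theorem card_VV : Fintype.card (VV m k) = 2 * m + 1 + (2 + k) * (4 ^ m - 1) := by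
  have : Fintype.card {ψ : Hh m // ψ ≠ 0} = 4 ^ m - 1 := by
    rw [Fintype.card_subtype_compl, card_Hh, Fintype.card_subtype_eq]
  rw [Fintype.card_sum, Fintype.card_prod, this]
  simp [mul_comm]

theorem II_mono {e e' : ℕ} (h : e ≤ e') : II m e ⊆ II m e' := by
  intro i hi
  simp only [II, mem_filter, mem_univ, true_and] at hi ⊢
  exact ⟨hi.1, hi.2.trans_le h⟩

/-- The powers of the generic element `b j` are dependent over every field over `p`. -/
def Alg (m k : ℕ) (p : Ideal (PP (VV m k))) (j : Fin k) : Prop :=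
  ∀ (F : Type) [Field F] (π : PP (VV m k) →+* F), p ≤ RingHom.ker π →
    ¬ LinearIndependent F fun i : Fin (2 ^ ((j : ℕ) + 2) + 1) =>
      (Tw.map π (s' := fun i => π (X (sv m k i))) (fun _ => rfl) (gen m k (.inr j))) ^ (i : ℕ)

theorem Alg.mono {p q : Ideal (PP (VV m k))} (h : p ≤ q) {j : Fin k} (hp : Alg m k p j) :
    Alg m k q j := fun F _ π hq => hp F π (h.trans hq)

/-- One step: making `b j` algebraic of degree `2^(j+2)`. -/
theorem level_step (hm : 0 < m) (j : Fin k) (hj : (j : ℕ) + 2 ≤ m) {p : Ideal (PP (VV m k))}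
    (hp : Good (ww a m k) (II m (j + 2)) p) :
    ∃ q n, Good (ww a m k) (II m (j + 2)) q ∧ p ≤ q ∧ td p ≤ td q + n ∧
      n * 2 ^ ((j : ℕ) + 2) ≤ 4 ^ m ∧ Alg m k q j := by
  classical
  have hw := ww_ne_zero (a := a) (k := k) hm
  set e := (j : ℕ) + 2 with he
  set b := gen m k (.inr j) with hb
  obtain ⟨n, hn⟩ := (hom_gen (a := a) (m := m) (.inr j)).gramF hom_sv (2 ^ e)
  rw [← mul_smul] at hn
  obtain ⟨q, hq, hpq, hφ, htd⟩ := hp.cut_family hw
    (univ.filter fun ψ : Hh m => InPerp e ψ ∧ ¬ InA e ψ)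
    (fun ψ => gramF (Tw.tr _) b (2 ^ e) ψ) (by
      intro ψ hψ
      rcases hn.comp ψ with h | ⟨δ, h1, h2⟩
      · exact Or.inl h
      · refine Or.inr ⟨δ, h1, (act_iff h2).2 ?_⟩
        have := (mem_filter.1 hψ).2.2
        unfold InA at this
        push Not at this
        exact this)
  refine ⟨q, _, hq, hpq, htd, ?_, ?_⟩
  · rw [← card_perp hj]
    refine Nat.mul_le_mul_right _ (card_le_card fun ψ hψ => ?_)
    simp only [mem_filter, mem_univ, true_and] at hψ ⊢
    exact hψ.1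
  · have hle := hq.le_vI hw
    set S := univ.filter fun v => Act (II m e) (ww a m k v) with hS
    have hS' : {v | Act (II m e) (ww a m k v)} = (S : Set (VV m k)) := by ext v; simp [hS]
    rw [hS'] at hle
    have hgood : Good (ww a m k) ∅ (vI (S : Set (VV m k))) :=
      (good_vI hw (II m e) S fun v hv => (mem_filter.1 hv).2).mono (empty_subset _)
    obtain ⟨κ, _, _, π, hker, -, hdom⟩ := exists_frac hw (sv m k) sv_injective
      (fun i => not_act_inl _ _) hgood
    have := hq.1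
    let π' : PP (VV m k) ⧸ q →+* κ := Ideal.Quotient.lift q π fun r hr => by
      rw [← RingHom.mem_ker, hker]; exact hle hr
    let Φ := Tw.map (Ideal.Quotient.mk q) (s := fun i => (X (sv m k i) : PP (VV m k)))
      (s' := fun i => Ideal.Quotient.mk q (X (sv m k i))) (fun _ => rfl)
    have hloc := local_lemma hj π' (s := fun i => Ideal.Quotient.mk q (X (sv m k i)))
      (s' := fun i => π (X (sv m k i))) (fun _ => rfl) (Φ b) (by
        intro ψ
        change π (b ψ) ≠ 0 ↔ _
        by_cases h : ψ = 0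
        · simp [h, hb, gen_zero]
        · rw [hb, gen_apply _ h, Ne, ← RingHom.mem_ker, hker, X_mem_vI, ← hS', Set.mem_ofPred_eq,
            act_iff (ww_add_hat _ _)]
          simp [InA, h]) (by
        intro ψ h1 h2
        rw [map_gramF (Tw.tr _) (Tw.tr _) (Ideal.Quotient.mk q) Φ (Tw.tr_map _ _)
          (Tw.map_smul _ _)]
        exact Ideal.Quotient.eq_zero_iff_mem.2 (hφ ψ (by simp [h1, h2])))
    intro F _ ρ hρ
    let ρ' : PP (VV m k) ⧸ q →+* F := Ideal.Quotient.lift q ρ fun r hr => hρ hr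
    exact not_linearIndependent_map ρ' (s := fun i => Ideal.Quotient.mk q (X (sv m k i)))
      (s' := fun i => ρ (X (sv m k i))) (fun _ => rfl) (Φ b) _ hloc

theorem level_ind (hm : k + 1 ≤ m) (i : ℕ) (hi : i ≤ k) :
    ∃ p c, Good (ww a m k) (II m (k - i + 1)) p ∧ Fintype.card (VV m k) ≤ td p + c ∧
      c * 2 ^ (k - i + 1) ≤ 4 ^ m ∧ ∀ j : Fin k, k - i ≤ j → Alg m k p j := by
  have hm0 : 0 < m := by omega
  induction i with
  | zero =>
    exact ⟨⊥, 0, good_bot (ww_ne_zero hm0) _, by rw [td_bot, add_zero], by simp,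
      fun j hj => absurd j.2 (by omega)⟩
  | succ i ih =>
    obtain ⟨p, c, hp, htd, hc, hA⟩ := ih (by omega)
    have h1 : k - i + 1 = k - (i + 1) + 2 := by omega
    rw [h1] at hp hc
    obtain ⟨q, n, hq, hpq, htd', hn, hA'⟩ :=
      level_step hm0 (⟨k - (i + 1), by omega⟩ : Fin k) (by simp only; omega) hp
    refine ⟨q, c + n, hq.mono (II_mono (by simp)), by omega, ?_, fun j hj => ?_⟩
    · simp only at hn
      rw [pow_succ 2 (k - (i + 1) + 1)] at hc hn
      nlinarith
    · by_cases h : (j : ℕ) = k - (i + 1)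
      · have : j = ⟨k - (i + 1), by omega⟩ := Fin.ext h
        rw [this]; exact hA'
      · exact (hA j (by omega)).mono hpq

theorem numeric (k : ℕ) : 2 * k ^ 3 + 4 * k + 4 < 4 ^ (2 * k + 2) := by
  have h1 : k + 1 ≤ 2 ^ k := Nat.lt_two_pow_self
  have h2 : 4 ^ (2 * k + 2) = 16 * (2 ^ k) ^ 4 := by
    rw [← pow_mul, show (4 : ℕ) = 2 ^ 2 from rfl, ← pow_mul]; ring
  have h3 : (k + 1) ^ 4 ≤ (2 ^ k) ^ 4 := Nat.pow_le_pow_left h1 4
  rw [h2]
  nlinarith [Nat.zero_le (k ^ 4), Nat.zero_le (k ^ 3), Nat.zero_le (k ^ 2)]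

theorem exists_level (a : ℕ → Tm) (k : ℕ) : ∃ L : Lvl,
    (∀ j < k, ¬ LinearIndependent L.F
      fun i : Fin (2 ^ (j + 2) + 1) => (Tm.ev L.τ L.x L.y (a j)) ^ (i : ℕ)) ∧
    k < Module.finrank L.F (Algebra.adjoin L.F ({L.x, L.y} : Set L.D)) := by
  classical
  obtain ⟨m, hm⟩ : ∃ m, m = 2 * k + 2 := ⟨_, rfl⟩
  have hm0 : 0 < m := by omega
  have hw := ww_ne_zero (a := a) (k := k) hm0
  obtain ⟨p, c, hp, htd, hc, hA⟩ := level_ind (a := a) (m := m) (k := k) (by omega) k le_rfl
  replace hp := hp.mono (empty_subset _)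
  simp only [Nat.sub_self, zero_add, pow_one, zero_le, forall_const] at hc hA
  set x := gen m k (.inl false) with hx
  set y := gen m k (.inl true) with hy
  set z : PP (VV m k) := X (.inl none) with hz
  have hhom : ∀ j : Fin k, IsHom (ww a m k) ((a j).deg • two m)
      (gen m k (.inr j) - Tm.hev (Tw.tr _) z x y (a j)) := fun j =>
    (hom_gen (.inr j)).sub (IsHom.hev hom_sv (isWeightedHomogeneous_X ℚ (ww a m k) (.inl none))
      (by simpa [DD, ww] using hom_gen (a := a) (m := m) (k := k) (.inl false))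
      (by simpa [DD, ww] using hom_gen (a := a) (m := m) (k := k) (.inl true)) (a j))
  obtain ⟨q, hq, hpq, hφ, htd'⟩ := hp.cut_family hw
    (univ : Finset (Fin k × {ψ : Hh m // ψ ≠ 0}))
    (fun t => (gen m k (.inr t.1) - Tm.hev (Tw.tr _) z x y (a t.1)) t.2.1) (by
      rintro ⟨j, ψ, hψ⟩ -
      rcases (hhom j).comp ψ with h | ⟨δ, h1, h2⟩
      · exact Or.inl h
      · refine Or.inr ⟨δ, h1, (act_iff h2).2 ?_⟩
        obtain ⟨i, hi⟩ := Function.ne_iff.1 hψ
        exact ⟨i, notMem_empty _, hi⟩)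
  obtain ⟨F, _, _, π, hker, hfr, hdom⟩ := exists_frac hw (sv m k) sv_injective
    (fun i => not_act_inl _ _) hq
  have hz0 : π z ≠ 0 := by
    intro h
    rw [← RingHom.mem_ker, hker] at h
    have h' : (X (.inl none) : PP (VV m k)) ∈ vI {v | Act ∅ (ww a m k v)} := hq.le_vI hw h
    rw [X_mem_vI] at h'
    exact not_act_inl _ _ h'
  let Φ := Tw.map π (s := fun i => (X (sv m k i) : PP (VV m k)))
    (s' := fun i => π (X (sv m k i))) (fun _ => rfl)
  set x' := (π z)⁻¹ • Φ x with hx'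
  set y' := (π z)⁻¹ • Φ y with hy'
  have hxx : Φ x = π z • x' := by rw [hx', smul_inv_smul₀ hz0]
  have hyy : Φ y = π z • y' := by rw [hy', smul_inv_smul₀ hz0]
  have key : ∀ (j : Fin k) (ψ : Hh m), ψ ≠ 0 →
      Φ (gen m k (.inr j)) ψ = Tm.hev (Tw.tr _) (π z) (Φ x) (Φ y) (a j) ψ := by
    intro j ψ hψ
    rw [map_hev (Tw.tr _) (Tw.tr _) π Φ (Tw.tr_map _ _) (Tw.map_smul _ _), ← sub_eq_zero]
    have := hφ (j, ⟨ψ, hψ⟩) (mem_univ _)
    rw [← hker, RingHom.mem_ker, Tw.sub_apply, map_sub] at this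
    exact this
  refine ⟨⟨F, Tw fun i => π (X (sv m k i)), Tw.tr _, x', y', Tw.tr_one,
    fun _ h => Tw.isUnit_of_ne_zero h⟩, fun j hj => ?_, ?_⟩
  · have h1 := hA ⟨j, hj⟩ F π (hker ▸ hpq)
    have h2 := not_linearIndependent_pow_affine _ _ ((π z) ^ (a j).deg)⁻¹
      (Tm.ev (Tw.tr _) x' y' (a j) 0) h1
    have h3 : ((π z) ^ (a j).deg)⁻¹ • Φ (gen m k (.inr ⟨j, hj⟩)) +
        algebraMap F _ (Tm.ev (Tw.tr _) x' y' (a j) 0) = Tm.ev (Tw.tr _) x' y' (a j) := by
      ext ψ
      rw [Tw.add_apply, Tw.algebraMap_apply, Tw.smul_apply]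
      by_cases hψ : ψ = 0
      · simp [hψ, gen_zero, Φ]
      · rw [if_neg hψ, add_zero]
        have := key ⟨j, hj⟩ ψ hψ
        rw [hxx, hyy, hev_eq_smul_ev, Tw.smul_apply] at this
        rw [this, inv_mul_cancel_left₀ (pow_ne_zero _ hz0)]
    rw [h3] at h2
    exact h2
  · by_contra hk
    have hl := large (π z) x' y' (td q) (hker ▸ td_le_trdeg π) (by
      intro D hs hDz hDx hDy
      have hsm : ∀ u : Tw fun i => π (X (sv m k i)), dT D u = 0 → dT D (π z • u) = 0 := by
        intro u hu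
        ext ψ
        have := congrArg (fun f : Tw fun i => π (X (sv m k i)) => f ψ) hu
        simp only [dT, Tw.mk_apply, Tw.zero_apply] at this
        simp [dT, hDz, this]
      have hDx' : dT D (Φ x) = 0 := hxx ▸ hsm _ hDx
      have hDy' : dT D (Φ y) = 0 := hyy ▸ hsm _ hDy
      refine derivation_eq_zero π hfr D ?_
      rintro ((_ | i) | ⟨(_ | _) | j, ψ, hψ⟩)
      · exact hDz
      · exact hs i
      · rw [← gen_apply]
        exact congrArg (fun f : Tw fun i => π (X (sv m k i)) => f ψ) hDx'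
      · rw [← gen_apply]
        exact congrArg (fun f : Tw fun i => π (X (sv m k i)) => f ψ) hDy'
      · rw [← gen_apply]
        change D (Φ (gen m k (.inr j)) ψ) = 0
        rw [key j ψ hψ]
        exact congrArg (fun f : Tw fun i => π (X (sv m k i)) => f ψ)
          (dT_hev D hs hDz hDx' hDy' (a j))) k (not_lt.1 hk)
    have hcard : (univ : Finset (Fin k × {ψ : Hh m // ψ ≠ 0})).card = k * (4 ^ m - 1) := by
      rw [card_univ, Fintype.card_prod, Fintype.card_subtype_compl, card_Hh,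
        Fintype.card_subtype_eq, Fintype.card_fin]
    rw [hcard] at htd'
    rw [card_VV, add_mul] at htd
    have := numeric k
    rw [← hm] at this
    omega

end Crest.Agent.R180
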