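import Crest.Agent.R180.Defs

/-! # Row 180: transcendence degree of primes -/

set_option autoImplicit false
set_option linter.unusedSectionVars false
set_option linter.unusedVariables false

namespace Crest.Agent.R180

open Finset MvPolynomial

variable {V : Type} [Fintype V] [DecidableEq V]

namespace Td

open Classical in
/-- kill the variables in `S` -/
noncomputable def kill (S : Set V) : PP V →ₐ[ℚ] PP V :=
  aeval fun v => if v ∈ S then 0 else X v

omit [Fintype V] [DecidableEq V] in
theorem sub_kill_mem (S : Set V) (f : PP V) : f - kill S f ∈ vI S := by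
  rw [← Ideal.Quotient.eq]
  have : (Ideal.Quotient.mkₐ ℚ (vI S)) = (Ideal.Quotient.mkₐ ℚ (vI S)).comp (kill S) := by
    ext v
    simp only [kill, AlgHom.comp_apply, aeval_X, Ideal.Quotient.mkₐ_eq_mk]
    split_ifs with h
    · rw [map_zero, Ideal.Quotient.eq_zero_iff_mem]
      exact Ideal.subset_span ⟨v, h, rfl⟩
    · rfl
  exact DFunLike.congr_fun this f

omit [Fintype V] [DecidableEq V] in
theorem mem_vI_iff {S : Set V} {f : PP V} : f ∈ vI S ↔ kill S f = 0 := by
  constructor
  · intro hf
    have : vI S ≤ RingHom.ker (kill S) := by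
      rw [vI, Ideal.span_le]
      rintro _ ⟨v, hv, rfl⟩
      simp [kill, hv]
    exact this hf
  · intro hf
    have := sub_kill_mem S f
    rwa [hf, sub_zero] at this

theorem trdeg_succ_le {K A B : Type} [Field K] [CommRing A] [IsDomain A] [CommRing B] [IsDomain B]
    [Algebra K A] [Algebra K B] (φ : A →ₐ[K] B) (hφ : Function.Surjective φ) {g : A}
    (hg : g ≠ 0) (hg0 : φ g = 0) : Algebra.trdeg K B + 1 ≤ Algebra.trdeg K A := by
  obtain ⟨s, hs⟩ := exists_isTranscendenceBasis K B
  let x : s → A := fun i => Function.surjInv hφ i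
  have hx : φ ∘ x = ((↑) : s → B) := funext fun i => Function.surjInv_eq hφ _
  have hxi : AlgebraicIndependent K x := .of_comp φ (by rw [hx]; exact hs.1)
  have ht : Transcendental (Algebra.adjoin K (Set.range x)) g := by
    intro ha
    obtain ⟨⟨r, hr⟩, hr0, c, hc⟩ := ha.exists_nonzero_dvd (mem_nonZeroDivisors_of_ne_zero hg)
    have hr' := hr
    rw [Algebra.adjoin_range_eq_range_aeval] at hr'
    obtain ⟨P, rfl⟩ := hr'
    have h1 : φ (aeval x P) = 0 := by
      have hc' : aeval x P = g * c := hc
      rw [hc', map_mul, hg0, zero_mul]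
    have h2 : aeval ((↑) : s → B) P = 0 := by
      rw [← hx, ← h1]
      exact (comp_aeval_apply x φ P).symm
    have h3 : P = 0 := hs.1.eq_zero_of_aeval_eq_zero P h2
    apply hr0
    subst h3
    exact Subtype.ext (map_zero _)
  have h4 := ((hxi.option_iff_transcendental g).2 ht).lift_cardinalMk_le_trdeg
  rw [Cardinal.mk_option, Cardinal.lift_id, Cardinal.lift_id, hs.cardinalMk_eq_trdeg] at h4
  exact h4

omit [DecidableEq V] in
theorem trdeg_le_card (p : Ideal (PP V)) :
    Algebra.trdeg ℚ (PP V ⧸ p) ≤ Fintype.card V := by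
  have h := trdeg_le_of_surjective (Ideal.Quotient.mkₐ ℚ p) (Ideal.Quotient.mkₐ_surjective ℚ p)
  rwa [MvPolynomial.trdeg_of_isDomain, Cardinal.lift_id, Cardinal.mk_fintype] at h

omit [DecidableEq V] in
theorem cast_td (p : Ideal (PP V)) : (td p : Cardinal) = Algebra.trdeg ℚ (PP V ⧸ p) :=
  Cardinal.cast_toNat_of_lt_aleph0 ((trdeg_le_card p).trans_lt (Cardinal.natCast_lt_aleph0))

end Td

/-- `vI S` is the kernel of `aeval (fun v => if v ∈ S then 0 else X v)` (`mem_ideal_span_X_image`). -/
theorem vI_isPrime (S : Set V) : (vI S).IsPrime := by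
  have : vI S = RingHom.ker (Td.kill S) := by
    ext f
    exact Td.mem_vI_iff
  rw [this]
  exact RingHom.ker_isPrime _

theorem X_mem_vI {S : Set V} {v : V} : (X v : PP V) ∈ vI S ↔ v ∈ S := by
  rw [Td.mem_vI_iff, Td.kill, aeval_X]
  by_cases h : v ∈ S <;> simp [h]

theorem vI_univ_isMaximal : (vI (Set.univ : Set V)).IsMaximal := by
  have : vI (Set.univ : Set V) = RingHom.ker (constantCoeff : PP V →+* ℚ) := by
    ext f
    rw [Td.mem_vI_iff, RingHom.mem_ker, Td.kill]
    simp only [Set.mem_univ, if_true]
    rw [aeval_zero']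
    simp
  rw [this]
  exact RingHom.ker_isMaximal_of_surjective _ fun a => ⟨C a, by simp⟩

theorem vI_insert (S : Set V) (v : V) : vI (insert v S) = vI S ⊔ Ideal.span {X v} := by
  rw [vI, vI, Set.image_insert_eq, Ideal.span_insert, sup_comm]

theorem vI_empty : vI (∅ : Set V) = ⊥ := by
  simp [vI]

/-- Lift a transcendence basis `f_i` of `P/q` to `P/p` and add the class of some `g ∈ q \ p`: in a relation
`∑ c_i(f) g^i = 0` the constant term lies in `q`, so `c_0 = 0`; divide by `g` and repeat.  All transcendence degrees are finite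
(`trdeg_lt_aleph0_of_finiteType`). -/
theorem td_lt {p q : Ideal (PP V)} (hp : p.IsPrime) (hq : q.IsPrime) (h : p < q) :
    td q < td p := by
  obtain ⟨g, hgq, hgp⟩ := SetLike.exists_of_lt h
  have h1 := Td.trdeg_succ_le (Ideal.Quotient.factorₐ ℚ h.le)
    (Ideal.Quotient.factor_surjective h.le) (g := Ideal.Quotient.mk p g)
    (by rwa [Ne, Ideal.Quotient.eq_zero_iff_mem])
    (by
      change Ideal.Quotient.mk q g = 0
      rwa [Ideal.Quotient.eq_zero_iff_mem])
  rw [← Td.cast_td, ← Td.cast_td] at h1
  exact_mod_cast h1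

theorem td_le {p : Ideal (PP V)} (hp : p.IsPrime) : td p ≤ Fintype.card V := by
  have h := Td.trdeg_le_card p
  rw [← Td.cast_td] at h
  exact_mod_cast h

/-- Induction on `S` with `td_lt`, `td_le`. -/
theorem td_vI_le (S : Finset V) : td (vI (S : Set V)) + S.card ≤ Fintype.card V := by
  induction S using Finset.induction_on with
  | empty => simpa using td_le (vI_isPrime _)
  | insert v S hv ih =>
    have h : vI (S : Set V) < vI ((insert v S : Finset V) : Set V) := by
      refine lt_of_le_of_ne (Ideal.span_mono (Set.image_mono (by simp))) fun h => hv ?_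
      have : (X v : PP V) ∈ vI ((insert v S : Finset V) : Set V) := X_mem_vI.2 (by simp)
      rw [← h, X_mem_vI] at this
      exact_mod_cast this
    have := td_lt (vI_isPrime _) (vI_isPrime _) h
    rw [Finset.card_insert_of_notMem hv]
    omega

theorem td_le_trdeg {F : Type} [Field F] [CharZero F] (π : PP V →+* F) :
    (td (RingHom.ker π) : Cardinal) ≤ Algebra.trdeg ℚ F := by
  rw [Td.cast_td]
  exact trdeg_le_of_injective (RingHom.kerLift π).toRatAlgHom (RingHom.kerLift_injective π)

end Crest.Agent.R180
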