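import Crest.Agent.R180.Hilb
import Crest.Agent.R180.Td

/-! # Row 180: K-polynomials and their order of vanishing -/

set_option autoImplicit false
set_option linter.unusedSectionVars false

namespace Crest.Agent.R180

open Finset MvPolynomial

variable {V σ : Type} [Fintype V] [DecidableEq V] [Fintype σ] [DecidableEq σ] {w : V → σ →₀ ℕ}

namespace Master

omit [Fintype σ] [DecidableEq σ] in
theorem coe_one_sub (δ : σ →₀ ℕ) :
    ((1 - monomial δ 1 : MvPolynomial σ ℤ) : MvPowerSeries σ ℤ) =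
      1 - MvPowerSeries.monomial δ (1 : ℤ) := by
  have := map_sub (coeToMvPowerSeries.ringHom (σ := σ) (R := ℤ)) 1 (monomial δ 1)
  simpa only [coeToMvPowerSeries.ringHom_apply, MvPolynomial.coe_one, coe_monomial] using this

omit [Fintype V] [DecidableEq V] [Fintype σ] [DecidableEq σ] in
theorem coe_prod_one_sub (T : Finset V) :
    ((∏ v ∈ T, (1 - monomial (w v) 1) : MvPolynomial σ ℤ) : MvPowerSeries σ ℤ) =
      ∏ v ∈ T, (1 - MvPowerSeries.monomial (w v) (1 : ℤ)) := by
  have := map_prod (coeToMvPowerSeries.ringHom (σ := σ) (R := ℤ))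
    (fun v => 1 - monomial (w v) 1) T
  simpa only [coeToMvPowerSeries.ringHom_apply, coe_one_sub] using this

omit [Fintype V] [DecidableEq V] in
theorem mem_colon {J : Ideal (PP V)} {φ a : PP V} : a ∈ J.colon {φ} ↔ a * φ ∈ J := by
  rw [Submodule.mem_colon_singleton, smul_eq_mul]

omit [Fintype V] [DecidableEq V] in
theorem colon_prime {p : Ideal (PP V)} {φ : PP V} (hp : p.IsPrime) (hφp : φ ∉ p) :
    p.colon {φ} = p := by
  ext a
  rw [mem_colon]
  exact ⟨fun h => (hp.mem_or_mem h).resolve_right hφp, fun h => p.mul_mem_right _ h⟩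

theorem HS_sup_span (hw : ∀ v, w v ≠ 0) {p : Ideal (PP V)} {φ : PP V}
    {δ : σ →₀ ℕ} (hp : p.IsPrime) (hJ : IsHomI w p) (hφ : IsWeightedHomogeneous w φ δ)
    (hφp : φ ∉ p) :
    HS w (p ⊔ Ideal.span {φ}) = (1 - MvPowerSeries.monomial δ (1 : ℤ)) * HS w p := by
  have := HS_colon hw hJ hφ
  rw [colon_prime hp hφp] at this
  linear_combination -this

end Master

open Master

theorem IsK.unique {V' : Finset V} {J : Ideal (PP V)} {K K' : MvPolynomial σ ℤ}
    (h : IsK w V' J K) (h' : IsK w V' J K') : K = K' :=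
  MvPolynomial.coe_injective σ ℤ (Eq.trans h h'.symm)

/-- From `HS_colon`. -/
theorem IsK.colon (hw : ∀ v, w v ≠ 0) {V' : Finset V} {J : Ideal (PP V)} {φ : PP V} {δ : σ →₀ ℕ}
    (hJ : IsHomI w J) (hφ : IsWeightedHomogeneous w φ δ) {K₁ K₂ : MvPolynomial σ ℤ}
    (h₁ : IsK w V' (J.colon {φ}) K₁) (h₂ : IsK w V' (J ⊔ Ideal.span {φ}) K₂) :
    IsK w V' J (monomial δ 1 * K₁ + K₂) := by
  unfold IsK at *
  rw [MvPolynomial.coe_add, MvPolynomial.coe_mul, coe_monomial, h₁, h₂, HS_colon hw hJ hφ]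
  ring

/-- For a prime `p` and `φ ∉ p` one has `p.colon {φ} = p`. -/
theorem IsK.sup_span (hw : ∀ v, w v ≠ 0) {V' : Finset V} {p : Ideal (PP V)} {φ : PP V}
    {δ : σ →₀ ℕ} (hp : p.IsPrime) (hJ : IsHomI w p) (hφ : IsWeightedHomogeneous w φ δ)
    (hφp : φ ∉ p) {K : MvPolynomial σ ℤ} (h : IsK w V' p K) :
    IsK w V' (p ⊔ Ideal.span {φ}) ((1 - monomial δ 1) * K) := by
  unfold IsK at *
  rw [MvPolynomial.coe_mul, coe_one_sub, h, HS_sup_span hw hp hJ hφ hφp, mul_assoc]

theorem IsK.extend {V' V'' : Finset V} (hV : V' ⊆ V'') {J : Ideal (PP V)} {K : MvPolynomial σ ℤ}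
    (h : IsK w V' J K) : IsK w V'' J ((∏ v ∈ V'' \ V', (1 - monomial (w v) 1)) * K) := by
  unfold IsK at *
  rw [MvPolynomial.coe_mul, coe_prod_one_sub, h, ← Finset.prod_sdiff hV]
  ring

/-- Noetherian induction on `J` (for all `V'`).  `J = ⊤`: `K = 0`.  `J` not prime: `IsHomI.exists_mul_mem`, both
`J.colon {φ}` and `J ⊔ span {φ}` are larger, `IsK.colon`.  `J` prime with `X v ∉ J` (so `v ∈ V'`):
`HS J * (1 - [w v]) = HS (J ⊔ span {X v})`, so the `K` of `(V'.erase v, J ⊔ span {X v})` works, and primes over the larger ideal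
have smaller `td` (`td_lt`): `c + td q ≤ c + td J - 1 ≤ |V'| - 1`.  `J` prime containing all variables: `J = vI univ`, `HS J = 1`,
`K = ∏_{v ∈ V'} (1 - monomial (w v) 1)` and `c ≤ |V'|`. -/
theorem exists_K (hw : ∀ v, w v ≠ 0) (V' : Finset V) (J : Ideal (PP V)) (hJ : IsHomI w J)
    (hV : ∀ v, v ∉ V' → (X v : PP V) ∈ J) :
    ∃ K, IsK w V' J K ∧ ∀ (A : Type) [CommRing A] (E : MvPolynomial σ ℤ →+* A) (η : A),
      (∀ v ∈ V', η ∣ 1 - E (monomial (w v) 1)) → ∀ c : ℕ,
      (∀ q : Ideal (PP V), q.IsPrime → IsHomI w q → J ≤ q → c + td q ≤ V'.card) →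
      η ^ c ∣ E K := by
  induction J using WellFoundedGT.induction generalizing V' with
  | ind J ih =>
  by_cases htop : J = ⊤
  · refine ⟨0, ?_, fun A _ E η _ c _ => by simp⟩
    unfold IsK
    rw [htop, HS_top, zero_mul, MvPolynomial.coe_zero]
  by_cases hp : J.IsPrime
  swap
  · obtain ⟨φ, ψ, δ, δ', hφ, hψ, hφJ, hψJ, hmul⟩ := hJ.exists_mul_mem htop hp
    have hle1 : J ≤ J.colon {φ} := fun a ha => mem_colon.2 (J.mul_mem_right _ ha)
    have hlt1 : J < J.colon {φ} :=
      lt_of_le_of_ne hle1 fun h => hψJ (h ▸ mem_colon.2 (mul_comm φ ψ ▸ hmul))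
    have hlt2 : J < J ⊔ Ideal.span {φ} := lt_of_le_of_ne le_sup_left fun h =>
      hφJ (h ▸ Ideal.mem_sup_right (Ideal.mem_span_singleton_self φ))
    obtain ⟨K₁, h₁, h₁'⟩ := ih _ hlt1 V' (hJ.colon hφ) fun v hv => hlt1.le (hV v hv)
    obtain ⟨K₂, h₂, h₂'⟩ := ih _ hlt2 V' (hJ.sup_span hφ) fun v hv => hlt2.le (hV v hv)
    refine ⟨_, IsK.colon hw hJ hφ h₁ h₂, fun A _ E η hη c hc => ?_⟩
    rw [map_add, map_mul]
    exact dvd_add
      (Dvd.dvd.mul_left (h₁' A E η hη c fun q hq hq' hle => hc q hq hq' (hlt1.le.trans hle)) _)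
      (h₂' A E η hη c fun q hq hq' hle => hc q hq hq' (hlt2.le.trans hle))
  by_cases hall : ∀ v, (X v : PP V) ∈ J
  · have hle : vI (Set.univ : Set V) ≤ J := by
      rw [vI, Ideal.span_le]
      rintro _ ⟨v, -, rfl⟩
      exact hall v
    have hJ' : vI (Set.univ : Set V) = J := vI_univ_isMaximal.eq_of_le htop hle
    refine ⟨∏ v ∈ V', (1 - monomial (w v) 1), ?_, fun A _ E η hη c hc => ?_⟩
    · unfold IsK
      rw [← hJ', HS_vI_univ hw, one_mul, coe_prod_one_sub]
    · have hc' : c ≤ V'.card := le_trans (Nat.le_add_right _ _) (hc J hp hJ le_rfl)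
      refine (pow_dvd_pow η hc').trans ?_
      rw [map_prod, ← Finset.prod_const]
      refine Finset.prod_dvd_prod_of_dvd _ _ fun v hv => ?_
      rw [map_sub, map_one]
      exact hη v hv
  · push Not at hall
    obtain ⟨v, hv⟩ := hall
    have hvV : v ∈ V' := by
      by_contra h
      exact hv (hV v h)
    have hX : IsWeightedHomogeneous w (X v : PP V) (w v) := isWeightedHomogeneous_X ℚ w v
    have hmem : (X v : PP V) ∈ J ⊔ Ideal.span {X v} :=
      Ideal.mem_sup_right (Ideal.mem_span_singleton_self _)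
    have hlt : J < J ⊔ Ideal.span {X v} := lt_of_le_of_ne le_sup_left fun h => hv (h ▸ hmem)
    obtain ⟨K, hK, hK'⟩ := ih _ hlt (V'.erase v) (hJ.sup_span hX) fun u hu => by
      by_cases huv : u = v
      · rw [huv]; exact hmem
      · exact hlt.le (hV u fun h => hu (Finset.mem_erase.2 ⟨huv, h⟩))
    refine ⟨K, ?_, fun A _ E η hη c hc => ?_⟩
    · unfold IsK at *
      rw [hK, HS_sup_span hw hp hJ hX hv, ← Finset.mul_prod_erase _ _ hvV]
      ring
    · refine hK' A E η (fun u hu => hη u (Finset.mem_of_mem_erase hu)) c fun q hq _ hle => ?_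
      have h1 := td_lt hp hq (hlt.trans_le hle)
      have h2 := hc J hp hJ le_rfl
      rw [Finset.card_erase_of_mem hvV]
      omega

/-- `HS (vI S) * ∏_{v ∉ S} (1 - [w v]) = 1` by downward induction on `S` from `HS_vI_univ`. -/
theorem isK_vI (hw : ∀ v, w v ≠ 0) (S : Finset V) :
    IsK w univ (vI (S : Set V)) (∏ v ∈ S, (1 - monomial (w v) 1)) := by
  have key : ∀ T : Finset V, IsK w T (vI (T : Set V)ᶜ) 1 := by
    intro T
    induction T using Finset.induction_on with
    | empty =>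
      unfold IsK
      rw [Finset.coe_empty, Set.compl_empty, HS_vI_univ hw, Finset.prod_empty, one_mul,
        MvPolynomial.coe_one]
    | insert a T ha ih =>
      have h1 : ((T : Set V)ᶜ) = insert a (((insert a T : Finset V) : Set V)ᶜ) := by
        ext x
        by_cases hx : x = a <;> simp [hx, ha]
      unfold IsK at *
      rw [h1, vI_insert, HS_sup_span hw (vI_isPrime _) (isHomI_vI _)
        (isWeightedHomogeneous_X ℚ w a) (by rw [X_mem_vI]; simp)] at ih
      rw [ih, Finset.prod_insert ha]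
      ring
  have := (key Sᶜ).extend (Finset.subset_univ _)
  rw [mul_one, Finset.coe_compl, compl_compl, ← Finset.compl_eq_univ_sdiff, compl_compl] at this
  exact this

namespace Master

theorem EI_coeffs (I : Finset σ) (γ : σ →₀ ℕ) : (EI I (monomial γ 1)).coeff 0 = 1 ∧
    (EI I (monomial γ 1)).coeff 1 = ∑ i, if i ∈ I then 0 else C (γ i : ZMod 2) * X i := by
  have hadd : ∀ γ γ' : σ →₀ ℕ, ((EI I (monomial γ 1)).coeff 0 = 1 ∧
      (EI I (monomial γ 1)).coeff 1 = ∑ i, if i ∈ I then 0 else C (γ i : ZMod 2) * X i) →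
      ((EI I (monomial γ' 1)).coeff 0 = 1 ∧
      (EI I (monomial γ' 1)).coeff 1 = ∑ i, if i ∈ I then 0 else C (γ' i : ZMod 2) * X i) →
      ((EI I (monomial (γ + γ') 1)).coeff 0 = 1 ∧
      (EI I (monomial (γ + γ') 1)).coeff 1 =
        ∑ i, if i ∈ I then 0 else C ((γ + γ') i : ZMod 2) * X i) := by
    intro γ γ' h h'
    have e : (monomial (γ + γ') 1 : MvPolynomial σ ℤ) = monomial γ 1 * monomial γ' 1 := by
      rw [monomial_mul, one_mul]
    rw [e, map_mul, Polynomial.mul_coeff_zero, Polynomial.mul_coeff_one, h.1, h.2, h'.1, h'.2]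
    refine ⟨one_mul _, ?_⟩
    rw [one_mul, mul_one, ← Finset.sum_add_distrib]
    refine Finset.sum_congr rfl fun i _ => ?_
    split_ifs
    · simp
    · simp only [Finsupp.add_apply, Nat.cast_add, map_add]; ring
  have hzero : (EI I (monomial 0 1)).coeff 0 = 1 ∧ (EI I (monomial 0 1)).coeff 1 =
      ∑ i, if i ∈ I then 0 else C ((0 : σ →₀ ℕ) i : ZMod 2) * X i := by
    have e : (monomial 0 1 : MvPolynomial σ ℤ) = 1 := rfl
    rw [e, map_one]
    simp [Polynomial.coeff_one]
  induction γ using Finsupp.induction_linear with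
  | zero => exact hzero
  | add γ γ' h h' => exact hadd _ _ h h'
  | single j k =>
    induction k with
    | zero => rw [Finsupp.single_zero]; exact hzero
    | succ k ih =>
      rw [Finsupp.single_add]
      refine hadd _ _ ih ?_
      have e : (monomial (Finsupp.single j 1) 1 : MvPolynomial σ ℤ) = X j := rfl
      rw [e, EI, eval₂Hom_X', Finset.sum_eq_single j]
      · split_ifs <;> simp [Polynomial.coeff_one]
      · intro i _ hi
        simp [Finsupp.single_eq_of_ne hi]
      · simp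

end Master

/-- `EI I (monomial γ 1) = ∏_{i ∉ I} (1 + x_i ε)^(γ i)`. -/
theorem EI_coeff_zero (I : Finset σ) (γ : σ →₀ ℕ) : (EI I (monomial γ 1)).coeff 0 = 1 :=
  (EI_coeffs I γ).1

theorem X_dvd_one_sub_EI (I : Finset σ) (γ : σ →₀ ℕ) :
    Polynomial.X ∣ 1 - EI I (monomial γ 1) := by
  rw [Polynomial.X_dvd_iff, Polynomial.coeff_sub, EI_coeff_zero]
  simp

/-- The linear coefficient is `∑_{i ∉ I} γ i • x_i`. -/
theorem EI_coeff_one_ne_zero {I : Finset σ} {γ : σ →₀ ℕ} (h : Act I γ) :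
    (1 - EI I (monomial γ 1)).coeff 1 ≠ 0 := by
  obtain ⟨j, hj, hodd⟩ := h
  rw [Polynomial.coeff_sub, (EI_coeffs I γ).2, Polynomial.coeff_one, if_neg one_ne_zero, zero_sub,
    neg_ne_zero]
  intro h0
  have h1 := congrArg (coeff (Finsupp.single j 1)) h0
  rw [coeff_sum, Finset.sum_eq_single j, if_neg hj, coeff_C_mul, coeff_X, if_pos rfl, mul_one,
    coeff_zero, ZMod.natCast_eq_zero_iff_even] at h1
  · exact (Nat.not_even_iff_odd.2 hodd) h1
  · intro i _ hi
    split_ifs
    · simp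
    · rw [coeff_C_mul, coeff_X, if_neg, mul_zero]
      intro h2
      exact hi (Finsupp.single_left_injective one_ne_zero h2)
  · simp

/-- `(1 + x ε)² = 1 + x² ε²` in characteristic two (or: the linear coefficient vanishes). -/
theorem X_sq_dvd_one_sub_EI {I : Finset σ} {γ : σ →₀ ℕ} (h : ¬ Act I γ) :
    Polynomial.X ^ 2 ∣ 1 - EI I (monomial γ 1) := by
  rw [Polynomial.X_pow_dvd_iff]
  intro d hd
  interval_cases d
  · rw [Polynomial.coeff_sub, EI_coeff_zero]
    simp
  · rw [Polynomial.coeff_sub, (EI_coeffs I γ).2, Polynomial.coeff_one, if_neg one_ne_zero,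
      zero_sub, neg_eq_zero]
    refine Finset.sum_eq_zero fun i _ => ?_
    split_ifs with hi
    · rfl
    · have : Even (γ i) := Nat.not_odd_iff_even.1 fun ho => h ⟨i, hi, ho⟩
      rw [ZMod.natCast_eq_zero_iff_even.2 this, map_zero, zero_mul]

end Crest.Agent.R180
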