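import Mathlib

/-!
# Row 180: the twisted group algebra (tensor product of `m` quaternion algebras)

`Tw s` is the free `R`-module on `u ψ` (`ψ ∈ 𝔽₂^(2m)`) with
`u ψ * u φ = (-1)^β(ψ,φ) (∏_{i ∈ ψ ∩ φ} s i) u (ψ + φ)`.
-/

set_option autoImplicit false

namespace Crest.Agent.R180

open Finset

/-- Indices of the generators. -/
abbrev Sg (m : ℕ) := Fin m × Bool
/-- Exponent vectors. -/
abbrev Hh (m : ℕ) := Sg m → ZMod 2

variable {m : ℕ} {R R' : Type} [CommRing R] [CommRing R']

theorem zmod2_cases (a : ZMod 2) : a = 0 ∨ a = 1 := by revert a; decide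

theorem Hh.add_self (ψ : Hh m) : ψ + ψ = 0 := by
  funext i; exact CharTwo.add_self_eq_zero _

theorem Hh.add_add_cancel (ψ φ : Hh m) : ψ + (ψ + φ) = φ := by
  rw [← add_assoc, Hh.add_self, zero_add]

theorem Hh.add_eq_zero_iff {ψ φ : Hh m} : ψ + φ = 0 ↔ ψ = φ := by
  constructor
  · intro h; rw [← Hh.add_add_cancel ψ φ, h, add_zero]
  · rintro rfl; exact Hh.add_self _

theorem card_Hh : Fintype.card (Hh m) = 4 ^ m := by
  simp [Hh, Sg, mul_comm m 2, pow_mul]

/-- The bilinear form giving the signs. -/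
def beta (ψ φ : Hh m) : ZMod 2 := ∑ i : Fin m, ψ (i, true) * φ (i, false)

theorem beta_add_left (ψ φ χ : Hh m) : beta (ψ + φ) χ = beta ψ χ + beta φ χ := by
  simp [beta, add_mul, sum_add_distrib]

theorem beta_add_right (ψ φ χ : Hh m) : beta ψ (φ + χ) = beta ψ φ + beta ψ χ := by
  simp [beta, mul_add, sum_add_distrib]

@[simp] theorem beta_zero_left (φ : Hh m) : beta 0 φ = 0 := by simp [beta]
@[simp] theorem beta_zero_right (φ : Hh m) : beta φ 0 = 0 := by simp [beta]

/-- `(-1)^a`. -/
def sgn (R : Type) [CommRing R] (a : ZMod 2) : R := if a = 0 then 1 else -1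

@[simp] theorem sgn_zero : sgn R 0 = 1 := by simp [sgn]
@[simp] theorem sgn_one : sgn R 1 = -1 := by simp [sgn]

theorem sgn_add (a b : ZMod 2) : sgn R (a + b) = sgn R a * sgn R b := by
  rcases zmod2_cases a with rfl | rfl <;> rcases zmod2_cases b with rfl | rfl <;>
    simp [show (1 : ZMod 2) + 1 = 0 from rfl]

theorem sgn_mul_self (a : ZMod 2) : sgn R a * sgn R a = 1 := by
  rw [← sgn_add, CharTwo.add_self_eq_zero, sgn_zero]

@[simp] theorem map_sgn (π : R →+* R') (a : ZMod 2) : π (sgn R a) = sgn R' a := by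
  unfold sgn; split_ifs <;> simp

/-- The structure constants. -/
def coc (s : Sg m → R) (ψ φ : Hh m) : R :=
  sgn R (beta ψ φ) * ∏ i, if ψ i = 1 ∧ φ i = 1 then s i else 1

@[simp] theorem coc_zero_left (s : Sg m → R) (φ : Hh m) : coc s 0 φ = 1 := by simp [coc]
@[simp] theorem coc_zero_right (s : Sg m → R) (φ : Hh m) : coc s φ 0 = 1 := by simp [coc]

theorem coc_assoc (s : Sg m → R) (ψ η ξ : Hh m) :
    coc s ψ η * coc s (ψ + η) ξ = coc s η ξ * coc s ψ (η + ξ) := by
  unfold coc
  rw [mul_mul_mul_comm, mul_mul_mul_comm (sgn R (beta η ξ)), ← prod_mul_distrib,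
    ← prod_mul_distrib, ← sgn_add, ← sgn_add, beta_add_left, beta_add_right]
  congr 1
  · congr 1; ring
  · refine prod_congr rfl fun i _ => ?_
    simp only [Pi.add_apply]
    rcases zmod2_cases (ψ i) with h1 | h1 <;> rcases zmod2_cases (η i) with h2 | h2 <;>
      rcases zmod2_cases (ξ i) with h3 | h3 <;>
      simp [h1, h2, h3, show (1 : ZMod 2) + 1 = 0 from rfl]

theorem map_coc (π : R →+* R') (s : Sg m → R) (ψ φ : Hh m) :
    π (coc s ψ φ) = coc (fun i => π (s i)) ψ φ := by
  unfold coc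
  rw [map_mul, map_sgn, map_prod]
  congr 1
  exact prod_congr rfl fun i _ => by split_ifs <;> simp

/-- The twisted group algebra. -/
def Tw (_s : Sg m → R) : Type := Hh m → R

namespace Tw

variable {s : Sg m → R} {s' : Sg m → R'}

instance : AddCommGroup (Tw s) := inferInstanceAs (AddCommGroup (Hh m → R))
instance : Module R (Tw s) := inferInstanceAs (Module R (Hh m → R))
instance : CoeFun (Tw s) (fun _ => Hh m → R) := ⟨fun a => a⟩

omit [CommRing R] in
@[ext] theorem ext {a b : Tw s} (h : ∀ ψ, a ψ = b ψ) : a = b := funext h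

@[simp] theorem zero_apply (ψ : Hh m) : (0 : Tw s) ψ = 0 := rfl
@[simp] theorem add_apply (a b : Tw s) (ψ : Hh m) : (a + b) ψ = a ψ + b ψ := rfl
@[simp] theorem neg_apply (a : Tw s) (ψ : Hh m) : (-a) ψ = -a ψ := rfl
@[simp] theorem sub_apply (a b : Tw s) (ψ : Hh m) : (a - b) ψ = a ψ - b ψ := rfl
@[simp] theorem smul_apply (r : R) (a : Tw s) (ψ : Hh m) : (r • a) ψ = r * a ψ := rfl

theorem sum_apply {ι : Type} (t : Finset ι) (f : ι → Tw s) (ψ : Hh m) :
    (∑ i ∈ t, f i) ψ = ∑ i ∈ t, f i ψ := Finset.sum_apply ψ t f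

/-- An element from its coordinates. -/
def mk (s : Sg m → R) (f : Hh m → R) : Tw s := f

omit [CommRing R] in
@[simp] theorem mk_apply (f : Hh m → R) (ψ : Hh m) : mk s f ψ = f ψ := rfl

/-- The basis vectors. -/
def u (s : Sg m → R) (ψ : Hh m) : Tw s := mk s fun φ => if φ = ψ then 1 else 0

theorem u_apply (ψ φ : Hh m) : u s ψ φ = if φ = ψ then 1 else 0 := rfl

instance : One (Tw s) := ⟨u s 0⟩
instance : Mul (Tw s) := ⟨fun a b => mk s fun χ => ∑ ψ, coc s ψ (ψ + χ) * (a ψ * b (ψ + χ))⟩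

theorem one_apply (φ : Hh m) : (1 : Tw s) φ = if φ = 0 then 1 else 0 := rfl

theorem mul_apply (a b : Tw s) (χ : Hh m) :
    (a * b) χ = ∑ ψ, coc s ψ (ψ + χ) * (a ψ * b (ψ + χ)) := rfl

instance : Ring (Tw s) where
  mul_assoc a b c := by
    ext χ
    simp only [mul_apply, sum_mul, mul_sum]
    rw [sum_comm]
    refine sum_congr rfl fun ψ _ => ?_
    rw [← Equiv.sum_comp (Equiv.addLeft ψ)]
    refine sum_congr rfl fun η _ => ?_
    simp only [Equiv.coe_addLeft, Hh.add_add_cancel]
    have h := coc_assoc s ψ η (ψ + η + χ)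
    have h1 : η + (ψ + η + χ) = ψ + χ := by
      rw [add_comm ψ η, add_assoc η ψ, Hh.add_add_cancel]
    have h2 : η + (ψ + χ) = ψ + η + χ := by abel
    rw [h1] at h
    rw [h2]
    linear_combination (a ψ * b η * c (ψ + η + χ)) * h
  one_mul a := by
    ext χ
    rw [mul_apply, sum_eq_single 0] <;> simp +contextual [one_apply]
  mul_one a := by
    ext χ
    rw [mul_apply, sum_eq_single χ] <;>
      simp +contextual [one_apply, Hh.add_self, Hh.add_eq_zero_iff]
  left_distrib a b c := by ext χ; simp [mul_apply, mul_add, sum_add_distrib]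
  right_distrib a b c := by ext χ; simp [mul_apply, mul_add, add_mul, sum_add_distrib]
  zero_mul a := by ext χ; simp [mul_apply]
  mul_zero a := by ext χ; simp [mul_apply]

instance : Algebra R (Tw s) :=
  Algebra.ofModule
    (fun r a b => by ext χ; simp [mul_apply, mul_sum, mul_left_comm, mul_assoc])
    (fun r a b => by ext χ; simp [mul_apply, mul_sum, mul_left_comm])

theorem algebraMap_apply (r : R) (φ : Hh m) :
    algebraMap R (Tw s) r φ = if φ = 0 then r else 0 := by
  rw [Algebra.algebraMap_eq_smul_one, smul_apply, one_apply]; split_ifs <;> simp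

/-- Coordinates as a linear equivalence. -/
def coord (s : Sg m → R) : Tw s ≃ₗ[R] (Hh m → R) := LinearEquiv.refl R (Hh m → R)

@[simp] theorem coord_apply (a : Tw s) (ψ : Hh m) : coord s a ψ = a ψ := rfl

instance : Module.Free R (Tw s) := Module.Free.of_equiv (coord s).symm
instance : Module.Finite R (Tw s) := Module.Finite.equiv (coord s).symm

theorem finrank_eq [Nontrivial R] : Module.finrank R (Tw s) = 4 ^ m := by
  rw [(coord s).finrank_eq, Module.finrank_fintype_fun_eq_card, card_Hh]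

theorem sum_smul_u (a : Tw s) : ∑ ψ, a ψ • u s ψ = a := by
  ext φ
  rw [sum_apply, sum_eq_single φ] <;> simp +contextual [u_apply, eq_comm]

theorem u_zero : u s 0 = 1 := rfl

theorem u_mul_apply (ψ : Hh m) (b : Tw s) (χ : Hh m) :
    (u s ψ * b) χ = coc s ψ (ψ + χ) * b (ψ + χ) := by
  rw [mul_apply, sum_eq_single ψ] <;> simp +contextual [u_apply]

theorem mul_u_apply (a : Tw s) (φ χ : Hh m) :
    (a * u s φ) χ = coc s (φ + χ) φ * a (φ + χ) := by
  have h : φ + χ + χ = φ := by rw [add_assoc, Hh.add_self, add_zero]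
  rw [mul_apply, sum_eq_single (φ + χ)]
  · simp [u_apply, h]
  · intro ψ _ hψ
    rw [u_apply, if_neg, mul_zero, mul_zero]
    rintro rfl
    exact hψ (by rw [add_assoc, Hh.add_self, add_zero])
  · simp

theorem u_mul_u (ψ φ : Hh m) : u s ψ * u s φ = coc s ψ φ • u s (ψ + φ) := by
  ext χ
  rw [u_mul_apply, smul_apply, u_apply, u_apply]
  by_cases h : χ = ψ + φ
  · subst h; simp [Hh.add_add_cancel]
  · rw [if_neg h, if_neg, mul_zero, mul_zero]
    rintro rfl
    exact h (Hh.add_add_cancel ψ χ).symm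

/-- The normalised trace: the coefficient of `1`. -/
def tr (s : Sg m → R) : Tw s →ₗ[R] R where
  toFun a := a 0
  map_add' _ _ := rfl
  map_smul' _ _ := rfl

@[simp] theorem tr_apply (a : Tw s) : tr s a = a 0 := rfl

theorem tr_one : tr s 1 = 1 := by simp [one_apply]

instance [Nontrivial R] : Nontrivial (Tw s) :=
  ⟨⟨1, 0, fun h => by simpa [one_apply] using congrArg (fun a : Tw s => a 0) h⟩⟩

/-- Change of coefficients. -/
def map (π : R →+* R') (h : ∀ i, π (s i) = s' i) : Tw s →+* Tw s' where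
  toFun a := mk s' fun ψ => π (a ψ)
  map_one' := by ext ψ; simp only [mk_apply, one_apply]; split_ifs <;> simp
  map_mul' a b := by
    ext χ
    simp only [mk_apply, mul_apply, map_sum, map_mul, map_coc, h]
  map_zero' := by ext ψ; simp
  map_add' a b := by ext ψ; simp

@[simp] theorem map_apply (π : R →+* R') (h : ∀ i, π (s i) = s' i) (a : Tw s) (ψ : Hh m) :
    map π h a ψ = π (a ψ) := rfl

theorem map_smul (π : R →+* R') (h : ∀ i, π (s i) = s' i) (r : R) (a : Tw s) :
    map π h (r • a) = π r • map π h a := by ext ψ; simp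

theorem tr_map (π : R →+* R') (h : ∀ i, π (s i) = s' i) (a : Tw s) :
    tr s' (map π h a) = π (tr s a) := rfl

theorem map_u (π : R →+* R') (h : ∀ i, π (s i) = s' i) (ψ : Hh m) :
    map π h (u s ψ) = u s' ψ := by
  ext φ; simp only [map_apply, u_apply]; split_ifs <;> simp

end Tw

end Crest.Agent.R180
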