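import Mathlib

/-! # Row 180: abstract lemmas for the ultraproduct step -/

set_option autoImplicit false

namespace Crest.Agent.R180.Ultra

open Finset

/-- A submodule containing `1` and stable under left multiplication by `x, y` contains the
subalgebra generated by `x, y`. -/
theorem mem_of_stable {K A : Type} [CommRing K] [Ring A] [Algebra K A] (x y : A)
    (V : Submodule K A) (h1 : (1 : A) ∈ V) (hx : ∀ v ∈ V, x * v ∈ V) (hy : ∀ v ∈ V, y * v ∈ V)
    (b : A) (hb : b ∈ Algebra.adjoin K ({x, y} : Set A)) : b ∈ V := by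
  have key : ∀ v ∈ V, b * v ∈ V := by
    induction hb using Algebra.adjoin_induction with
    | mem a ha =>
      rcases ha with rfl | rfl
      · exact hx
      · exact hy
    | algebraMap r => intro v hv; rw [← Algebra.smul_def]; exact V.smul_mem r hv
    | add a b _ _ ha hb => intro v hv; rw [add_mul]; exact V.add_mem (ha v hv) (hb v hv)
    | mul a b _ _ ha hb => intro v hv; rw [mul_assoc]; exact ha _ (hb v hv)
  simpa using key 1 h1

/-- The same for the span of a family. -/
theorem mem_span_of_stable {K A ι : Type} [CommRing K] [Ring A] [Algebra K A] (x y : A)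
    (w : ι → A) (h1 : (1 : A) ∈ Submodule.span K (Set.range w))
    (hx : ∀ i, x * w i ∈ Submodule.span K (Set.range w))
    (hy : ∀ i, y * w i ∈ Submodule.span K (Set.range w))
    (b : A) (hb : b ∈ Algebra.adjoin K ({x, y} : Set A)) :
    b ∈ Submodule.span K (Set.range w) := by
  have aux : ∀ z : A, (∀ i, z * w i ∈ Submodule.span K (Set.range w)) →
      ∀ v ∈ Submodule.span K (Set.range w), z * v ∈ Submodule.span K (Set.range w) := by
    intro z hz v hv
    induction hv using Submodule.span_induction with
    | mem a ha => obtain ⟨i, rfl⟩ := ha; exact hz i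
    | zero => simp
    | add a b _ _ ha hb => rw [mul_add]; exact Submodule.add_mem _ ha hb
    | smul r a _ ha => rw [mul_smul_comm]; exact Submodule.smul_mem _ r ha
  exact mem_of_stable x y _ h1 (aux x hx) (aux y hy) b hb

/-- Noncommutative Artin–Tate for algebraic algebras. -/
theorem finite_of_finite_tower {K Z A : Type} [Field K] [Field Z] [Ring A] [Nontrivial A]
    [Algebra K Z] [Algebra Z A] [Algebra K A] [IsScalarTower K Z A] [Algebra.IsAlgebraic K A]
    (x y : A) (hgen : Algebra.adjoin K ({x, y} : Set A) = ⊤) [Module.Finite Z A] :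
    Module.Finite K A := by
  classical
  obtain ⟨n, w, hw⟩ := Module.Finite.exists_fin (R := Z) (M := A)
  have hc : ∀ a : A, ∃ c : Fin n → Z, ∑ i, c i • w i = a := fun a =>
    (Submodule.mem_span_range_iff_exists_fun Z).1 (hw ▸ Submodule.mem_top)
  choose c hc using hc
  let s : Set Z := Set.range (c 1) ∪ (Set.range fun p : Fin n × Fin n => c (x * w p.1) p.2) ∪
    (Set.range fun p : Fin n × Fin n => c (y * w p.1) p.2)
  have hs : s.Finite :=
    ((Set.finite_range _).union (Set.finite_range _)).union (Set.finite_range _)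
  have hint : ∀ z : Z, IsIntegral K z := fun z => by
    have h1 : IsAlgebraic K (IsScalarTower.toAlgHom K Z A z) := Algebra.IsAlgebraic.isAlgebraic _
    exact ((isAlgebraic_algHom_iff _ (algebraMap Z A).injective).1 h1).isIntegral
  let F' : Subalgebra K Z := Algebra.adjoin K s
  have : Module.Finite K F' := Algebra.finite_adjoin_of_finite_of_isIntegral hs fun z _ => hint z
  have hmem : ∀ a : A, (∀ i, c a i ∈ s) → a ∈ Submodule.span F' (Set.range w) := by
    intro a ha
    rw [← hc a]
    refine Submodule.sum_mem _ fun i _ => ?_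
    exact Submodule.smul_mem _ (⟨c a i, Algebra.subset_adjoin (ha i)⟩ : F')
      (Submodule.subset_span ⟨i, rfl⟩)
  have htop : Submodule.span F' (Set.range w) = ⊤ := by
    rw [eq_top_iff]
    intro b _
    refine mem_span_of_stable x y w (hmem _ fun i => Or.inl (Or.inl ⟨i, rfl⟩))
      (fun i => hmem _ fun j => Or.inl (Or.inr ⟨(i, j), rfl⟩))
      (fun i => hmem _ fun j => Or.inr ⟨(i, j), rfl⟩) b ?_
    have hb : b ∈ Algebra.adjoin K ({x, y} : Set A) := hgen ▸ Algebra.mem_top
    have hle : Algebra.adjoin K ({x, y} : Set A) ≤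
        (Algebra.adjoin F' ({x, y} : Set A)).restrictScalars K :=
      Algebra.adjoin_le Algebra.subset_adjoin
    exact hle hb
  have : Module.Finite F' A := ⟨htop ▸ Submodule.fg_span (Set.finite_range w)⟩
  exact Module.Finite.trans F' A

theorem final_of_div {K D : Type} [Field K] [DivisionRing D] [Algebra K D]
    [Algebra.IsAlgebraic K D] (x y : D) (hgen : Algebra.adjoin K ({x, y} : Set D) = ⊤)
    (hinf : ¬ Module.Finite K D) :
    Algebra.IsAlgebraic (Subring.center D) D ∧
      (∃ x y : D, Algebra.adjoin (Subring.center D) ({x, y} : Set D) = ⊤) ∧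
      ¬ FiniteDimensional (Subring.center D) D := by
  let : Algebra K (Subring.center D) :=
    ((algebraMap K D).codRestrict (Subring.center D) fun r =>
      Subring.mem_center_iff.2 fun g => (Algebra.commutes r g).symm).toAlgebra
  have : IsScalarTower K (Subring.center D) D := .of_algebraMap_eq fun _ => rfl
  refine ⟨⟨fun a => (Algebra.IsAlgebraic.isAlgebraic (R := K) a).tower_top _⟩, ⟨x, y, ?_⟩,
    fun hfin => hinf (finite_of_finite_tower (Z := Subring.center D) x y hgen)⟩
  rw [eq_top_iff]
  intro b _
  have hb : b ∈ Algebra.adjoin K ({x, y} : Set D) := hgen ▸ Algebra.mem_top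
  have hle : Algebra.adjoin K ({x, y} : Set D) ≤
      (Algebra.adjoin (Subring.center D) ({x, y} : Set D)).restrictScalars K :=
    Algebra.adjoin_le Algebra.subset_adjoin
  exact hle hb

/-- The abstract conclusion. -/
theorem final_of_alg {K A : Type} [Field K] [CharZero K] [Ring A] [IsDomain A] [Algebra K A]
    (x y : A) (hc : (Algebra.adjoin K ({x, y} : Set A) : Set A).Countable)
    (halg : ∀ b ∈ Algebra.adjoin K ({x, y} : Set A), IsAlgebraic K b)
    (hinf : ¬ (Algebra.adjoin K ({x, y} : Set A)).toSubmodule.FG) :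
    ∃ (D : Type) (_ : DivisionRing D), Countable D ∧ CharZero D ∧
      Algebra.IsAlgebraic (Subring.center D) D ∧
      (∃ x y : D, Algebra.adjoin (Subring.center D) ({x, y} : Set D) = ⊤) ∧
      ¬ FiniteDimensional (Subring.center D) D := by
  set B := Algebra.adjoin K ({x, y} : Set A) with hB
  have : Algebra.IsAlgebraic K B := (Subalgebra.isAlgebraic_iff B).1 halg
  let : DivisionRing B := DivisionRing.ofIsUnitOrEqZero fun b => by
    by_cases hb : b = 0
    · exact Or.inr hb
    · exact Or.inl ((Algebra.IsAlgebraic.isAlgebraic (R := K) b).isIntegral.isUnit hb)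
  have hx : x ∈ B := Algebra.subset_adjoin (by simp)
  have hy : y ∈ B := Algebra.subset_adjoin (by simp)
  have hgen : Algebra.adjoin K ({⟨x, hx⟩, ⟨y, hy⟩} : Set B) = ⊤ := by
    rw [eq_top_iff, ← Algebra.adjoin_adjoin_coe_preimage (R := K) (s := ({x, y} : Set A))]
    refine Algebra.adjoin_mono ?_
    rintro ⟨b, hb⟩ (h | h)
    · exact Or.inl (Subtype.ext h)
    · exact Or.inr (Subtype.ext h)
  refine ⟨B, inferInstance, hc.to_subtype, charZero_of_injective_algebraMap (algebraMap K B).injective, ?_⟩
  exact final_of_div (K := K) _ _ hgen fun h => hinf (Module.Finite.iff_fg.1 h)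

/-- The least degree of a relation. -/
theorem exists_deg {F A : Type} [Field F] [Ring A] [Algebra F A] (b : A) (d : ℕ)
    (h : ¬ LinearIndependent F fun i : Fin (d + 1) => b ^ (i : ℕ)) :
    ∃ e ≤ d, LinearIndependent F (fun i : Fin e => b ^ (i : ℕ)) ∧
      ∃ c : Fin e → F, b ^ e = ∑ i : Fin e, c i • b ^ (i : ℕ) := by
  induction d with
  | zero =>
    refine ⟨0, le_rfl, linearIndependent_empty_type, fun i => i.elim0, ?_⟩
    rw [linearIndependent_finSucc'] at h
    have h2 : b ^ 0 ∈ Submodule.span F (Set.range fun i : Fin 0 => b ^ (i : ℕ)) := by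
      by_contra h3
      exact h ⟨linearIndependent_empty_type, h3⟩
    simpa using h2
  | succ d ih =>
    by_cases h' : LinearIndependent F fun i : Fin (d + 1) => b ^ (i : ℕ)
    · refine ⟨d + 1, le_rfl, h', ?_⟩
      rw [linearIndependent_finSucc'] at h
      have h2 : b ^ (d + 1) ∈
          Submodule.span F (Set.range fun i : Fin (d + 1) => b ^ (i : ℕ)) := by
        by_contra h3
        exact h ⟨h', h3⟩
      obtain ⟨c, hc⟩ := (Submodule.mem_span_range_iff_exists_fun F).1 h2
      exact ⟨c, hc.symm⟩
    · obtain ⟨e, he, h2⟩ := ih h'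
      exact ⟨e, he.trans (Nat.le_succ d), h2⟩

theorem isAlgebraic_of_rel {K A : Type} [Field K] [Ring A] [Algebra K A] (b : A) (e : ℕ) (g : K)
    (hg : g ≠ 0) (c : Fin e → K) (h : g • b ^ e = ∑ i : Fin e, c i • b ^ (i : ℕ)) :
    IsAlgebraic K b := by
  refine ⟨Polynomial.monomial e g - ∑ i : Fin e, Polynomial.monomial (i : ℕ) (c i), ?_, ?_⟩
  · intro h0
    have h1 := congrArg (fun p => Polynomial.coeff p e) h0
    simp only [Polynomial.coeff_sub, Polynomial.finsetSum_coeff, Polynomial.coeff_monomial,
      Polynomial.coeff_zero, if_true] at h1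
    rw [Finset.sum_eq_zero fun i _ => if_neg (ne_of_lt i.2), sub_zero] at h1
    exact hg h1
  · simp only [map_sub, map_sum, Polynomial.aeval_monomial, ← Algebra.smul_def]
    rw [h, sub_self]

theorem det_mem {R n : Type} [CommRing R] [Fintype n] [DecidableEq n] (S : Subring R)
    (M : Matrix n n R) (h : ∀ i j, M i j ∈ S) : M.det ∈ S := by
  have : M = S.subtype.mapMatrix (Matrix.of fun i j => (⟨M i j, h i j⟩ : S)) := by
    ext i j; rfl
  rw [this, ← RingHom.map_det]
  exact SetLike.coe_mem _

end Crest.Agent.R180.Ultra
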