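import Crest.Agent.R180.Gram
import Crest.Agent.R180.UltraAux

/-! # Row 180: the ultraproduct -/

set_option autoImplicit false

namespace Crest.Agent.R180

open Finset

namespace Ultra

open Filter

instance (L : Lvl) : Nontrivial L.D :=
  ⟨⟨1, 0, fun h => by simpa [L.τ_one] using congrArg L.τ h⟩⟩

instance (L : Lvl) : NoZeroDivisors L.D :=
  ⟨fun {a b} h => by
    by_cases ha : a = 0
    · exact Or.inl ha
    · exact Or.inr ((L.unit a ha).mul_right_eq_zero.1 h)⟩

instance (L : Lvl) : CharZero L.D :=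
  charZero_of_injective_algebraMap (algebraMap L.F L.D).injective

/-- The hyperfilter. -/
noncomputable abbrev UU : Filter ℕ := (hyperfilter ℕ : Filter ℕ)

theorem exists_ultra (L : ℕ → Lvl) : ∃ (DD : Type) (_ : DivisionRing DD)
    (mk : (∀ k, (L k).D) →+* DD), Function.Surjective mk ∧
      ∀ a, mk a = 0 ↔ ∀ᶠ k in UU, a k = 0 := by
  let J : Ideal (∀ k, (L k).D) :=
    { carrier := {a | ∀ᶠ k in UU, a k = 0}
      add_mem' := fun {a b} ha hb => by
        filter_upwards [ha, hb] with k h1 h2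
        simp [h1, h2]
      zero_mem' := Eventually.of_forall fun k => rfl
      smul_mem' := fun c a ha => by
        filter_upwards [ha] with k h1
        simp [h1] }
  have hJ : ∀ a, a ∈ J ↔ ∀ᶠ k in UU, a k = 0 := fun a => Iff.rfl
  have : J.IsTwoSided := ⟨fun {a} b ha => by
    rw [hJ] at ha ⊢
    filter_upwards [ha] with k h1
    simp [h1]⟩
  have h0 : ∀ a, Ideal.Quotient.mk J a = 0 ↔ ∀ᶠ k in UU, a k = 0 := fun a =>
    Ideal.Quotient.eq_zero_iff_mem
  have heq : ∀ a b, (∀ᶠ k in UU, a k = b k) → Ideal.Quotient.mk J a = Ideal.Quotient.mk J b := by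
    intro a b h
    rw [← sub_eq_zero, ← map_sub, h0]
    filter_upwards [h] with k h1
    simp [h1]
  have : Nontrivial ((∀ k, (L k).D) ⧸ J) := ⟨⟨1, 0, fun h => by
    rw [← map_one (Ideal.Quotient.mk J), h0] at h
    obtain ⟨k, hk⟩ := h.exists
    exact one_ne_zero hk⟩⟩
  refine ⟨(∀ k, (L k).D) ⧸ J, DivisionRing.ofIsUnitOrEqZero fun z => ?_, Ideal.Quotient.mk J,
    Ideal.Quotient.mk_surjective, h0⟩
  obtain ⟨a, rfl⟩ := Ideal.Quotient.mk_surjective z
  rw [or_iff_not_imp_right, h0]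
  intro ha
  have ha' : ∀ᶠ k in UU, a k ≠ 0 := Ultrafilter.eventually_not.2 ha
  refine ⟨⟨Ideal.Quotient.mk J a, Ideal.Quotient.mk J fun k => Ring.inverse (a k), ?_, ?_⟩, rfl⟩
  · rw [← map_mul, ← map_one (Ideal.Quotient.mk J)]
    refine heq _ _ ?_
    filter_upwards [ha'] with k h1
    exact Ring.mul_inverse_cancel _ ((L k).unit _ h1)
  · rw [← map_mul, ← map_one (Ideal.Quotient.mk J)]
    refine heq _ _ ?_
    filter_upwards [ha'] with k h1
    exact Ring.inverse_mul_cancel _ ((L k).unit _ h1)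

/-- An ultraproduct of the levels. -/
structure UP (L : ℕ → Lvl) (DD : Type) [DivisionRing DD] where
  mk' : (∀ k, (L k).D) →+* DD
  surj : Function.Surjective mk'
  eq_zero : ∀ a, mk' a = 0 ↔ ∀ᶠ k in UU, a k = 0

namespace UP

variable {L : ℕ → Lvl} {DD : Type} [DivisionRing DD] (P : UP L DD)

theorem mk_eq {a b : ∀ k, (L k).D} : P.mk' a = P.mk' b ↔ ∀ᶠ k in UU, a k = b k := by
  rw [← sub_eq_zero, ← map_sub, P.eq_zero]
  simp only [Pi.sub_apply, sub_eq_zero]

include P in
theorem charZero : CharZero DD :=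
  charZero_of_inj_zero fun n hn => by
    rw [← map_natCast P.mk', P.eq_zero] at hn
    obtain ⟨k, hk⟩ := hn.exists
    simpa using hk

/-- Scalar sequences. -/
def sc (L : ℕ → Lvl) : (∀ k, (L k).F) →+* (∀ k, (L k).D) :=
  RingHom.pi fun k => (algebraMap (L k).F (L k).D).comp (Pi.evalRingHom _ k)

theorem sc_apply (r : ∀ k, (L k).F) (k : ℕ) : sc L r k = algebraMap _ _ (r k) := rfl

/-- Classes of scalar sequences. -/
def phi : (∀ k, (L k).F) →+* Subring.center DD :=
  (P.mk'.comp (sc L)).codRestrict _ fun r => Subring.mem_center_iff.2 fun g => by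
    obtain ⟨a, rfl⟩ := P.surj g
    rw [RingHom.comp_apply, ← map_mul, ← map_mul]
    congr 1
    funext k
    exact (Algebra.commutes (r k) (a k)).symm

theorem coe_phi (r : ∀ k, (L k).F) : (P.phi r : DD) = P.mk' (sc L r) := rfl

theorem phi_smul (r : ∀ k, (L k).F) (a : ∀ k, (L k).D) :
    P.phi r • P.mk' a = P.mk' fun k => r k • a k := by
  change P.mk' (sc L r) * P.mk' a = _
  rw [← map_mul]
  congr 1
  funext k
  exact (Algebra.smul_def (r k) (a k)).symm

theorem phi_eq_zero {r : ∀ k, (L k).F} : P.phi r = 0 ↔ ∀ᶠ k in UU, r k = 0 := by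
  rw [← Subring.coe_eq_zero_iff, coe_phi, P.eq_zero]
  simp only [sc_apply, map_eq_zero]

theorem phi_inv (r : ∀ k, (L k).F) : (P.phi r)⁻¹ = P.phi fun k => (r k)⁻¹ := by
  by_cases h : P.phi r = 0
  · rw [h, inv_zero, eq_comm, phi_eq_zero]
    filter_upwards [P.phi_eq_zero.1 h] with k hk
    simp [hk]
  · refine inv_eq_of_mul_eq_one_right ?_
    rw [phi_eq_zero] at h
    rw [← map_mul, ← sub_eq_zero, ← map_one P.phi, ← map_sub, phi_eq_zero]
    filter_upwards [Ultrafilter.eventually_not.2 h] with k hk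
    simp [mul_inv_cancel₀ hk]

/-- Evaluation at level `k`. -/
def evk (L : ℕ → Lvl) (t : Tm) (k : ℕ) : (L k).D := Tm.ev (L k).τ (L k).x (L k).y t

/-- The class of a term. -/
def E (t : Tm) : DD := P.mk' (evk L t)

/-- The class of the trace of a term. -/
def T (t : Tm) : Subring.center DD := P.phi fun k => (L k).τ (evk L t k)

theorem E_add (a b : Tm) : P.E (.add a b) = P.E a + P.E b := by
  rw [E, E, E, ← map_add]; rfl

theorem E_mul (a b : Tm) : P.E (.mul a b) = P.E a * P.E b := by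
  rw [E, E, E, ← map_mul]; rfl

theorem E_c (n : ℤ) : P.E (.c n) = n := by
  rw [E, ← map_intCast P.mk']; rfl

theorem E_tr (a : Tm) : P.E (.tr a) = P.T a := rfl

theorem E_mul_tr (a b : Tm) : P.E (.mul (.tr a) b) = P.T a • P.E b := by
  rw [E_mul, E_tr]; rfl

theorem T_add (a b : Tm) : P.T (.add a b) = P.T a + P.T b := by
  rw [T, T, T, ← map_add]
  congr 1
  funext k
  exact map_add (L k).τ _ _

theorem T_mul (a b : Tm) : P.T (.mul (.tr a) b) = P.T a * P.T b := by
  rw [T, T, T, ← map_mul]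
  congr 1
  funext k
  change (L k).τ (algebraMap _ _ _ * _) = _
  rw [← Algebra.smul_def, map_smul]
  rfl

theorem T_c (n : ℤ) : P.T (.c n) = n := by
  rw [T, ← map_intCast P.phi]
  congr 1
  funext k
  change (L k).τ (n : (L k).D) = (n : (L k).F)
  rw [← mul_one (n : (L k).D), ← zsmul_eq_mul, map_zsmul, (L k).τ_one]
  simp

theorem T_tr (a : Tm) : P.T (.tr a) = P.T a := by
  rw [T, T]
  congr 1
  funext k
  change (L k).τ (algebraMap _ _ _) = _
  rw [Algebra.algebraMap_eq_smul_one, map_smul, (L k).τ_one, smul_eq_mul, mul_one]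
  rfl

/-- The ring of traces. -/
def Sc : Subring (Subring.center DD) where
  carrier := Set.range P.T
  add_mem' := by rintro _ _ ⟨a, rfl⟩ ⟨b, rfl⟩; exact ⟨_, P.T_add a b⟩
  mul_mem' := by rintro _ _ ⟨a, rfl⟩ ⟨b, rfl⟩; exact ⟨_, P.T_mul a b⟩
  one_mem' := ⟨.c 1, by rw [T_c, Int.cast_one]⟩
  zero_mem' := ⟨.c 0, by rw [T_c, Int.cast_zero]⟩
  neg_mem' := by
    rintro _ ⟨a, rfl⟩
    exact ⟨.mul (.tr (.c (-1))) a, by rw [T_mul, T_c]; simp⟩

/-- The field of traces. -/
def KK : Subfield (Subring.center DD) := Subfield.closure (P.Sc : Set (Subring.center DD))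

theorem T_mem (a : Tm) : P.T a ∈ P.KK := Subfield.subset_closure ⟨a, rfl⟩

theorem exists_of_mem {z : Subring.center DD} (hz : z ∈ P.KK) :
    ∃ a b, P.T b ≠ 0 ∧ z = P.T a / P.T b := by
  obtain ⟨u, hu, v, hv, rfl⟩ := Subfield.mem_closure_iff.1 hz
  rw [Subring.closure_eq] at hu hv
  obtain ⟨a, rfl⟩ := hu
  obtain ⟨b, rfl⟩ := hv
  by_cases hb : P.T b = 0
  · exact ⟨.c 0, .c 1, by simp [T_c], by simp [T_c, hb]⟩
  · exact ⟨a, b, hb, rfl⟩

theorem exists_phi (z : P.KK) : ∃ r, P.phi r = z := by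
  obtain ⟨a, b, -, h⟩ := P.exists_of_mem z.2
  rw [h, div_eq_mul_inv, T, T, phi_inv, ← map_mul]
  exact ⟨_, rfl⟩

/-- The subalgebra generated by `x, y`. -/
abbrev BB : Subalgebra P.KK DD := Algebra.adjoin P.KK ({P.E .x, P.E .y} : Set DD)

theorem E_mem (t : Tm) : P.E t ∈ P.BB := by
  induction t with
  | x => exact Algebra.subset_adjoin (by simp)
  | y => exact Algebra.subset_adjoin (by simp)
  | c n => rw [E_c]; exact intCast_mem _ n
  | add a b ha hb => rw [E_add]; exact add_mem ha hb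
  | mul a b ha hb => rw [E_mul]; exact mul_mem ha hb
  | tr a _ => exact P.BB.algebraMap_mem ⟨P.T a, P.T_mem a⟩

theorem exists_of_mem_BB {b : DD} (hb : b ∈ P.BB) :
    ∃ s t, P.T s ≠ 0 ∧ P.T s • b = P.E t := by
  induction hb using Algebra.adjoin_induction with
  | mem a ha =>
    rcases ha with rfl | rfl
    · exact ⟨.c 1, .x, by simp [T_c], by simp [T_c]⟩
    · exact ⟨.c 1, .y, by simp [T_c], by simp [T_c]⟩
  | algebraMap r =>
    obtain ⟨a, b, hb, h⟩ := P.exists_of_mem r.2
    refine ⟨b, .tr a, hb, ?_⟩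
    change ((P.T b * (r : Subring.center DD) : Subring.center DD) : DD) = _
    rw [h, mul_div_cancel₀ _ hb, E_tr]
  | add a b _ _ ha hb =>
    obtain ⟨s₁, t₁, h₁, e₁⟩ := ha
    obtain ⟨s₂, t₂, h₂, e₂⟩ := hb
    refine ⟨.mul (.tr s₁) s₂, .add (.mul (.tr s₂) t₁) (.mul (.tr s₁) t₂), ?_, ?_⟩
    · rw [T_mul]; exact mul_ne_zero h₁ h₂
    · rw [T_mul, E_add, E_mul_tr, E_mul_tr, ← e₁, ← e₂, smul_add, smul_smul, smul_smul,
        mul_comm (P.T s₂)]
  | mul a b _ _ ha hb =>
    obtain ⟨s₁, t₁, h₁, e₁⟩ := ha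
    obtain ⟨s₂, t₂, h₂, e₂⟩ := hb
    refine ⟨.mul (.tr s₁) s₂, .mul t₁ t₂, ?_, ?_⟩
    · rw [T_mul]; exact mul_ne_zero h₁ h₂
    · rw [T_mul, E_mul, ← e₁, ← e₂, smul_mul_smul_comm]

theorem exists_smul_of_mem_BB {b : DD} (hb : b ∈ P.BB) :
    ∃ s t, b = (⟨(P.T s)⁻¹, inv_mem (P.T_mem s)⟩ : P.KK) • P.E t := by
  obtain ⟨s, t, hs, h⟩ := P.exists_of_mem_BB hb
  refine ⟨s, t, ?_⟩
  change b = (P.T s)⁻¹ • P.E t
  rw [← h, smul_smul, inv_mul_cancel₀ hs, one_smul]

theorem countable_BB : (P.BB : Set DD).Countable := by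
  refine (Set.countable_range fun p : Tm × Tm =>
    (⟨(P.T p.1)⁻¹, inv_mem (P.T_mem p.1)⟩ : P.KK) • P.E p.2).mono fun b hb => ?_
  obtain ⟨s, t, h⟩ := P.exists_smul_of_mem_BB hb
  exact ⟨(s, t), h.symm⟩

/-- Powers of a term. -/
def pw (t : Tm) : ℕ → Tm
  | 0 => .c 1
  | n + 1 => .mul (pw t n) t

theorem evk_pw (t : Tm) (n k : ℕ) : evk L (pw t n) k = evk L t k ^ n := by
  induction n with
  | zero => simp [pw, evk, Tm.ev]
  | succ n ih => rw [pow_succ, ← ih]; rfl

theorem isAlgebraic_E (t : Tm) (d : ℕ)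
    (h : ∀ᶠ k in UU, ¬ LinearIndependent (L k).F fun i : Fin (d + 1) => evk L t k ^ (i : ℕ)) :
    IsAlgebraic P.KK (P.E t) := by
  classical
  have h1 : ∀ᶠ k in UU, ∃ e ∈ Set.Iic d, gramD (L k).τ (evk L t k) e ≠ 0 ∧
      gramF (L k).τ (evk L t k) e = 0 := by
    filter_upwards [h] with k hk
    obtain ⟨e, he, hli, c, hc⟩ := exists_deg _ _ hk
    exact ⟨e, he, gramD_ne_zero _ (L k).τ_one _ _ hli c hc, gramF_eq_zero _ _ _ c hc⟩
  obtain ⟨e, -, h2⟩ := (Ultrafilter.eventually_exists_mem_iff (Set.finite_Iic d)).1 h1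
  let tau : ℕ → ∀ k, (L k).F := fun n k => (L k).τ (evk L t k ^ n)
  have htau : ∀ n, P.phi (tau n) ∈ P.KK := fun n => by
    have : tau n = fun k => (L k).τ (evk L (pw t n) k) := by
      funext k; rw [evk_pw]
    rw [this]
    exact P.T_mem _
  let M : Matrix (Fin e) (Fin e) (∀ k, (L k).F) := Matrix.of fun i j => tau ((i : ℕ) + j)
  let v : Fin e → ∀ k, (L k).F := fun j => tau (e + j)
  let S : Subring (∀ k, (L k).F) := P.KK.toSubring.comap P.phi
  have hM : ∀ k, (Pi.evalRingHom (fun k => (L k).F) k).mapMatrix M =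
      gramM (L k).τ (evk L t k) e := fun k => rfl
  have hG : ∀ k, M.det k = gramD (L k).τ (evk L t k) e := fun k => by
    rw [gramD, ← hM, ← RingHom.map_det]; rfl
  have hC : ∀ i k, (M.updateCol i v).det k = gramC (L k).τ (evk L t k) e i := fun i k => by
    have := (Pi.evalRingHom (fun k => (L k).F) k).map_det (M.updateCol i v)
    rw [gramC, Matrix.cramer_apply, ← hM]
    rw [RingHom.mapMatrix_apply, Matrix.map_updateCol] at this
    exact this
  have hGS : M.det ∈ S := det_mem S M fun i j => htau _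
  have hCS : ∀ i, (M.updateCol i v).det ∈ S := fun i => det_mem S _ fun a b => by
    rw [Matrix.updateCol_apply]
    split_ifs
    · exact htau _
    · exact htau _
  refine isAlgebraic_of_rel _ e (⟨P.phi M.det, hGS⟩ : P.KK) ?_
    (fun i => ⟨P.phi (M.updateCol i v).det, hCS i⟩) ?_
  · intro h0
    have h3 : P.phi M.det = 0 := congrArg Subtype.val h0
    rw [phi_eq_zero] at h3
    obtain ⟨k, hk1, hk2⟩ := (h2.and h3).exists
    exact hk1.1 (hG k ▸ hk2)
  · change P.phi M.det • P.mk' (evk L t) ^ e =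
      ∑ i : Fin e, P.phi (M.updateCol i v).det • P.mk' (evk L t) ^ (i : ℕ)
    simp only [← map_pow, phi_smul, ← map_sum]
    rw [mk_eq]
    filter_upwards [h2] with k hk
    have h4 := hk.2
    rw [gramF, sub_eq_zero] at h4
    simp only [Finset.sum_apply, Pi.pow_apply, hG, hC]
    exact h4

theorem eventually_mem_span {ι : Type} [Fintype ι] (t : ι → Tm) (s : Tm)
    (h : P.E s ∈ Submodule.span P.KK (Set.range fun i => P.E (t i))) :
    ∀ᶠ k in UU, evk L s k ∈ Submodule.span (L k).F (Set.range fun i => evk L (t i) k) := by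
  obtain ⟨c, hc⟩ := (Submodule.mem_span_range_iff_exists_fun _).1 h
  choose r hr using fun i => P.exists_phi (c i)
  have h1 : P.mk' (∑ i, fun k => r i k • evk L (t i) k) = P.mk' (evk L s) := by
    rw [map_sum]
    refine Eq.trans (Finset.sum_congr rfl fun i _ => ?_) hc
    rw [← phi_smul, hr]
    rfl
  filter_upwards [P.mk_eq.1 h1] with k hk
  rw [← hk, Finset.sum_apply]
  exact Submodule.sum_mem _ fun i _ => Submodule.smul_mem _ _ (Submodule.subset_span ⟨i, rfl⟩)

theorem not_fg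
    (h : ∀ k, k < Module.finrank (L k).F
      (Algebra.adjoin (L k).F ({(L k).x, (L k).y} : Set (L k).D))) :
    ¬ P.BB.toSubmodule.FG := by
  intro hfg
  have hspan : P.BB.toSubmodule = Submodule.span P.KK (Set.range P.E) := by
    refine le_antisymm (fun b hb => ?_) (Submodule.span_le.2 ?_)
    · obtain ⟨s, t, rfl⟩ := P.exists_smul_of_mem_BB hb
      exact Submodule.smul_mem _ _ (Submodule.subset_span ⟨t, rfl⟩)
    · rintro _ ⟨t, rfl⟩
      exact P.E_mem t
  rw [hspan, Submodule.fg_span_iff_fg_span_finset_subset] at hfg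
  obtain ⟨s', hs', hsp⟩ := hfg
  choose t ht using fun v : s' => hs' v.2
  have hr : (Set.range fun v => P.E (t v)) = (s' : Set DD) := by
    simp only [ht]
    exact Subtype.range_coe
  have key : ∀ s, ∀ᶠ k in UU,
      evk L s k ∈ Submodule.span (L k).F (Set.range fun i => evk L (t i) k) := fun s =>
    P.eventually_mem_span t s (by
      rw [hr, ← hsp]; exact Submodule.subset_span ⟨s, rfl⟩)
  have hk : ∀ᶠ k in UU, Fintype.card s' ≤ k :=
    (eventually_ge_atTop _).filter_mono Nat.hyperfilter_le_atTop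
  obtain ⟨k, ⟨⟨h1, hx⟩, hy⟩, hk⟩ := ((((key (.c 1)).and
    (eventually_all.2 fun i => key (.mul .x (t i)))).and
    (eventually_all.2 fun i => key (.mul .y (t i)))).and hk).exists
  have hle : (Algebra.adjoin (L k).F ({(L k).x, (L k).y} : Set (L k).D)).toSubmodule ≤
      Submodule.span (L k).F (Set.range fun i => evk L (t i) k) := fun b hb =>
    mem_span_of_stable _ _ _ (by simpa [evk, Tm.ev] using h1) hx hy b hb
  have : Module.Finite (L k).F
      (Submodule.span (L k).F (Set.range fun i => evk L (t i) k)) :=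
    Module.Finite.span_of_finite _ (Set.finite_range _)
  have h2 := Submodule.finrank_mono hle
  rw [Subalgebra.finrank_toSubmodule] at h2
  have h3 := finrank_range_le_card (R := (L k).F) fun i => evk L (t i) k
  exact absurd (h k) (not_lt.2 (h2.trans (h3.trans hk)))

end UP

end Ultra

/-- Choose levels `L k` and the hyperfilter `U` on `ℕ`.  `FF`, `DD` = quotients of `∀ k, (L k).F`, `∀ k, (L k).D` by `U`-almost equality
(`RingCon`; `FF` is a field of characteristic zero, `DD` an `FF`-algebra in which nonzero elements are units).  `Sc` = classes of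
`(τ (ev t))_k`, a countable subring (`τ a * τ b = τ (ev (mul (tr a) b))`), `F₀` the subfield of fractions, `B = adjoin F₀ {x, y}`;
every element of `B` is `δ⁻¹ • [ev t]` with `δ ∈ Sc`, so `B` is countable.  For `t = a j` the degree `d' ≤ d j` of `ev t` over `(L k).F` is constant for `U`-most
`k`, so `gramF = 0`, `gramD ≠ 0` there (`gramF_eq_zero`, `gramD_ne_zero`) and `gramD`, `gramC i` are polynomials in elements of `Sc`: `[ev t]` is algebraic over `F₀`.
So `B` is a division ring (`DivisionRing.ofIsUnitOrEqZero`; inverses of algebraic elements are polynomials in them), algebraic over and generated by `x, y` over its centre `Z ⊇ F₀`.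
If `B` were finite over `Z` with spanning family `w`, the finitely many coefficients of `1, x w_i, y w_i` generate a finite extension `F' ⊆ Z` of `F₀`, the `F'`-span of `w`
contains `1` and is stable under `x, y, F'`, so `B` is finite over `F₀`, spanned by finitely many `[ev t_i]`, `i < M`.  The finitely many relations for `1, x t_i, y t_i` hold
at `U`-most `k`, so the `(L k).F`-span of the `ev t_i` contains `adjoin {x, y}` there, whose dimension is then `≤ M ≤ k` for a suitable `k`. -/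
theorem final_of_levels (a : ℕ → Tm) (ha : Function.Surjective a) (d : ℕ → ℕ)
    (h : ∀ k : ℕ, ∃ L : Lvl,
      (∀ j < k, ¬ LinearIndependent L.F
        fun i : Fin (d j + 1) => (Tm.ev L.τ L.x L.y (a j)) ^ (i : ℕ)) ∧
      k < Module.finrank L.F (Algebra.adjoin L.F ({L.x, L.y} : Set L.D))) :
    ∃ (D : Type) (_ : DivisionRing D), Countable D ∧ CharZero D ∧
      Algebra.IsAlgebraic (Subring.center D) D ∧
      (∃ x y : D, Algebra.adjoin (Subring.center D) ({x, y} : Set D) = ⊤) ∧
      ¬ FiniteDimensional (Subring.center D) D := by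
  choose L hL1 hL2 using h
  obtain ⟨DD, _, mk, hs, h0⟩ := Ultra.exists_ultra L
  let P : Ultra.UP L DD := ⟨mk, hs, h0⟩
  have := P.charZero
  refine Ultra.final_of_alg (K := P.KK) (P.E .x) (P.E .y) P.countable_BB (fun b hb => ?_)
    (P.not_fg hL2)
  obtain ⟨s, t, rfl⟩ := P.exists_smul_of_mem_BB hb
  obtain ⟨j, rfl⟩ := ha t
  refine ((P.isAlgebraic_E (a j) (d j) ?_).isIntegral.smul _).isAlgebraic
  filter_upwards [(Filter.eventually_gt_atTop j).filter_mono Nat.hyperfilter_le_atTop] with k hk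
  exact hL1 k j hk

end Crest.Agent.R180
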